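import Vale.Agent.P032.Sep

/-! Logarithms on convex sets, Poincare-Miranda, crossing lemma. -/

namespace Vale.Agent.P032

open Set Metric Complex

theorem exists_log_convex {E : Type} [NormedAddCommGroup E] [NormedSpace ℝ E] {U : Set E}
    (hU : Convex ℝ U) {g : E → ℂ} (hgc : ContinuousOn g U) (h0 : ∀ x ∈ U, g x ≠ 0) :
    ∃ f : E → ℂ, ContinuousOn f U ∧ ∀ x ∈ U, exp (f x) = g x := by
  classical
  rcases U.eq_empty_or_nonempty with rfl | hne
  · exact ⟨0, continuousOn_empty _, by simp⟩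
  have := hU.contractibleSpace hne
  have := hU.locallyPathConnectedSpace
  obtain ⟨x₀, hx₀U⟩ := hne
  have hx₀ : g x₀ ≠ 0 := h0 _ hx₀U
  lift x₀ to U using hx₀U
  rcases isCoveringMapOn_exp.existsUnique_continuousMap_lifts
    ⟨U.domRestrict g, continuousOn_iff_continuous_domRestrict.mp hgc⟩ (exp_log hx₀)
    (fun x ↦ h0 _ x.2) with ⟨f, ⟨-, hf⟩, -⟩
  obtain ⟨g', hg⟩ : ∃ g' : E → ℂ, ∀ z : U, g' z = f z :=
    ⟨fun z ↦ if hz : z ∈ U then f ⟨z, hz⟩ else 0, by simp⟩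
  refine ⟨g', ?_, ?_⟩
  · rw [continuousOn_iff_continuous_domRestrict]
    convert! map_continuous f
    ext z
    exact hg z
  · intro x hx
    lift x to U using hx
    simpa [hg] using congr($hf x)

theorem const_of_exp {A : Type*} [TopologicalSpace A] {s : Set A} (hs : IsPreconnected s)
    {g : A → ℂ} (hg : ContinuousOn g s) {c : ℂ} (h : ∀ a ∈ s, exp (g a) = c) {a a' : A}
    (ha : a ∈ s) (ha' : a' ∈ s) : g a = g a' :=
  isCoveringMap_exp.constOn_of_comp hs hg (fun a ha a' ha' => Subtype.ext (by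
    simp only [h a ha, h a' ha'])) ha ha'

theorem const_of_exp_eq {A : Type*} [TopologicalSpace A] {s : Set A} (hs : IsPreconnected s)
    {f g : A → ℂ} (hf : ContinuousOn f s) (hg : ContinuousOn g s)
    (h : ∀ a ∈ s, exp (f a) = exp (g a)) {a a' : A}
    (ha : a ∈ s) (ha' : a' ∈ s) : f a - g a = f a' - g a' :=
  const_of_exp hs (hf.sub hg) (c := 1) (fun a ha => by
    rw [Pi.sub_apply, exp_sub, h a ha, div_self (exp_ne_zero _)]) ha ha'

theorem stay {θ : ℝ → ℝ} (hc : ContinuousOn θ (Icc 0 1)) {a b : ℝ}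
    (ha : ∀ t ∈ Icc (0 : ℝ) 1, θ t ≠ a) (hb : ∀ t ∈ Icc (0 : ℝ) 1, θ t ≠ b)
    (h0 : θ 0 ∈ Ioo a b) : θ 1 ∈ Ioo a b := by
  have hp : IsPreconnected (θ '' Icc 0 1) := isPreconnected_Icc.image _ hc
  have m0 : θ 0 ∈ θ '' Icc 0 1 := ⟨0, ⟨le_rfl, zero_le_one⟩, rfl⟩
  have m1 : θ 1 ∈ θ '' Icc 0 1 := ⟨1, ⟨zero_le_one, le_rfl⟩, rfl⟩
  constructor
  · by_contra h
    push Not at h
    obtain ⟨t, ht, hta⟩ := hp.Icc_subset m1 m0 (⟨h, h0.1.le⟩ : a ∈ Icc (θ 1) (θ 0))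
    exact ha t ht hta
  · by_contra h
    push Not at h
    obtain ⟨t, ht, htb⟩ := hp.Icc_subset m0 m1 (⟨h0.2.le, h⟩ : b ∈ Icc (θ 0) (θ 1))
    exact hb t ht htb

/-- the unit square -/
def sq : Set (ℝ × ℝ) := Icc 0 1 ×ˢ Icc 0 1

theorem sq_compact : IsCompact sq := isCompact_Icc.prod isCompact_Icc

theorem sq_convex : Convex ℝ sq := (convex_Icc 0 1).prod (convex_Icc 0 1)

/-- Poincare-Miranda, strict form -/
theorem miranda {f g : ℝ × ℝ → ℝ} (hf : Continuous f) (hg : Continuous g)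
    (hb : ∀ t ∈ Icc (0 : ℝ) 1, f (t, 0) < 0) (ht : ∀ t ∈ Icc (0 : ℝ) 1, 0 < f (t, 1))
    (hl : ∀ t ∈ Icc (0 : ℝ) 1, g (0, t) < 0) (hr : ∀ t ∈ Icc (0 : ℝ) 1, 0 < g (1, t)) :
    ∃ p ∈ sq, f p = 0 ∧ g p = 0 := by
  by_contra hcon
  push Not at hcon
  set F : ℝ × ℝ → ℂ := fun p => (g p : ℂ) + (f p : ℂ) * I with hF
  have hre : ∀ p, (F p).re = g p := by intro p; simp [hF]
  have him : ∀ p, (F p).im = f p := by intro p; simp [hF]
  have hFc : Continuous F := by rw [hF]; fun_prop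
  have hF0 : ∀ p ∈ sq, F p ≠ 0 := by
    intro p hp h
    exact hcon p hp (by rw [← him, h]; simp) (by rw [← hre, h]; simp)
  obtain ⟨φ, hφc, hφ⟩ := exists_log_convex sq_convex hFc.continuousOn hF0
  have z0 : (0 : ℝ) ∈ Icc (0 : ℝ) 1 := ⟨le_rfl, zero_le_one⟩
  have z1 : (1 : ℝ) ∈ Icc (0 : ℝ) 1 := ⟨zero_le_one, le_rfl⟩
  set ψ : ℝ × ℝ → ℂ := fun p => φ p - φ (0, 0) + log (F (0, 0)) with hψ
  have h00 : ((0, 0) : ℝ × ℝ) ∈ sq := ⟨z0, z0⟩
  have hψe : ∀ p ∈ sq, exp (ψ p) = F p := by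
    intro p hp
    simp only [hψ]
    rw [exp_add, exp_sub, hφ p hp, hφ _ h00, exp_log (hF0 _ h00),
      div_mul_cancel₀ _ (hF0 _ h00)]
  set θ : ℝ × ℝ → ℝ := fun p => (ψ p).im with hθ
  have hθc : ContinuousOn θ sq := by
    have : ContinuousOn ψ sq := (hφc.sub continuousOn_const).add continuousOn_const
    exact continuous_im.comp_continuousOn this
  have hcos : ∀ p ∈ sq, g p = Real.exp (ψ p).re * Real.cos (θ p) := by
    intro p hp; rw [← hre, ← hψe p hp, exp_re]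
  have hsin : ∀ p ∈ sq, f p = Real.exp (ψ p).re * Real.sin (θ p) := by
    intro p hp; rw [← him, ← hψe p hp, exp_im]
  have sneg : ∀ p ∈ sq, f p < 0 → Real.sin (θ p) < 0 := by
    intro p hp h; rw [hsin p hp] at h
    exact neg_of_mul_neg_right h (Real.exp_pos _).le
  have spos : ∀ p ∈ sq, 0 < f p → 0 < Real.sin (θ p) := by
    intro p hp h; rw [hsin p hp] at h
    exact pos_of_mul_pos_right h (Real.exp_pos _).le
  have cneg : ∀ p ∈ sq, g p < 0 → Real.cos (θ p) < 0 := by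
    intro p hp h; rw [hcos p hp] at h
    exact neg_of_mul_neg_right h (Real.exp_pos _).le
  have cpos : ∀ p ∈ sq, 0 < g p → 0 < Real.cos (θ p) := by
    intro p hp h; rw [hcos p hp] at h
    exact pos_of_mul_pos_right h (Real.exp_pos _).le
  have pi_pos := Real.pi_pos
  have e0 : θ (0, 0) = arg (F (0, 0)) := by simp [hθ, hψ, log_im]
  have a1 : -Real.pi < θ (0, 0) := by rw [e0]; exact neg_pi_lt_arg _
  have a2 : θ (0, 0) < -(Real.pi / 2) := by
    rw [e0]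
    by_contra h
    push Not at h
    rcases neg_pi_div_two_le_arg_iff.mp h with h | h
    · rw [hre] at h; linarith [hl 0 z0]
    · rw [him] at h; linarith [hb 0 z0]
  have cB : ContinuousOn (fun t : ℝ => θ (t, 0)) (Icc 0 1) :=
    hθc.comp (by fun_prop) (fun t ht => ⟨ht, z0⟩)
  have cT : ContinuousOn (fun t : ℝ => θ (t, 1)) (Icc 0 1) :=
    hθc.comp (by fun_prop) (fun t ht => ⟨ht, z1⟩)
  have cL : ContinuousOn (fun t : ℝ => θ (0, t)) (Icc 0 1) :=
    hθc.comp (by fun_prop) (fun t ht => ⟨z0, ht⟩)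
  have cR : ContinuousOn (fun t : ℝ => θ (1, t)) (Icc 0 1) :=
    hθc.comp (by fun_prop) (fun t ht => ⟨z1, ht⟩)
  have b1 : θ (1, 0) ∈ Ioo (-Real.pi) 0 := by
    refine stay cB (fun t h e => ?_) (fun t h e => ?_) ⟨a1, by linarith⟩
    · have := sneg (t, 0) ⟨h, z0⟩ (hb t h)
      rw [e] at this; simp at this
    · have := sneg (t, 0) ⟨h, z0⟩ (hb t h)
      rw [e] at this; simp at this
  have b2 : -(Real.pi / 2) < θ (1, 0) := by
    by_contra h
    push Not at h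
    have h1 := cpos (1, 0) ⟨z1, z0⟩ (hr 0 z0)
    have h2 := Real.cos_nonpos_of_pi_div_two_le_of_le (x := -θ (1, 0)) (by linarith)
      (by linarith [b1.1])
    rw [Real.cos_neg] at h2
    linarith
  have b3 : θ (1, 1) ∈ Ioo (-(Real.pi / 2)) (Real.pi / 2) := by
    refine stay cR (fun t h e => ?_) (fun t h e => ?_) ⟨b2, by linarith [b1.2]⟩
    · have := cpos (1, t) ⟨z1, h⟩ (hr t h)
      rw [e] at this; simp at this
    · have := cpos (1, t) ⟨z1, h⟩ (hr t h)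
      rw [e] at this; simp at this
  have c1 : θ (0, 1) ∈ Ioo (-(Real.pi / 2) - Real.pi) (-(Real.pi / 2)) := by
    refine stay cL (fun t h e => ?_) (fun t h e => ?_) ⟨by linarith, a2⟩
    · have := cneg (0, t) ⟨z0, h⟩ (hl t h)
      rw [e, Real.cos_sub_pi] at this; simp at this
    · have := cneg (0, t) ⟨z0, h⟩ (hl t h)
      rw [e] at this; simp at this
  have c2 : θ (0, 1) < -Real.pi := by
    by_contra h
    push Not at h
    have h1 := spos (0, 1) ⟨z0, z1⟩ (ht 0 z0)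
    have h2 := Real.sin_nonpos_of_nonpos_of_neg_pi_le (x := θ (0, 1)) (by linarith [c1.2]) h
    linarith
  have c3 : θ (1, 1) ∈ Ioo (-Real.pi - Real.pi) (-Real.pi) := by
    refine stay cT (fun t h e => ?_) (fun t h e => ?_) ⟨by linarith [c1.1], c2⟩
    · have := spos (t, 1) ⟨h, z1⟩ (ht t h)
      rw [e, Real.sin_sub_pi] at this; simp at this
    · have := spos (t, 1) ⟨h, z1⟩ (ht t h)
      rw [e] at this; simp at this
  linarith [b3.1, c3.2]

theorem exists_sign_fun {X : Type*} [MetricSpace X] {A B : Set X} (hA : IsClosed A) (hB : IsClosed B)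
    (hAn : A.Nonempty) (hBn : B.Nonempty) (hd : Disjoint A B) :
    ∃ f : X → ℝ, Continuous f ∧ (∀ x ∈ A, f x < 0) ∧ ∀ x ∈ B, 0 < f x := by
  refine ⟨fun x => infDist x A - infDist x B,
    (continuous_infDist_pt A).sub (continuous_infDist_pt B), ?_, ?_⟩
  · intro x hx
    have h1 := infDist_zero_of_mem hx
    have h2 := (hB.notMem_iff_infDist_pos hBn).mp (Set.disjoint_left.mp hd hx)
    simp only; linarith
  · intro x hx
    have h1 := infDist_zero_of_mem hx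
    have h2 := (hA.notMem_iff_infDist_pos hAn).mp (Set.disjoint_right.mp hd hx)
    simp only; linarith

theorem cross_sq {K : Set (ℝ × ℝ)} (hK : IsClosed K) :
    (∃ C ⊆ K ∩ sq, IsCompact C ∧ IsPreconnected C ∧ (∃ p ∈ C, p.2 = 0) ∧ ∃ p ∈ C, p.2 = 1) ∨
    (∃ C ⊆ Kᶜ ∩ sq, IsCompact C ∧ IsPreconnected C ∧ (∃ p ∈ C, p.1 = 0) ∧ ∃ p ∈ C, p.1 = 1) := by
  by_contra hcon
  push Not at hcon
  obtain ⟨hc1, hc2⟩ := hcon
  have cl1 : ∀ c : ℝ, IsClosed {p : ℝ × ℝ | p.1 = c} :=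
    fun c => isClosed_eq continuous_fst continuous_const
  have cl2 : ∀ c : ℝ, IsClosed {p : ℝ × ℝ | p.2 = c} :=
    fun c => isClosed_eq continuous_snd continuous_const
  obtain ⟨K₁, K₂, h1, h2, hd, hun, hB, hA⟩ := sep (sq_compact.inter_left hK) (cl2 0) (cl2 1) (by
    rintro C hC hCc hCp ⟨a, ha, ha'⟩ ⟨b, hb, hb'⟩
    exact hc1 C hC hCc hCp ⟨a, ha, ha'⟩ b hb hb')
  obtain ⟨f, hfc, hf1, hf2⟩ := exists_sign_fun (h1.isClosed.union (cl2 0))
    (h2.isClosed.union (cl2 1)) ⟨(0, 0), Or.inr rfl⟩ ⟨(0, 1), Or.inr rfl⟩ (by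
      rw [Set.disjoint_left]
      rintro p (hp | hp) (hq | hq)
      · exact Set.disjoint_left.mp hd hp hq
      · exact Set.disjoint_left.mp hB hp hq
      · exact Set.disjoint_left.mp hA hq hp
      · simp only [mem_ofPred_eq] at hp hq; linarith)
  have hN : IsCompact ({p | f p = 0} ∩ sq) :=
    sq_compact.inter_left (isClosed_eq hfc continuous_const)
  have hNK : {p | f p = 0} ∩ sq ⊆ Kᶜ ∩ sq := by
    rintro p ⟨hp, hps⟩
    refine ⟨fun hpK => ?_, hps⟩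
    have : p ∈ K₁ ∪ K₂ := by rw [hun]; exact ⟨hpK, hps⟩
    simp only [mem_ofPred_eq] at hp
    rcases this with h | h
    · linarith [hf1 p (Or.inl h)]
    · linarith [hf2 p (Or.inl h)]
  obtain ⟨N₁, N₂, g1, g2, gd, gun, gB, gA⟩ := sep hN (cl1 0) (cl1 1) (by
    rintro C hC hCc hCp ⟨a, ha, ha'⟩ ⟨b, hb, hb'⟩
    exact hc2 C (hC.trans hNK) hCc hCp ⟨a, ha, ha'⟩ b hb hb')
  obtain ⟨g, hgc, hg1, hg2⟩ := exists_sign_fun (g1.isClosed.union (cl1 0))
    (g2.isClosed.union (cl1 1)) ⟨(0, 0), Or.inr rfl⟩ ⟨(1, 0), Or.inr rfl⟩ (by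
      rw [Set.disjoint_left]
      rintro p (hp | hp) (hq | hq)
      · exact Set.disjoint_left.mp gd hp hq
      · exact Set.disjoint_left.mp gB hp hq
      · exact Set.disjoint_left.mp gA hq hp
      · simp only [mem_ofPred_eq] at hp hq; linarith)
  obtain ⟨p, hp, hpf, hpg⟩ := miranda hfc hgc (fun t _ => hf1 _ (Or.inr rfl))
    (fun t _ => hf2 _ (Or.inr rfl)) (fun t _ => hg1 _ (Or.inr rfl)) (fun t _ => hg2 _ (Or.inr rfl))
  have : p ∈ N₁ ∪ N₂ := by rw [gun]; exact ⟨hpf, hp⟩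
  rcases this with h | h
  · linarith [hg1 p (Or.inl h)]
  · linarith [hg2 p (Or.inl h)]

/-- crossing lemma -/
theorem cross {K : Set ℂ} (hK : IsClosed K) {Ψ : ℝ × ℝ → ℂ} (hΨ : Continuous Ψ) :
    (∃ C ⊆ K ∩ Ψ '' sq, IsCompact C ∧ IsPreconnected C ∧ (∃ t ∈ Icc (0 : ℝ) 1, Ψ (t, 0) ∈ C) ∧
      ∃ t ∈ Icc (0 : ℝ) 1, Ψ (t, 1) ∈ C) ∨
    (∃ C ⊆ Kᶜ ∩ Ψ '' sq, IsCompact C ∧ IsPreconnected C ∧ (∃ t ∈ Icc (0 : ℝ) 1, Ψ (0, t) ∈ C) ∧
      ∃ t ∈ Icc (0 : ℝ) 1, Ψ (1, t) ∈ C) := by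
  rcases cross_sq (hK.preimage hΨ) with ⟨C, hC, hc, hp, ⟨a, ha, ha'⟩, ⟨b, hb, hb'⟩⟩ |
    ⟨C, hC, hc, hp, ⟨a, ha, ha'⟩, ⟨b, hb, hb'⟩⟩
  · left
    refine ⟨Ψ '' C, ?_, hc.image hΨ, hp.image _ hΨ.continuousOn,
      ⟨a.1, (hC ha).2.1, a, ha, by rw [← ha']⟩, ⟨b.1, (hC hb).2.1, b, hb, by rw [← hb']⟩⟩
    rintro _ ⟨p, hp, rfl⟩
    exact ⟨(hC hp).1, p, (hC hp).2, rfl⟩
  · right
    refine ⟨Ψ '' C, ?_, hc.image hΨ, hp.image _ hΨ.continuousOn,
      ⟨a.2, (hC ha).2.2, a, ha, by rw [← ha']⟩, ⟨b.2, (hC hb).2.2, b, hb, by rw [← hb']⟩⟩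
    rintro _ ⟨p, hp, rfl⟩
    exact ⟨(hC hp).1, p, (hC hp).2, rfl⟩

/-- a closed totally disconnected set does not separate an open convex set -/
theorem joined {B X : Set ℂ} (hB : IsOpen B) (hBc : Convex ℝ B) (hX : IsClosed X)
    (hXt : IsTotallyDisconnected X) {a b : ℂ} (ha : a ∈ B) (hb : b ∈ B) (haX : a ∉ X) (hbX : b ∉ X) :
    ∃ C ⊆ B \ X, IsCompact C ∧ IsPreconnected C ∧ a ∈ C ∧ b ∈ C := by
  by_cases hab : a = b
  · subst hab
    exact ⟨{a}, by simpa using ⟨ha, haX⟩, isCompact_singleton, isPreconnected_singleton, rfl, rfl⟩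
  obtain ⟨e1, he1, h1⟩ := Metric.isOpen_iff.mp (hB.sdiff hX) a ⟨ha, haX⟩
  obtain ⟨e2, he2, h2⟩ := Metric.isOpen_iff.mp (hB.sdiff hX) b ⟨hb, hbX⟩
  have hn : 0 < ‖b - a‖ := norm_pos_iff.mpr (sub_ne_zero.mpr (Ne.symm hab))
  set l : ℝ := min e1 e2 / (2 * ‖b - a‖) with hl
  have hm : 0 < min e1 e2 := lt_min he1 he2
  have hl0 : 0 < l := by positivity
  set h : ℝ → ℂ := fun t => ((t * l : ℝ) : ℂ) * (I * (b - a)) with hh
  have hhn : ∀ t ∈ Icc (0 : ℝ) 1, ‖h t‖ < min e1 e2 := by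
    intro t ht
    simp only [hh, norm_mul, norm_I, one_mul, Complex.norm_real, Real.norm_eq_abs,
      abs_of_nonneg ht.1, abs_of_pos hl0]
    have : l * ‖b - a‖ = min e1 e2 / 2 := by rw [hl]; field_simp
    have h3 : t * l * ‖b - a‖ ≤ l * ‖b - a‖ := by
      have : 0 ≤ l * ‖b - a‖ := by positivity
      nlinarith [ht.2]
    linarith
  have hhc : Continuous h := by rw [hh]; fun_prop
  have hA : ∀ t ∈ Icc (0 : ℝ) 1, a + h t ∈ B \ X := by
    intro t ht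
    apply h1
    rw [mem_ball, dist_eq_norm, add_sub_cancel_left]
    exact (hhn t ht).trans_le (min_le_left _ _)
  have hBB : ∀ t ∈ Icc (0 : ℝ) 1, b + h t ∈ B \ X := by
    intro t ht
    apply h2
    rw [mem_ball, dist_eq_norm, add_sub_cancel_left]
    exact (hhn t ht).trans_le (min_le_right _ _)
  set Ψ : ℝ × ℝ → ℂ := fun p => a + (p.1 : ℂ) * (b - a) + h p.2 with hΨ
  have hΨc : Continuous Ψ := by rw [hΨ]; fun_prop
  rcases cross hX hΨc with ⟨C, hC, -, hp, ⟨s, -, hs⟩, ⟨t, -, ht⟩⟩ |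
    ⟨C, hC, hc, hp, ⟨s, hs', hs⟩, ⟨t, ht', ht⟩⟩
  · exfalso
    have := hXt C (hC.trans inter_subset_left) hp hs ht
    simp only [hΨ, hh] at this
    have h3 : ((s : ℂ) - t - l * I) * (b - a) = 0 := by
      push_cast at this
      linear_combination this
    rcases mul_eq_zero.mp h3 with h4 | h4
    · have := congrArg Complex.im h4
      simp at this
      exact hl0.ne' this
    · exact hab (sub_eq_zero.mp h4).symm
  · have z0 : (0 : ℝ) ∈ Icc (0 : ℝ) 1 := ⟨le_rfl, zero_le_one⟩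
    have hh0 : h 0 = 0 := by simp [hh]
    set L := (fun t => a + h t) '' Icc (0 : ℝ) 1 with hL
    set R := (fun t => b + h t) '' Icc (0 : ℝ) 1 with hR
    have cL : Continuous fun t => a + h t := by fun_prop
    have cR : Continuous fun t => b + h t := by fun_prop
    refine ⟨(L ∪ C) ∪ R, ?_, ((isCompact_Icc.image cL).union hc).union (isCompact_Icc.image cR),
      ?_, Or.inl (Or.inl ⟨0, z0, by simp [hh0]⟩), Or.inr ⟨0, z0, by simp [hh0]⟩⟩
    · rintro z ((⟨u, hu, rfl⟩ | hz) | ⟨u, hu, rfl⟩)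
      · exact hA u hu
      · refine ⟨?_, (hC hz).1⟩
        obtain ⟨p, hp, rfl⟩ := (hC hz).2
        have := hBc (hA p.2 hp.2).1 (hBB p.2 hp.2).1 (a := 1 - p.1) (b := p.1)
          (by linarith [hp.1.2]) hp.1.1 (by ring)
        convert this using 1
        simp only [hΨ, real_smul]; push_cast; ring
      · exact hBB u hu
    · refine IsPreconnected.union (Ψ (1, t)) (Or.inr ht) ⟨t, ht', by simp [hΨ]⟩ ?_
        (isPreconnected_Icc.image _ cR.continuousOn)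
      exact IsPreconnected.union (Ψ (0, s)) ⟨s, hs', by simp [hΨ]⟩ hs
        (isPreconnected_Icc.image _ cL.continuousOn) hp

/-- two closed sets covering a ball, both with interior points in the ball, share a nontrivial
continuum in the ball -/
theorem two_closed {A A' : Set ℂ} (hA : IsClosed A) (hA' : IsClosed A') {x : ℂ} {r : ℝ}
    (hcov : ball x r ⊆ A ∪ A') (h1 : (interior A ∩ ball x r).Nonempty)
    (h2 : (interior A' ∩ ball x r).Nonempty) :
    ∃ β ⊆ A ∩ A' ∩ closedBall x r, IsPreconnected β ∧ β.Nontrivial := by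
  by_contra hcon
  push Not at hcon
  have hcl : IsClosed (A ∩ A' ∩ closedBall x r) := (hA.inter hA').inter isClosed_closedBall
  have htd : IsTotallyDisconnected (A ∩ A' ∩ closedBall x r) := fun t ht hp => hcon t ht hp
  obtain ⟨a, ha, haX⟩ := td_exists_notMem htd (isOpen_interior.inter isOpen_ball) h1
  obtain ⟨b, hb, hbX⟩ := td_exists_notMem htd (isOpen_interior.inter isOpen_ball) h2
  obtain ⟨C, hC, -, hp, haC, hbC⟩ := joined isOpen_ball (convex_ball x r) hcl htd ha.2 hb.2 haX hbX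
  obtain ⟨y, hy, hy1, hy2⟩ := (isPreconnected_closed_iff.mp hp) A A' hA hA'
    (fun y hy => hcov (hC hy).1) ⟨a, haC, interior_subset ha.1⟩ ⟨b, hbC, interior_subset hb.1⟩
  exact (hC hy).2 ⟨⟨hy1, hy2⟩, ball_subset_closedBall (hC hy).1⟩

end Vale.Agent.P032
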