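import Mathlib

/-! Shared definitions for P032 (chromatic number of the plane is at least 6). -/

namespace Vale.Agent.P032

open Set

/-- the unit vector of angle `t` -/
noncomputable def ee (t : ℝ) : ℂ := Complex.exp (t * Complex.I)

/-- positive definite real function on the additive group `ℂ` -/
def PD (φ : ℂ → ℝ) : Prop :=
  ∀ (n : ℕ) (c : Fin n → ℝ) (v : Fin n → ℂ), 0 ≤ ∑ i, ∑ j, c i * c j * φ (v i - v j)

/-- rotation invariant function -/
def Radial (φ : ℂ → ℝ) : Prop := ∀ u v : ℂ, ‖u‖ = 1 → φ (u * v) = φ v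

/-- no continuous part: there are probability vectors on arbitrarily small discs with
arbitrarily small energy -/
def Wild (φ : ℂ → ℝ) : Prop :=
  ∀ ε : ℝ, 0 < ε → ∃ (n : ℕ) (w : Fin n → ℝ) (v : Fin n → ℂ),
    (∀ i, 0 ≤ w i) ∧ ∑ i, w i = 1 ∧ (∀ i, ‖v i‖ ≤ ε) ∧
      ∑ i, ∑ j, w i * w j * φ (v i - v j) ≤ ε

/-- a mean: a linear functional on all real functions (only its values on bounded functions
matter) which is normalised and positive on bounded functions -/
structure IsMean {G : Type*} (M : (G → ℝ) →ₗ[ℝ] ℝ) : Prop where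
  one : M (fun _ => 1) = 1
  nonneg : ∀ (f : G → ℝ) (C : ℝ), (∀ x, |f x| ≤ C) → (∀ x, 0 ≤ f x) → 0 ≤ M f

/-- translation invariance on bounded functions -/
def Invariant {G : Type*} [Mul G] (M : (G → ℝ) →ₗ[ℝ] ℝ) : Prop :=
  ∀ (f : G → ℝ) (C : ℝ), (∀ x, |f x| ≤ C) → ∀ g : G, M (fun x => f (g * x)) = M f

/-- a colour class in the topological model: a regular closed set with no unit distance
between its interior and itself -/
structure Good (S : Set ℂ) : Prop where
  closed : IsClosed S
  reg : S ⊆ closure (interior S)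
  unit : ∀ x ∈ interior S, ∀ y ∈ S, dist x y ≠ 1

/-- `f` has a continuous logarithm on `Z` -/
def HasLog (f : ℂ → ℂ) (Z : Set ℂ) : Prop :=
  ∃ φ : ℂ → ℂ, ContinuousOn φ Z ∧ ∀ z ∈ Z, Complex.exp (φ z) = f z

end Vale.Agent.P032
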