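import Vale.Agent.P032.Patch

/-! Basic geometry of good colour classes. -/

namespace Vale.Agent.P032

open Set Metric Complex Filter Topology

theorem ee_re (t : ℝ) : (ee t).re = Real.cos t := by simp [ee, exp_ofReal_mul_I_re]
theorem ee_im (t : ℝ) : (ee t).im = Real.sin t := by simp [ee, exp_ofReal_mul_I_im]
theorem norm_ee (t : ℝ) : ‖ee t‖ = 1 := by simp [ee, norm_exp_ofReal_mul_I]
theorem ee_add (s t : ℝ) : ee (s + t) = ee s * ee t := by
  simp only [ee]; rw [← exp_add]; push_cast; ring_nf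
@[fun_prop] theorem continuous_ee : Continuous ee := by unfold ee; fun_prop
theorem ee_pi : ee Real.pi = -1 := by simp [ee]
theorem ee_add_pi (t : ℝ) : ee (t + Real.pi) = -ee t := by rw [ee_add, ee_pi]; ring

theorem exists_ee {u : ℂ} (h : ‖u‖ = 1) : ∃ t : ℝ, ee t = u := by
  refine ⟨arg u, ?_⟩
  have := norm_mul_exp_arg_mul_I u
  rw [h] at this
  simpa [ee] using this

theorem exists_polar (u : ℂ) : ∃ t : ℝ, u = (‖u‖ : ℂ) * ee t :=
  ⟨arg u, (norm_mul_exp_arg_mul_I u).symm⟩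

theorem exists_ee_of_dist {x y : ℂ} (h : dist y x = 1) : ∃ t : ℝ, y = x + ee t := by
  obtain ⟨t, ht⟩ := exists_ee (u := y - x) (by rw [← dist_eq_norm, h])
  exact ⟨t, by rw [ht]; ring⟩

theorem dist_ee (x : ℂ) (t : ℝ) : dist (x + ee t) x = 1 := by
  rw [dist_eq_norm, add_sub_cancel_left, norm_ee]

theorem dist_sq (a b : ℂ) : dist a b ^ 2 = (a.re - b.re) ^ 2 + (a.im - b.im) ^ 2 := by
  rw [dist_eq_norm, Complex.sq_norm, normSq_apply]; simp; ring

theorem dist_lt_one_iff (a b : ℂ) : dist a b < 1 ↔ (a.re - b.re) ^ 2 + (a.im - b.im) ^ 2 < 1 := by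
  rw [← dist_sq, sq_lt_one_iff₀ dist_nonneg]

theorem one_lt_dist_iff (a b : ℂ) : 1 < dist a b ↔ 1 < (a.re - b.re) ^ 2 + (a.im - b.im) ^ 2 := by
  rw [← dist_sq, one_lt_sq_iff₀ dist_nonneg]

theorem dist_eq_one_iff (a b : ℂ) : dist a b = 1 ↔ (a.re - b.re) ^ 2 + (a.im - b.im) ^ 2 = 1 := by
  rw [← dist_sq, pow_eq_one_iff_of_nonneg dist_nonneg two_ne_zero]

theorem polar_sq (x : ℂ) (a b s t : ℝ) :
    dist (x + a * ee s) (x + b * ee t) ^ 2 = a ^ 2 + b ^ 2 - 2 * a * b * Real.cos (s - t) := by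
  rw [dist_sq, Real.cos_sub]
  simp only [add_re, mul_re, ofReal_re, ofReal_im, ee_re, ee_im, add_im, mul_im]
  have h1 := Real.sin_sq_add_cos_sq s
  have h2 := Real.sin_sq_add_cos_sq t
  linear_combination a ^ 2 * h1 + b ^ 2 * h2

theorem ee_sq (x : ℂ) (s t : ℝ) : dist (x + ee s) (x + ee t) ^ 2 = 2 - 2 * Real.cos (s - t) := by
  have := polar_sq x 1 1 s t
  simp only [ofReal_one, one_mul] at this
  rw [this]; ring

theorem lt_one_of_sq {d : ℝ} (h : d ^ 2 < 1) : d < 1 := by nlinarith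
theorem one_lt_of_sq {d : ℝ} (h0 : 0 ≤ d) (h : 1 < d ^ 2) : 1 < d := by nlinarith

theorem ee_ne (x : ℂ) {s t : ℝ} (h1 : s < t) (h2 : t < s + 2 * Real.pi) : x + ee s ≠ x + ee t := by
  intro h
  have h3 := ee_sq x s t
  rw [h, dist_self] at h3
  have h4 : Real.cos (s - t) = 1 := by linarith
  rw [Real.cos_eq_one_iff_of_lt_of_lt (by linarith) (by linarith [Real.pi_pos])] at h4
  linarith

theorem norm_ee_sub_le (s t : ℝ) : ‖ee s - ee t‖ ≤ |s - t| := by
  have : ee s - ee t = ee t * (exp (I * ((s - t : ℝ) : ℂ)) - 1) := by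
    simp only [ee]; rw [mul_sub, ← exp_add]; push_cast; ring_nf
  rw [this, norm_mul, norm_ee, one_mul]
  exact Real.norm_exp_I_mul_ofReal_sub_one_le

theorem Good.b0 {S K : Set ℂ} (hS : Good S) (hK : K ⊆ S) (hp : IsPreconnected K) {u v y : ℂ}
    (hu : u ∈ K) (hv : v ∈ K) (h1 : dist y u < 1) (h2 : 1 < dist y v) : y ∉ S := by
  intro hy
  have hev : ∀ᶠ z in 𝓝 y, dist z u < 1 ∧ 1 < dist z v :=
    (((continuous_id.dist continuous_const).continuousAt).eventually_lt continuousAt_const h1).and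
      (continuousAt_const.eventually_lt ((continuous_id.dist continuous_const).continuousAt) h2)
  obtain ⟨z, hz, hz1, hz2⟩ := ((mem_closure_iff_frequently.mp (hS.reg hy)).and_eventually hev).exists
  obtain ⟨w, hw, hw1⟩ := hp.intermediate_value hu hv
    (f := fun w => dist z w) (by fun_prop) (⟨hz1.le, hz2.le⟩ : (1 : ℝ) ∈ Icc _ _)
  exact hS.unit z hz w (hK hw) hw1

theorem Good.diam {S K : Set ℂ} (hS : Good S) (hK : K ⊆ S) (hp : IsPreconnected K) {u v : ℂ}
    (hu : u ∈ K) (hv : v ∈ K) : dist u v ≤ 1 := by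
  by_contra h
  exact hS.b0 hK hp hu hv (by simp) (not_le.mp h) (hK hu)

theorem Good.not_int {S : Set ℂ} (hS : Good S) {x y : ℂ} (hx : x ∈ S) (h : dist y x = 1) :
    y ∉ interior S := fun hy => hS.unit y hy x hx h

theorem mem_of_cover {A B : Set ℂ} (hB : IsClosed B) {y : ℂ} (h : ∀ᶠ z in 𝓝 y, z ∈ A ∨ z ∈ B)
    (hy : y ∉ interior A) : y ∈ B := by
  by_contra hyB
  apply hy
  rw [mem_interior_iff_mem_nhds]
  filter_upwards [h, hB.isOpen_compl.mem_nhds hyB] with z h1 h2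
  exact h1.resolve_right h2

theorem Good.int_ball {S : Set ℂ} (hS : Good S) {x : ℂ} (hx : x ∈ S) {r : ℝ} (hr : 0 < r) :
    (interior S ∩ ball x r).Nonempty := by
  obtain ⟨z, h1, h2⟩ := mem_closure_iff.mp (hS.reg hx) _ isOpen_ball (mem_ball_self hr)
  exact ⟨z, h2, h1⟩

theorem ev_lt {y u : ℂ} (h : dist y u < 1) : ∀ᶠ z in 𝓝 y, dist z u < 1 :=
  ((continuous_id.dist continuous_const).continuousAt).eventually_lt continuousAt_const h

theorem ev_gt {y u : ℂ} (h : 1 < dist y u) : ∀ᶠ z in 𝓝 y, 1 < dist z u :=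
  continuousAt_const.eventually_lt ((continuous_id.dist continuous_const).continuousAt) h

theorem freq_in {y u : ℂ} (h : dist y u = 1) : ∃ᶠ z in 𝓝 y, dist z u < 1 := by
  have : y ∈ closure (ball u 1) := by rw [closure_ball u one_ne_zero]; exact h.le
  exact mem_closure_iff_frequently.mp this

theorem freq_out {y u : ℂ} (h : dist y u = 1) : ∃ᶠ z in 𝓝 y, 1 < dist z u := by
  have : y ∈ closure (closedBall u 1)ᶜ := by
    rw [closure_compl, interior_closedBall u one_ne_zero]; simp [h]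
  exact (mem_closure_iff_frequently.mp this).mono fun z hz => by simpa using hz

theorem seg_lt {y u v : ℂ} (hu : dist y u = 1) (hv : dist y v = 1) (huv : u ≠ v) {s : ℝ}
    (h0 : 0 < s) (h1 : s < 1) :
    dist (y + s * (u - v)) u < 1 ∧ 1 < dist (y + s * (u - v)) v := by
  have hd : 0 < dist u v ^ 2 := pow_pos (dist_pos.mpr huv) 2
  rw [dist_sq] at hd
  rw [dist_eq_one_iff] at hu hv
  rw [dist_lt_one_iff, one_lt_dist_iff]
  simp only [add_re, mul_re, ofReal_re, sub_re, ofReal_im, sub_im, add_im, mul_im]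
  have e1 : s * (1 - s) * ((u.re - v.re) ^ 2 + (u.im - v.im) ^ 2) > 0 := by
    have : 0 < 1 - s := by linarith
    positivity
  have e2 : s * (1 + s) * ((u.re - v.re) ^ 2 + (u.im - v.im) ^ 2) > 0 := by positivity
  constructor
  · nlinarith
  · nlinarith

theorem freq_between {y u v : ℂ} (h : dist y u = 1) (huv : u ≠ v) :
    ∃ᶠ z in 𝓝 y, (dist z u < 1 ∧ 1 < dist z v) ∨ (dist z v < 1 ∧ 1 < dist z u) := by
  rcases lt_trichotomy (dist y v) 1 with h1 | h1 | h1
  · exact ((freq_out h).and_eventually (ev_lt h1)).mono fun z hz => Or.inr ⟨hz.2, hz.1⟩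
  · have ht : Tendsto (fun s : ℝ => y + s * (u - v)) (𝓝[>] 0) (𝓝 y) := by
      have : Continuous fun s : ℝ => y + s * (u - v) := by fun_prop
      have h2 := this.tendsto 0
      simp only [ofReal_zero, zero_mul, add_zero] at h2
      exact h2.mono_left nhdsWithin_le_nhds
    apply ht.frequently
    apply Eventually.frequently
    filter_upwards [Ioo_mem_nhdsGT (zero_lt_one' ℝ)] with s hs
    exact Or.inl (seg_lt h h1 huv hs.1 hs.2)
  · exact ((freq_in h).and_eventually (ev_gt h1)).mono fun z hz => Or.inl hz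

theorem no_open {D E β : Set ℂ} (hD : Good D) (hE : Good E) (hβ : β ⊆ D ∩ E)
    (hp : IsPreconnected β) {u v y : ℂ} (hu : u ∈ β) (hv : v ∈ β) (huv : u ≠ v)
    (h : dist y u = 1) (hev : ∀ᶠ z in 𝓝 y, z ∈ D ∨ z ∈ E) : False := by
  obtain ⟨z, h1, h2⟩ := ((freq_between h huv).and_eventually hev).exists
  have bD : β ⊆ D := hβ.trans inter_subset_left
  have bE : β ⊆ E := hβ.trans inter_subset_right
  rcases h1 with ⟨a, b⟩ | ⟨a, b⟩
  · exact h2.elim (hD.b0 bD hp hu hv a b) (hE.b0 bE hp hu hv a b)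
  · exact h2.elim (hD.b0 bD hp hv hu a b) (hE.b0 bE hp hv hu a b)

theorem two_col_circle {D E W : Set ℂ} (hD : Good D) (hE : Good E) (hW : IsOpen W)
    (hsub : W ⊆ D ∪ E) {b y : ℂ} (hb : b ∈ W) (hbD : b ∈ D) (hbE : b ∈ E) (hy : y ∈ W)
    (h : dist y b = 1) : False := by
  obtain ⟨e1, he1, h1⟩ := Metric.isOpen_iff.mp hW b hb
  obtain ⟨e2, he2, h2⟩ := Metric.isOpen_iff.mp hW y hy
  have hr : 0 < min e1 (e2 / 2) := lt_min he1 (by linarith)
  obtain ⟨β, hβ, hp, u, hu, v, hv, huv⟩ := two_closed hD.closed hE.closed (x := b)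
    (r := min e1 (e2 / 2)) ((ball_subset_ball (min_le_left _ _)).trans (h1.trans hsub))
    (hD.int_ball hbD hr) (hE.int_ball hbE hr)
  have hy' : y + (u - b) ∈ W := by
    apply h2
    rw [mem_ball, dist_eq_norm, add_sub_cancel_left, ← dist_eq_norm]
    have := mem_closedBall.mp (hβ hu).2
    have := min_le_right e1 (e2 / 2)
    linarith
  refine no_open hD hE (hβ.trans inter_subset_left) hp hu hv huv (y := y + (u - b)) ?_ ?_
  · rw [dist_eq_norm] at h ⊢
    rw [← h]; congr 1; ring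
  · filter_upwards [hW.mem_nhds hy'] with z hz using hsub hz

theorem long_arc {D E W K : Set ℂ} (hD : Good D) (hE : Good E) (hW : IsOpen W)
    (hsub : W ⊆ D ∪ E) (hK : K ⊆ W) (hp : IsPreconnected K) (hne : K.Nonempty)
    (hfar : ∀ b ∈ K, ∃ e ∈ K, 1 < dist b e) : False := by
  obtain ⟨b0, hb0⟩ := hne
  obtain ⟨e0, he0, h0⟩ := hfar b0 hb0
  have n1 : (K ∩ E).Nonempty := by
    by_contra hh
    have : K ⊆ D := fun z hz => (hsub (hK hz)).resolve_right fun h => hh ⟨z, hz, h⟩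
    linarith [hD.diam this hp hb0 he0]
  have n2 : (K ∩ D).Nonempty := by
    by_contra hh
    have : K ⊆ E := fun z hz => (hsub (hK hz)).resolve_left fun h => hh ⟨z, hz, h⟩
    linarith [hE.diam this hp hb0 he0]
  obtain ⟨b, hb, hbD, hbE⟩ := (isPreconnected_closed_iff.mp hp) D E hD.closed hE.closed
    (hK.trans hsub) n2 n1
  obtain ⟨e, he, h1⟩ := hfar b hb
  obtain ⟨w, hw, hw1⟩ := hp.intermediate_value hb he
    (f := fun w => dist w b) (by fun_prop)
    (⟨by simp, by simp only [dist_comm e b]; exact h1.le⟩ : (1 : ℝ) ∈ Icc _ _)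
  exact two_col_circle hD hE hW hsub (hK hb) hbD hbE (hK hw) hw1

/-- five good sets covering the plane -/
structure Five (A B C D E : Set ℂ) : Prop where
  a : Good A
  b : Good B
  c : Good C
  d : Good D
  e : Good E
  cov : ∀ z, z ∈ A ∨ z ∈ B ∨ z ∈ C ∨ z ∈ D ∨ z ∈ E

theorem Five.p2 {A B C D E : Set ℂ} (h : Five A B C D E) {K₁ K₂ K₃ : Set ℂ} (s1 : K₁ ⊆ A)
    (s2 : K₂ ⊆ B) (s3 : K₃ ⊆ C) (p1 : IsPreconnected K₁) (p2 : IsPreconnected K₂)
    (p3 : IsPreconnected K₃) {x z : ℂ} (x1 : x ∈ K₁) (x2 : x ∈ K₂) (x3 : x ∈ K₃)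
    (z1 : z ∈ K₁) (z2 : z ∈ K₂) (z3 : z ∈ K₃) : x = z := by
  by_contra hxz
  have hd := h.a.diam s1 p1 x1 z1
  obtain ⟨θ, hθ⟩ := exists_polar (x - z)
  set ρ : ℝ := ‖x - z‖ / 2 with hρ
  have hρ0 : 0 < ρ := by
    have : 0 < ‖x - z‖ := norm_pos_iff.mpr (sub_ne_zero.mpr hxz)
    positivity
  have hρ1 : ρ ≤ 1 / 2 := by rw [dist_eq_norm] at hd; rw [hρ]; linarith
  set m : ℂ := (x + z) / 2 with hm
  have hx : x = m + ρ * ee θ := by
    rw [hm, hρ]; push_cast; linear_combination hθ / 2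
  have hz : z = m + ((-ρ : ℝ) : ℂ) * ee θ := by
    rw [hm, hρ]; push_cast; linear_combination -hθ / 2
  set t0 := Real.arccos (1 / 3) with ht0
  have c0 : Real.cos t0 = 1 / 3 := Real.cos_arccos (by norm_num) (by norm_num)
  have t00 : 0 ≤ t0 := Real.arccos_nonneg _
  have t01 : t0 ≤ Real.pi / 2 := Real.arccos_le_pi_div_two.mpr (by norm_num)
  have hpi := Real.pi_pos
  refine long_arc h.d h.e (W := {y | dist y x < 1 ∧ 1 < dist y z})
    (K := (fun t => m + ee (θ + t)) '' Icc (-t0) t0) ?_ ?_ ?_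
    (isPreconnected_Icc.image _ (by fun_prop)) ⟨_, 0, ⟨by linarith, t00⟩, rfl⟩ ?_
  · exact (isOpen_lt (continuous_id.dist continuous_const) continuous_const).inter
      (isOpen_lt continuous_const (continuous_id.dist continuous_const))
  · rintro y ⟨h1, h2⟩
    rcases h.cov y with g | g | g | g | g
    · exact absurd g (h.a.b0 s1 p1 x1 z1 h1 h2)
    · exact absurd g (h.b.b0 s2 p2 x2 z2 h1 h2)
    · exact absurd g (h.c.b0 s3 p3 x3 z3 h1 h2)
    · exact Or.inl g
    · exact Or.inr g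
  · rintro _ ⟨t, ht, rfl⟩
    have hc : 1 / 3 ≤ Real.cos t := by
      rw [← c0, ← Real.cos_abs t]
      exact Real.cos_le_cos_of_nonneg_of_le_pi (abs_nonneg _) (by linarith) (abs_le.mpr ht)
    have e1 := polar_sq m 1 ρ (θ + t) θ
    have e2 := polar_sq m 1 (-ρ) (θ + t) θ
    simp only [ofReal_one, one_mul, add_sub_cancel_left] at e1 e2
    rw [← hx] at e1
    rw [← hz] at e2
    exact ⟨lt_one_of_sq (by rw [e1]; nlinarith), one_lt_of_sq dist_nonneg (by rw [e2]; nlinarith)⟩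
  · rintro _ ⟨t, ht, rfl⟩
    rcases le_total 0 t with h0 | h0
    · refine ⟨_, ⟨-t0, ⟨le_rfl, by linarith⟩, rfl⟩, one_lt_of_sq dist_nonneg ?_⟩
      rw [ee_sq]
      have : Real.cos (θ + t - (θ + -t0)) ≤ Real.cos t0 :=
        Real.cos_le_cos_of_nonneg_of_le_pi t00 (by linarith [ht.2]) (by linarith)
      linarith
    · refine ⟨_, ⟨t0, ⟨by linarith, le_rfl⟩, rfl⟩, one_lt_of_sq dist_nonneg ?_⟩
      rw [ee_sq, ← Real.cos_neg]
      have : Real.cos (-(θ + t - (θ + t0))) ≤ Real.cos t0 :=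
        Real.cos_le_cos_of_nonneg_of_le_pi t00 (by linarith [ht.1]) (by linarith)
      linarith

theorem Five.td3 {A B C D E : Set ℂ} (h : Five A B C D E) :
    IsTotallyDisconnected (A ∩ B ∩ C) := by
  intro K hK hp x hx z hz
  exact h.p2 (fun y hy => (hK hy).1.1) (fun y hy => (hK hy).1.2) (fun y hy => (hK hy).2)
    hp hp hp hx hx hx hz hz hz

theorem two_circles {c₁ c₂ p₁ p₂ p : ℂ} {r₁ r₂ : ℝ} (hc : c₁ ≠ c₂) (hp : p₁ ≠ p₂)
    (a1 : dist p₁ c₁ = r₁) (a2 : dist p₂ c₁ = r₁) (a3 : dist p c₁ = r₁)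
    (b1 : dist p₁ c₂ = r₂) (b2 : dist p₂ c₂ = r₂) (b3 : dist p c₂ = r₂) : p = p₁ ∨ p = p₂ :=
  EuclideanGeometry.eq_of_dist_eq_of_dist_eq_of_finrank_eq_two Complex.finrank_real_complex
    hc hp a1 a2 a3 b1 b2 b3

theorem siam_unique {β : Set ℂ} (hp : IsPreconnected β) (hn : β.Nontrivial) {y y' : ℂ}
    (h1 : ∀ u ∈ β, dist u y = 1) (h2 : ∀ u ∈ β, dist u y' = 1) : y = y' := by
  by_contra hne
  obtain ⟨u, hu, v, hv, huv⟩ := hn
  have hinf := hp.infinite_of_nontrivial ⟨u, hu, v, hv, huv⟩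
  apply hinf
  refine (Set.toFinite {u, v}).subset fun w hw => ?_
  exact two_circles hne huv (h1 u hu) (h1 v hv) (h1 w hw) (h2 u hu) (h2 v hv) (h2 w hw)

theorem ev_Icc {P : ℝ → Prop} {t : ℝ} (h : ∀ᶠ s in 𝓝 t, P s) {c : ℝ} (hc : 0 < c) :
    ∃ η, 0 < η ∧ η ≤ c ∧ ∀ s ∈ Icc (t - η) (t + η), P s := by
  obtain ⟨e, he, h1⟩ := Metric.eventually_nhds_iff_ball.mp h
  refine ⟨min (e / 2) c, lt_min (by linarith) hc, min_le_right _ _, fun s hs => h1 s ?_⟩
  have := min_le_left (e / 2) c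
  rw [mem_ball, Real.dist_eq, abs_lt]
  constructor <;> linarith [hs.1, hs.2]

theorem arc_pre (x : ℂ) (a b : ℝ) : IsPreconnected ((fun s => x + ee s) '' Icc a b) :=
  isPreconnected_Icc.image _ (by fun_prop)

theorem Good.shift {S : Set ℂ} (hS : Good S) {x : ℂ} {t : ℝ} (h : ∀ᶠ s in 𝓝 t, x + ee s ∈ S) :
    x + ee (t + Real.pi / 3) ∉ S ∧ x + ee (t - Real.pi / 3) ∉ S := by
  have hpi := Real.pi_pos
  obtain ⟨η, h0, h1, h2⟩ := ev_Icc h (c := Real.pi / 3) (by positivity)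
  have hK : (fun s => x + ee s) '' Icc (t - η) (t + η) ⊆ S := by
    rintro _ ⟨s, hs, rfl⟩; exact h2 s hs
  have m1 : x + ee (t - η) ∈ (fun s => x + ee s) '' Icc (t - η) (t + η) :=
    ⟨_, ⟨le_rfl, by linarith⟩, rfl⟩
  have m2 : x + ee (t + η) ∈ (fun s => x + ee s) '' Icc (t - η) (t + η) :=
    ⟨_, ⟨by linarith, le_rfl⟩, rfl⟩
  have c1 : 1 / 2 < Real.cos (Real.pi / 3 - η) := by
    rw [← Real.cos_pi_div_three]
    exact Real.cos_lt_cos_of_nonneg_of_le_pi (by linarith) (by linarith) (by linarith)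
  have c2 : Real.cos (Real.pi / 3 + η) < 1 / 2 := by
    rw [← Real.cos_pi_div_three]
    exact Real.cos_lt_cos_of_nonneg_of_le_pi (by linarith) (by linarith) (by linarith)
  constructor
  · refine hS.b0 hK (arc_pre _ _ _) m2 m1 (lt_one_of_sq ?_) (one_lt_of_sq dist_nonneg ?_)
    · rw [ee_sq, show t + Real.pi / 3 - (t + η) = Real.pi / 3 - η by ring]; linarith
    · rw [ee_sq, show t + Real.pi / 3 - (t - η) = Real.pi / 3 + η by ring]; linarith
  · refine hS.b0 hK (arc_pre _ _ _) m1 m2 (lt_one_of_sq ?_) (one_lt_of_sq dist_nonneg ?_)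
    · rw [ee_sq, ← Real.cos_neg, show -(t - Real.pi / 3 - (t - η)) = Real.pi / 3 - η by ring]
      linarith
    · rw [ee_sq, ← Real.cos_neg, show -(t - Real.pi / 3 - (t + η)) = Real.pi / 3 + η by ring]
      linarith

theorem Good.arc60 {S : Set ℂ} (hS : Good S) {x : ℂ} {a b : ℝ} (hab : a + Real.pi / 3 < b)
    (h : ∀ s ∈ Icc a b, x + ee s ∈ S) : False := by
  have hpi := Real.pi_pos
  set t := (a + (b - Real.pi / 3)) / 2 with ht
  have : ∀ᶠ s in 𝓝 t, x + ee s ∈ S := by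
    filter_upwards [Icc_mem_nhds (a := a) (b := b) (x := t) (by linarith) (by linarith)] with s hs
      using h s hs
  exact (hS.shift this).1 (h _ ⟨by linarith, by linarith⟩)

/-- a two-coloured unit circle forbids two-coloured continua in the punctured disc of radius 2 -/
theorem no_border {D E β : Set ℂ} (hD : Good D) (hE : Good E) {p : ℂ}
    (hc : ∀ t, p + ee t ∈ D ∨ p + ee t ∈ E) (hβ : β ⊆ D ∩ E) (hp : IsPreconnected β)
    {u v : ℂ} (hu : u ∈ β) (hv : v ∈ β) (hup : u ≠ p) (hu2 : dist u p < 2) (hvp : v ≠ p) :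
    u = v := by
  by_contra huv
  have bD : β ⊆ D := hβ.trans inter_subset_left
  have bE : β ⊆ E := hβ.trans inter_subset_right
  have n1 : ∀ t, dist (p + ee t) u < 1 → 1 < dist (p + ee t) v → False := fun t a b =>
    (hc t).elim (hD.b0 bD hp hu hv a b) (hE.b0 bE hp hu hv a b)
  have n2 : ∀ t, dist (p + ee t) v < 1 → 1 < dist (p + ee t) u → False := fun t a b =>
    (hc t).elim (hD.b0 bD hp hv hu a b) (hE.b0 bE hp hv hu a b)
  obtain ⟨α, hα⟩ := exists_polar (u - p)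
  set ρ := ‖u - p‖ with hρ
  have hρ0 : 0 < ρ := norm_pos_iff.mpr (sub_ne_zero.mpr hup)
  have hρ2 : ρ < 2 := by rwa [dist_eq_norm] at hu2
  have hu' : u = p + ρ * ee α := by rw [← hα]; ring
  have hsq : ∀ t, dist (p + ee t) u ^ 2 = 1 + ρ ^ 2 - 2 * ρ * Real.cos (t - α) := by
    intro t
    have := polar_sq p 1 ρ t α
    simp only [ofReal_one, one_mul] at this
    rw [← hu'] at this
    rw [this]; ring
  set A := Real.arccos (ρ / 2) with hA
  have cA : Real.cos A = ρ / 2 := Real.cos_arccos (by linarith) (by linarith)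
  have A0 : 0 < A := Real.arccos_pos.mpr (by linarith)
  have A1 : A ≤ Real.pi / 2 := Real.arccos_le_pi_div_two.mpr (by linarith)
  have hpi := Real.pi_pos
  have lt1 : ∀ s, 0 ≤ s → s < A → ∀ t, |t - α| = s → dist (p + ee t) u < 1 := by
    intro s h0 h1 t ht
    apply lt_one_of_sq
    rw [hsq, ← Real.cos_abs, ht]
    have := Real.cos_lt_cos_of_nonneg_of_le_pi h0 (by linarith) h1
    nlinarith
  have gt1 : ∀ s, s ≤ Real.pi → A < s → ∀ t, |t - α| = s → 1 < dist (p + ee t) u := by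
    intro s h0 h1 t ht
    apply one_lt_of_sq dist_nonneg
    rw [hsq, ← Real.cos_abs, ht]
    have := Real.cos_lt_cos_of_nonneg_of_le_pi A0.le h0 h1
    nlinarith
  have key : ∀ σ : ℝ, |σ| = 1 → dist (p + ee (α + σ * A)) v = 1 := by
    intro σ hσ
    have hcont : Continuous fun s : ℝ => dist (p + ee (α + σ * s)) v := by fun_prop
    have habs : ∀ s, 0 ≤ s → |α + σ * s - α| = s := by
      intro s hs; rw [add_sub_cancel_left, abs_mul, hσ, one_mul, abs_of_nonneg hs]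
    rcases lt_trichotomy (dist (p + ee (α + σ * A)) v) 1 with h | h | h
    · obtain ⟨η, e0, e1, e2⟩ := ev_Icc (hcont.continuousAt.eventually_lt continuousAt_const h)
        (c := Real.pi / 2) (by positivity)
      exact (n2 _ (e2 (A + η) ⟨by linarith, le_rfl⟩)
        (gt1 (A + η) (by linarith) (by linarith) _ (habs _ (by linarith)))).elim
    · exact h
    · obtain ⟨η, e0, e1, e2⟩ := ev_Icc (continuousAt_const.eventually_lt hcont.continuousAt h)
        (c := A) A0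
      exact (n1 _ (lt1 (A - η) (by linarith) (by linarith) _ (habs _ (by linarith)))
        (e2 (A - η) ⟨le_rfl, by linarith⟩)).elim
  have k1 := key 1 (by simp)
  have k2 := key (-1) (by simp)
  have u1 : ∀ σ : ℝ, |σ| = 1 → dist (p + ee (α + σ * A)) u = 1 := by
    intro σ hσ
    have := hsq (α + σ * A)
    rw [add_sub_cancel_left, ← Real.cos_abs, abs_mul, hσ, one_mul, abs_of_pos A0, cA] at this
    have h2 : dist (p + ee (α + σ * A)) u ^ 2 = 1 := by rw [this]; ring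
    exact (pow_eq_one_iff_of_nonneg dist_nonneg two_ne_zero).mp h2
  have hne : p + ee (α + -1 * A) ≠ p + ee (α + 1 * A) := ee_ne p (by linarith) (by linarith)
  rcases two_circles hne hup.symm (p := v) (by rw [dist_comm, dist_ee])
    (by rw [dist_comm, u1 _ (by simp)]) (by rw [dist_comm, k2]) (by rw [dist_comm, dist_ee])
    (by rw [dist_comm, u1 _ (by simp)]) (by rw [dist_comm, k1]) with h | h
  · exact hvp h
  · exact huv h.symm

end Vale.Agent.P032
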