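import Vale.Agent.P032.Geom1

/-! Two-coloured circles: colour changes, crossing continua, sweeping. -/

namespace Vale.Agent.P032

open Set Metric Complex Filter Topology

/-- small continua of `G` near `n` cross the unit circle about `p` -/
def Cr (G : Set ℂ) (p n : ℂ) : Prop :=
  ∀ η : ℝ, 0 < η → ∃ r₀ : ℝ, 0 < r₀ ∧ ∀ ρ₁ ρ₂ : ℝ, 1 - r₀ ≤ ρ₁ → ρ₁ ≤ ρ₂ → ρ₂ ≤ 1 + r₀ →
    ∃ κ ⊆ G ∩ ball n η, IsPreconnected κ ∧ (∀ y ∈ κ, ρ₁ ≤ dist y p ∧ dist y p ≤ ρ₂) ∧
      (∃ u ∈ κ, dist u p = ρ₁) ∧ ∃ v ∈ κ, dist v p = ρ₂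

theorem dist_polar (p : ℂ) {ρ : ℝ} (h : 0 ≤ ρ) (s : ℝ) : dist (p + ρ * ee s) p = ρ := by
  rw [dist_eq_norm, add_sub_cancel_left, norm_mul, norm_ee, mul_one, Complex.norm_real,
    Real.norm_eq_abs, abs_of_nonneg h]

theorem dist_polar_le (p : ℂ) (ρ s t : ℝ) :
    dist (p + ρ * ee s) (p + ee t) ≤ |ρ - 1| + |s - t| := by
  rw [dist_eq_norm]
  have : p + ρ * ee s - (p + ee t) = ((ρ - 1 : ℝ) : ℂ) * ee s + (ee s - ee t) := by
    push_cast; ring
  rw [this]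
  refine (norm_add_le _ _).trans (add_le_add ?_ (norm_ee_sub_le s t))
  rw [norm_mul, norm_ee, mul_one, Complex.norm_real, Real.norm_eq_abs]

theorem Five.cr_of_chg {A B C D E : Set ℂ} (h : Five A B C D E) {p : ℂ}
    (hc : ∀ t, p + ee t ∈ D ∨ p + ee t ∈ E) {t : ℝ}
    (h1 : t ∈ closure {s | p + ee s ∉ E}) (h2 : t ∈ closure {s | p + ee s ∉ D}) :
    Cr (A ∪ B ∪ C) p (p + ee t) := by
  intro η hη
  obtain ⟨t₁, ht₁, d1⟩ := Metric.mem_closure_iff.mp h1 (η / 2) (by linarith)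
  obtain ⟨t₂, ht₂, d2⟩ := Metric.mem_closure_iff.mp h2 (η / 2) (by linarith)
  obtain ⟨e1, he1, b1⟩ := Metric.isOpen_iff.mp h.e.closed.isOpen_compl _ ht₁
  obtain ⟨e2, he2, b2⟩ := Metric.isOpen_iff.mp h.d.closed.isOpen_compl _ ht₂
  set r₀ := min (min (e1 / 2) (e2 / 2)) (min (η / 2) (1 / 2)) with hr
  have r1 : r₀ ≤ e1 / 2 := (min_le_left _ _).trans (min_le_left _ _)
  have r2 : r₀ ≤ e2 / 2 := (min_le_left _ _).trans (min_le_right _ _)
  have r3 : r₀ ≤ η / 2 := (min_le_right _ _).trans (min_le_left _ _)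
  have r4 : r₀ ≤ 1 / 2 := (min_le_right _ _).trans (min_le_right _ _)
  have r0 : 0 < r₀ := by rw [hr]; positivity
  refine ⟨r₀, r0, fun ρ₁ ρ₂ g1 g2 g3 => ?_⟩
  set Ψ : ℝ × ℝ → ℂ := fun q => p + ((ρ₁ + q.2 * (ρ₂ - ρ₁) : ℝ) : ℂ) * ee (t₁ + q.1 * (t₂ - t₁))
    with hΨ
  have hΨc : Continuous Ψ := by rw [hΨ]; fun_prop
  have hrad : ∀ b ∈ Icc (0 : ℝ) 1, ρ₁ ≤ ρ₁ + b * (ρ₂ - ρ₁) ∧ ρ₁ + b * (ρ₂ - ρ₁) ≤ ρ₂ := by
    intro b hb
    constructor <;> nlinarith [hb.1, hb.2]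
  have hrad' : ∀ b ∈ Icc (0 : ℝ) 1, |ρ₁ + b * (ρ₂ - ρ₁) - 1| ≤ r₀ := by
    intro b hb
    have := hrad b hb
    rw [abs_le]; constructor <;> linarith [this.1, this.2]
  have hdp : ∀ q ∈ sq, dist (Ψ q) p = ρ₁ + q.2 * (ρ₂ - ρ₁) := by
    intro q hq
    exact dist_polar p (by linarith [(hrad _ hq.2).1]) _
  have hball : ∀ q ∈ sq, Ψ q ∈ ball (p + ee t) η := by
    intro q hq
    have a1 := dist_polar_le p (ρ₁ + q.2 * (ρ₂ - ρ₁)) (t₁ + q.1 * (t₂ - t₁)) t
    have a2 := hrad' _ hq.2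
    have a3 : |t₁ + q.1 * (t₂ - t₁) - t| < η / 2 := by
      rw [Real.dist_eq, abs_lt] at d1 d2
      obtain ⟨q0, q1⟩ := hq.1
      rw [abs_lt]
      rcases le_total t₁ t₂ with hh | hh
      · constructor <;> nlinarith [d1.1, d1.2, d2.1, d2.2]
      · constructor <;> nlinarith [d1.1, d1.2, d2.1, d2.2]
    exact mem_ball.mpr (by linarith)
  have hG : IsClosed (A ∪ B ∪ C) := (h.a.closed.union h.b.closed).union h.c.closed
  have z0 : (0 : ℝ) ∈ Icc (0 : ℝ) 1 := ⟨le_rfl, zero_le_one⟩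
  have z1 : (1 : ℝ) ∈ Icc (0 : ℝ) 1 := ⟨zero_le_one, le_rfl⟩
  rcases cross hG hΨc with ⟨κ, hκ, -, hp, ⟨a, ha, ha'⟩, ⟨b, hb, hb'⟩⟩ |
    ⟨κ, hκ, -, hp, ⟨a, ha, ha'⟩, ⟨b, hb, hb'⟩⟩
  · refine ⟨κ, fun y hy => ?_, hp, fun y hy => ?_, ⟨_, ha', ?_⟩, ⟨_, hb', ?_⟩⟩
    · obtain ⟨q, hq, rfl⟩ := (hκ hy).2
      exact ⟨(hκ hy).1, hball q hq⟩
    · obtain ⟨q, hq, rfl⟩ := (hκ hy).2
      rw [hdp q hq]; exact hrad _ hq.2
    · rw [hdp _ ⟨ha, z0⟩]; simp
    · rw [hdp _ ⟨hb, z1⟩]; simp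
  · exfalso
    have hDE : ∀ y ∉ A ∪ B ∪ C, y ∈ D ∪ E := by
      intro y hy
      have := h.cov y
      simp only [mem_union] at hy ⊢
      tauto
    have n1 : Ψ (0, a) ∈ D := by
      refine (hDE _ (hκ ha').1).resolve_right (b1 ?_)
      have a1 := dist_polar_le p (ρ₁ + a * (ρ₂ - ρ₁)) (t₁ + 0 * (t₂ - t₁)) t₁
      have a2 := hrad' _ ha
      rw [show t₁ + 0 * (t₂ - t₁) - t₁ = 0 by ring, abs_zero] at a1
      exact mem_ball.mpr (by simp only [hΨ]; linarith)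
    have n2 : Ψ (1, b) ∈ E := by
      refine (hDE _ (hκ hb').1).resolve_left (b2 ?_)
      have a1 := dist_polar_le p (ρ₁ + b * (ρ₂ - ρ₁)) (t₁ + 1 * (t₂ - t₁)) t₂
      have a2 := hrad' _ hb
      rw [show t₁ + 1 * (t₂ - t₁) - t₂ = 0 by ring, abs_zero] at a1
      exact mem_ball.mpr (by simp only [hΨ]; linarith)
    obtain ⟨y, hy, hyD, hyE⟩ := (isPreconnected_closed_iff.mp hp) D E h.d.closed h.e.closed
      (fun y hy => hDE y (hκ hy).1) ⟨_, ha', n1⟩ ⟨_, hb', n2⟩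
    obtain ⟨e, he, hb⟩ := Metric.isOpen_iff.mp hG.isOpen_compl y (hκ hy).1
    have hm : 0 < min e (1 / 4) := lt_min he (by norm_num)
    obtain ⟨β, hβ, hβp, u, hu, v, hv, huv⟩ := two_closed h.d.closed h.e.closed (x := y)
      (r := min e (1 / 4)) (fun z hz => hDE z (hb (ball_subset_ball (min_le_left _ _) hz)))
      (h.d.int_ball hyD hm) (h.e.int_ball hyE hm)
    obtain ⟨q, hq, rfl⟩ := (hκ hy).2
    have a1 := hdp q hq
    have a2 := hrad _ hq.2
    have a3 : ∀ w ∈ β, 1 / 4 ≤ dist w p ∧ dist w p < 2 := by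
      intro w hw
      have c1 := mem_closedBall.mp (hβ hw).2
      have c2 := min_le_right e (1 / 4)
      have c3 := dist_triangle w (Ψ q) p
      have c4 := dist_triangle (Ψ q) w p
      rw [dist_comm (Ψ q) w] at c4
      constructor <;> linarith [a2.1, a2.2]
    refine huv (no_border h.d h.e hc (hβ.trans inter_subset_left) hβp hu hv ?_ (a3 u hu).2 ?_)
    · rintro rfl; have := (a3 _ hu).1; rw [dist_self] at this; linarith
    · rintro rfl; have := (a3 _ hv).1; rw [dist_self] at this; linarith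

theorem Five.exists_cr {A B C D E : Set ℂ} (h : Five A B C D E) {p : ℂ}
    (hc : ∀ t, p + ee t ∈ D ∨ p + ee t ∈ E) :
    ∃ θ : ℝ, 0 < θ ∧ θ ≤ Real.pi / 3 ∧
      ∀ k : ℤ, Cr (A ∪ B ∪ C) p (p + ee (θ + k * (Real.pi / 3))) := by
  have hpi := Real.pi_pos
  set U := {s : ℝ | p + ee s ∉ E} with hU
  set V := {s : ℝ | p + ee s ∉ D} with hV
  have hf : Continuous fun s => p + ee s := by fun_prop
  have sU : ∀ s ∈ U, s + Real.pi / 3 ∈ V ∧ s - Real.pi / 3 ∈ V := by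
    intro s hs
    apply h.d.shift
    filter_upwards [hf.continuousAt.eventually (h.e.closed.isOpen_compl.mem_nhds hs)] with s hs
    exact (hc s).resolve_right hs
  have sV : ∀ s ∈ V, s + Real.pi / 3 ∈ U ∧ s - Real.pi / 3 ∈ U := by
    intro s hs
    apply h.e.shift
    filter_upwards [hf.continuousAt.eventually (h.d.closed.isOpen_compl.mem_nhds hs)] with s hs
    exact (hc s).resolve_left hs
  have dense : ∀ t, t ∈ closure U ∪ closure V := by
    intro t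
    by_contra hh
    simp only [mem_union, not_or, mem_closure_iff_frequently, not_frequently] at hh
    obtain ⟨η, e0, e1, e2⟩ := ev_Icc (hh.1.and hh.2) (c := 1) one_pos
    have hβ : (fun s => p + ee s) '' Icc (t - η) (t + η) ⊆ D ∩ E := by
      rintro _ ⟨s, hs, rfl⟩
      have := e2 s hs
      simp only [hU, hV, mem_ofPred_eq, not_not] at this
      exact ⟨this.2, this.1⟩
    have hne : ∀ s, p + ee s ≠ p := by
      intro s hs; have := dist_ee p s; rw [hs, dist_self] at this; linarith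
    have := no_border h.d h.e hc hβ (arc_pre _ _ _) ⟨t - η, ⟨le_rfl, by linarith⟩, rfl⟩
      ⟨t + η, ⟨by linarith, le_rfl⟩, rfl⟩ (hne _) (by simp only [dist_ee]; norm_num) (hne _)
    exact ee_ne p (by linarith) (by linarith [Real.pi_gt_three]) this
  have ne : U.Nonempty ∧ V.Nonempty := by
    rcases dense 0 with h0 | h0
    · obtain ⟨s, hs⟩ := closure_nonempty_iff.mp ⟨_, h0⟩
      exact ⟨⟨s, hs⟩, _, (sU s hs).1⟩
    · obtain ⟨s, hs⟩ := closure_nonempty_iff.mp ⟨_, h0⟩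
      exact ⟨⟨_, (sV s hs).1⟩, s, hs⟩
  obtain ⟨θ, -, hθ⟩ := (isPreconnected_closed_iff.mp (isPreconnected_univ (α := ℝ))) _ _
    isClosed_closure isClosed_closure (fun t _ => dense t)
    (by simpa using ne.1) (by simpa using ne.2)
  have up : ∀ t, t ∈ closure U ∩ closure V → t + Real.pi / 3 ∈ closure U ∩ closure V :=
    fun t ht => ⟨map_mem_closure (f := fun s => s + Real.pi / 3) (by fun_prop) ht.2
      fun s hs => (sV s hs).1, map_mem_closure (f := fun s => s + Real.pi / 3) (by fun_prop) ht.1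
      fun s hs => (sU s hs).1⟩
  have dn : ∀ t, t ∈ closure U ∩ closure V → t - Real.pi / 3 ∈ closure U ∩ closure V :=
    fun t ht => ⟨map_mem_closure (f := fun s => s - Real.pi / 3) (by fun_prop) ht.2
      fun s hs => (sV s hs).2, map_mem_closure (f := fun s => s - Real.pi / 3) (by fun_prop) ht.1
      fun s hs => (sU s hs).2⟩
  have all : ∀ k : ℤ, θ + k * (Real.pi / 3) ∈ closure U ∩ closure V := by
    intro k
    induction k using Int.induction_on with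
    | zero => simpa using hθ
    | succ i ih => convert up _ ih using 1; push_cast; ring
    | pred i ih => convert dn _ ih using 1; push_cast; ring
  have h3 : 0 < Real.pi / 3 := by positivity
  have m := toIocMod_mem_Ioc h3 0 θ
  refine ⟨toIocMod h3 0 θ, m.1, by simpa using m.2, fun k => ?_⟩
  have e : toIocMod h3 0 θ + k * (Real.pi / 3) =
      θ + ((k - toIocDiv h3 0 θ : ℤ) : ℝ) * (Real.pi / 3) := by
    rw [toIocMod]; push_cast; simp only [zsmul_eq_mul]; ring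
  rw [e]
  exact h.cr_of_chg hc (all _).1 (all _).2

/-- sweeping lemma -/
theorem sweep {A B κ β : Set ℂ} (hA : Good A) (hB : Good B) (hκ : κ ⊆ A ∪ B)
    (hκp : IsPreconnected κ) {x u v : ℂ} {r : ℝ} (hu : u ∈ κ) (hv : v ∈ κ)
    (hux : dist u x = 1 - r) (hvx : dist v x = 1 + r) (hβ : β ⊆ A ∩ B ∩ closedBall x r)
    (hβp : IsPreconnected β) : ∃ w ∈ κ, ∀ b ∈ β, dist b w = 1 := by
  have c1 : IsClosed {y : ℂ | ∀ b ∈ β, dist y b ≤ 1} := by
    simp only [ofPred_forall]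
    exact isClosed_iInter fun b => isClosed_iInter fun _ =>
      isClosed_le (continuous_id.dist continuous_const) continuous_const
  have c2 : IsClosed {y : ℂ | ∀ b ∈ β, 1 ≤ dist y b} := by
    simp only [ofPred_forall]
    exact isClosed_iInter fun b => isClosed_iInter fun _ =>
      isClosed_le continuous_const (continuous_id.dist continuous_const)
  obtain ⟨w, hw, h1, h2⟩ := (isPreconnected_closed_iff.mp hκp) _ _ c1 c2 (by
      intro y hy
      by_contra hh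
      simp only [mem_union, mem_ofPred_eq, not_or, not_forall, not_le] at hh
      obtain ⟨⟨b, hb, h1⟩, ⟨b', hb', h2⟩⟩ := hh
      rcases hκ hy with g | g
      · exact hA.b0 (fun z hz => (hβ hz).1.1) hβp hb' hb h2 h1 g
      · exact hB.b0 (fun z hz => (hβ hz).1.2) hβp hb' hb h2 h1 g)
    ⟨u, hu, fun b hb => by
      have := mem_closedBall.mp (hβ hb).2
      have h3 := dist_triangle u x b
      rw [dist_comm x b] at h3
      linarith⟩
    ⟨v, hv, fun b hb => by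
      have := mem_closedBall.mp (hβ hb).2
      have h3 := dist_triangle v b x
      linarith⟩
  exact ⟨w, hw, fun b hb => by rw [dist_comm]; exact le_antisymm (h1 b hb) (h2 b hb)⟩

theorem excl_pair {A B C : Set ℂ} (hA : Good A) (hB : Good B) (hC : Good C) {x n n' : ℂ}
    (hne : n ≠ n') (h1 : n ∉ A) (h2 : n' ∉ A) (c1 : Cr (A ∪ B ∪ C) x n)
    (c2 : Cr (A ∪ B ∪ C) x n') :
    ∃ r, 0 < r ∧ IsTotallyDisconnected (B ∩ C ∩ closedBall x r) := by
  obtain ⟨e1, he1, b1⟩ := Metric.isOpen_iff.mp hA.closed.isOpen_compl _ h1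
  obtain ⟨e2, he2, b2⟩ := Metric.isOpen_iff.mp hA.closed.isOpen_compl _ h2
  have hd : 0 < dist n n' / 2 := by have := dist_pos.mpr hne; positivity
  obtain ⟨r1, hr1, k1⟩ := c1 _ (lt_min he1 hd)
  obtain ⟨r2, hr2, k2⟩ := c2 _ (lt_min he2 hd)
  have hr : 0 < min r1 r2 := lt_min hr1 hr2
  have m1 := min_le_left r1 r2
  have m2 := min_le_right r1 r2
  obtain ⟨κ, hκ, hκp, -, ⟨u, hu, hu'⟩, v, hv, hv'⟩ := k1 (1 - min r1 r2) (1 + min r1 r2)
    (by linarith) (by linarith) (by linarith)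
  obtain ⟨κ', hκ', hκp', -, ⟨u', hu2, hu2'⟩, v', hv2, hv2'⟩ := k2 (1 - min r1 r2) (1 + min r1 r2)
    (by linarith) (by linarith) (by linarith)
  refine ⟨min r1 r2, hr, fun β hβ hβp => ?_⟩
  by_contra hnt
  rw [not_subsingleton_iff] at hnt
  obtain ⟨w, hw, hw1⟩ := sweep hB hC (κ := κ) (fun y hy => by
    rcases (hκ hy).1 with (g | g) | g
    · exact absurd g (b1 (ball_subset_ball (min_le_left _ _) (hκ hy).2))
    · exact Or.inl g
    · exact Or.inr g) hκp hu hv hu' hv' hβ hβp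
  obtain ⟨w', hw', hw1'⟩ := sweep hB hC (κ := κ') (fun y hy => by
    rcases (hκ' hy).1 with (g | g) | g
    · exact absurd g (b2 (ball_subset_ball (min_le_left _ _) (hκ' hy).2))
    · exact Or.inl g
    · exact Or.inr g) hκp' hu2 hv2 hu2' hv2' hβ hβp
  have := siam_unique hβp hnt hw1 hw1'
  subst this
  have a1 := (mem_ball.mp (hκ hw).2).trans_le (min_le_right _ _)
  have a2 := (mem_ball.mp (hκ' hw').2).trans_le (min_le_right _ _)
  have a3 := dist_triangle_left n n' w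
  linarith

theorem excl_same {A B C : Set ℂ} (hA : Good A) (hB : Good B) (hC : Good C) {x n : ℂ}
    (h1 : n ∉ A) (h2 : n ∉ B) (c1 : Cr (A ∪ B ∪ C) x n) : x ∉ C := by
  obtain ⟨e1, he1, b1⟩ := Metric.isOpen_iff.mp (hA.closed.union hB.closed).isOpen_compl n
    (fun h => h.elim h1 h2)
  obtain ⟨r, hr, k⟩ := c1 _ he1
  obtain ⟨κ, hκ, hκp, -, ⟨u, hu, hu'⟩, v, hv, hv'⟩ := k (1 - r) (1 + r)
    (by linarith) (by linarith) (by linarith)
  refine hC.b0 (K := κ) (fun y hy => (hκ hy).1.resolve_left (b1 (hκ hy).2)) hκp hu hv ?_ ?_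
  · rw [dist_comm]; linarith
  · rw [dist_comm]; linarith

end Vale.Agent.P032
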