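import Vale.Agent.P032.Geom2

/-! No siamese triple point. -/

namespace Vale.Agent.P032

open Set Metric Complex Filter Topology

theorem cone_seg {A B C : Set ℂ} (hA : Good A) (hB : Good B) (hC : Good C) {p t : ℂ}
    (ht : t ∈ B) (hpt : dist p t = 1) (hp : p ∈ B) (hev : ∀ᶠ z in 𝓝 p, z ∈ A ∨ z ∈ B ∨ z ∈ C)
    {s : ℝ} (harc : ∀ᶠ s in 𝓝 s, p + ee s ∈ A ∧ p + ee s ∈ C) : False := by
  obtain ⟨η, e0, e1, e2⟩ := ev_Icc harc (c := 1) one_pos
  set K := (fun s => p + ee s) '' Icc (s - η) (s + η) with hK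
  have KA : K ⊆ A := by rintro _ ⟨s, hs, rfl⟩; exact (e2 s hs).1
  have KC : K ⊆ C := by rintro _ ⟨s, hs, rfl⟩; exact (e2 s hs).2
  have Kp : IsPreconnected K := arc_pre _ _ _
  have Kd : ∀ u ∈ K, dist u p = 1 := by rintro _ ⟨s, -, rfl⟩; exact dist_ee _ _
  have hpi := Real.pi_gt_three
  obtain ⟨u, hu, v, hv, huv⟩ : ∃ u ∈ K, ∃ v ∈ K, dist u t < dist v t := by
    by_contra hh
    push Not at hh
    have m1 : p + ee (s - η) ∈ K := ⟨_, ⟨le_rfl, by linarith⟩, rfl⟩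
    have m2 : p + ee s ∈ K := ⟨_, ⟨by linarith, by linarith⟩, rfl⟩
    have m3 : p + ee (s + η) ∈ K := ⟨_, ⟨by linarith, le_rfl⟩, rfl⟩
    have hne : p ≠ t := by rintro rfl; rw [dist_self] at hpt; linarith
    rcases two_circles hne (ee_ne p (s := s - η) (t := s + η) (by linarith) (by linarith))
      (Kd _ m1) (Kd _ m3) (Kd _ m2) rfl (le_antisymm (hh _ m1 _ m3) (hh _ m3 _ m1))
      (le_antisymm (hh _ m1 _ m2) (hh _ m2 _ m1)) with h | h
    · exact ee_ne p (s := s - η) (t := s) (by linarith) (by linarith) h.symm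
    · exact ee_ne p (s := s) (t := s + η) (by linarith) (by linarith) h
  have hne : u ≠ v := by rintro rfl; exact lt_irrefl _ huv
  have du : dist p u = 1 := by rw [dist_comm]; exact Kd u hu
  have dv : dist p v = 1 := by rw [dist_comm]; exact Kd v hv
  set c := dist v t ^ 2 - dist u t ^ 2 with hc
  have c0 : 0 < c := by
    have := pow_lt_pow_left₀ huv dist_nonneg two_ne_zero
    linarith
  have hf : Continuous fun l : ℝ => p + l * (u - v) := by fun_prop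
  have hev' : ∀ᶠ l : ℝ in 𝓝 0, p + l * (u - v) ∈ A ∨ p + l * (u - v) ∈ B ∨ p + l * (u - v) ∈ C := by
    have h2 := hf.tendsto 0
    simp only [ofReal_zero, zero_mul, add_zero] at h2
    exact h2.eventually hev
  obtain ⟨l, l0, l1, l2⟩ := ev_Icc hev' (c := min (1 / 2) (c / 8)) (by positivity)
  have l3 : l ≤ 1 / 2 := l1.trans (min_le_left _ _)
  have l4 : l ≤ c / 8 := l1.trans (min_le_right _ _)
  have LB : (fun l : ℝ => p + l * (u - v)) '' Icc (0 - l) (0 + l) ⊆ B := by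
    rintro _ ⟨a, ha, rfl⟩
    rcases lt_trichotomy a 0 with h | h | h
    · have := seg_lt dv du hne.symm (s := -a) (by linarith) (by linarith [ha.1])
      rw [show p + ((-a : ℝ) : ℂ) * (v - u) = p + a * (u - v) by push_cast; ring] at this
      rcases l2 a ha with g | g | g
      · exact absurd g (hA.b0 KA Kp hv hu this.1 this.2)
      · exact g
      · exact absurd g (hC.b0 KC Kp hv hu this.1 this.2)
    · subst h; simpa using hp
    · have := seg_lt du dv hne (s := a) h (by linarith [ha.2])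
      rcases l2 a ha with g | g | g
      · exact absurd g (hA.b0 KA Kp hu hv this.1 this.2)
      · exact g
      · exact absurd g (hC.b0 KC Kp hu hv this.1 this.2)
  have huv2 : dist u v ^ 2 ≤ 4 := by
    have := dist_triangle_left u v p
    have h0 := dist_nonneg (x := u) (y := v)
    nlinarith
  have key : ∀ a : ℝ, dist t (p + a * (u - v)) ^ 2 = 1 - a * c + a ^ 2 * dist u v ^ 2 := by
    intro a
    rw [hc]
    rw [dist_eq_one_iff] at du dv hpt
    simp only [dist_sq, add_re, mul_re, ofReal_re, sub_re, ofReal_im, sub_im, add_im, mul_im]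
    linear_combination hpt + a * dv - a * du
  refine hB.b0 LB (isPreconnected_Icc.image _ hf.continuousOn)
    ⟨l, ⟨by linarith, by linarith⟩, rfl⟩ ⟨-l, ⟨by linarith, by linarith⟩, rfl⟩
    (lt_one_of_sq ?_) (one_lt_of_sq dist_nonneg ?_) ht
  · rw [key]
    have : l ^ 2 * dist u v ^ 2 ≤ l ^ 2 * 4 := by gcongr
    nlinarith
  · rw [key]
    have : 0 ≤ (-l) ^ 2 * dist u v ^ 2 := by positivity
    nlinarith

theorem Five.siam_circle {A B C D E : Set ℂ} (h : Five A B C D E) {p t : ℂ} {τ : Set ℂ}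
    (htA : t ∈ A) (htB : t ∈ B) (hτ : τ ⊆ A ∩ B) (hτt : ∀ u ∈ τ, dist u t = 1)
    (hτp : IsPreconnected τ) (hτn : τ.Nontrivial) (hp : p ∈ τ) (hpC : p ∈ C)
    (hev : ∀ᶠ z in 𝓝 p, z ∈ A ∨ z ∈ B ∨ z ∈ C) (s₀ : ℝ) : p + ee s₀ ∈ D ∨ p + ee s₀ ∈ E := by
  by_contra hcon
  have hf : Continuous fun s => p + ee s := by fun_prop
  have hDE : IsOpen (D ∪ E)ᶜ := (h.d.closed.union h.e.closed).isOpen_compl
  have e1 : ∀ᶠ s in 𝓝 s₀, p + ee s ∉ D ∪ E := hf.continuousAt.eventually (hDE.mem_nhds hcon)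
  obtain ⟨s₁, hs₁, hs₁t⟩ : ∃ s, p + ee s ∉ D ∪ E ∧ p + ee s ≠ t := by
    obtain ⟨η, a0, a1, a2⟩ := ev_Icc e1 (c := 1) one_pos
    by_cases hh : p + ee s₀ = t
    · refine ⟨s₀ + η, a2 _ ⟨by linarith, le_rfl⟩, ?_⟩
      rw [← hh]
      exact (ee_ne p (by linarith) (by linarith [Real.pi_gt_three])).symm
    · exact ⟨s₀, hcon, hh⟩
  have e2 : ∀ᶠ s in 𝓝 s₁, p + ee s ∉ D ∪ E ∧ p + ee s ≠ t :=
    (hf.continuousAt.eventually (hDE.mem_nhds hs₁)).and
      (hf.continuousAt.eventually (isOpen_ne.mem_nhds hs₁t))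
  have τA : τ ⊆ A := hτ.trans inter_subset_left
  have τB : τ ⊆ B := hτ.trans inter_subset_right
  have e3 : ∀ᶠ s in 𝓝 s₁, p + ee s ∈ C ∧ (p + ee s ∈ A ∨ p + ee s ∈ B) := by
    filter_upwards [e2] with s ⟨g1, g2⟩
    have nb : ∀ᶠ z in 𝓝 (p + ee s), z ∈ A ∨ z ∈ B ∨ z ∈ C := by
      filter_upwards [hDE.mem_nhds g1] with z hz
      have := h.cov z
      simp only [mem_compl_iff, mem_union] at hz
      tauto
    constructor
    · obtain ⟨u, hu, hu1⟩ : ∃ u ∈ τ, dist u (p + ee s) ≠ 1 := by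
        by_contra hh
        push Not at hh
        exact g2 (siam_unique hτp hτn hh hτt)
      rw [dist_comm] at hu1
      rw [← h.c.closed.closure_eq, mem_closure_iff_frequently]
      rcases lt_or_gt_of_ne hu1 with g | g
      · refine (((freq_out (dist_ee p s)).and_eventually (ev_lt g)).and_eventually nb).mono ?_
        rintro z ⟨⟨a, b⟩, c | c | c⟩
        · exact absurd c (h.a.b0 τA hτp hu hp b a)
        · exact absurd c (h.b.b0 τB hτp hu hp b a)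
        · exact c
      · refine (((freq_in (dist_ee p s)).and_eventually (ev_gt g)).and_eventually nb).mono ?_
        rintro z ⟨⟨a, b⟩, c | c | c⟩
        · exact absurd c (h.a.b0 τA hτp hp hu a b)
        · exact absurd c (h.b.b0 τB hτp hp hu a b)
        · exact c
    · exact mem_of_cover (A := C) (h.a.closed.union h.b.closed)
        (nb.mono fun z hz => by simp only [mem_union]; tauto) (h.c.not_int hpC (dist_ee p s))
  by_cases hh : ∀ᶠ s in 𝓝 s₁, p + ee s ∈ A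
  · exact cone_seg h.a h.b h.c htB (hτt p hp) (τB hp) hev (hh.and (e3.mono fun s hs => hs.1))
  · rw [not_eventually] at hh
    obtain ⟨s₂, g1, g2⟩ := (hh.and_eventually e3.eventually_nhds).exists
    refine cone_seg h.b h.a h.c htA (hτt p hp) (τA hp) (hev.mono fun z hz => by tauto) (s := s₂) ?_
    filter_upwards [g2, hf.continuousAt.eventually (h.a.closed.isOpen_compl.mem_nhds g1)] with s a b
    exact ⟨a.2.resolve_left b, a.1⟩

theorem ip_ge (a b : ℂ) : -(‖a‖ * ‖b‖) ≤ a.re * b.re + a.im * b.im := by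
  have h1 := abs_re_le_norm (a * (starRingEnd ℂ) b)
  rw [norm_mul, norm_conj] at h1
  have h2 := neg_abs_le (a * (starRingEnd ℂ) b).re
  simp only [mul_re, conj_re, conj_im] at h1 h2
  linarith

theorem norm_sq_eq (a : ℂ) : ‖a‖ ^ 2 = a.re ^ 2 + a.im ^ 2 := by
  rw [Complex.sq_norm, normSq_apply]; ring

theorem kfree {A B C τ : Set ℂ} (hA : Good A) (hB : Good B) (hC : Good C) (hτ : τ ⊆ A ∩ B)
    (hp : IsPreconnected τ) (h0 : (0 : ℂ) ∈ τ) {u₀ n : ℂ} (hu : u₀ ∈ τ)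
    (hun : dist n u₀ < 1) (hcr : Cr (A ∪ B ∪ C) 0 n) :
    ∃ r, 0 < r ∧ ∀ z : ℂ, z ≠ 0 → ‖z‖ < r → ‖z‖ / 2 ≤ z.re * n.re + z.im * n.im → z ∉ C := by
  obtain ⟨r₀, hr₀, hk⟩ := hcr (min (1 / 10) (1 - dist n u₀)) (lt_min (by norm_num) (by linarith))
  refine ⟨min r₀ (1 / 2), lt_min hr₀ (by norm_num), fun z hz0 hz hip => ?_⟩
  have z0 : 0 < ‖z‖ := norm_pos_iff.mpr hz0
  have z1 : ‖z‖ < r₀ := hz.trans_le (min_le_left _ _)
  have z2 : ‖z‖ < 1 / 2 := hz.trans_le (min_le_right _ _)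
  obtain ⟨κ, hκ, hκp, hρ, ⟨u, hu1, hu2⟩, v, hv1, hv2⟩ := hk (1 + ‖z‖ / 10) (1 + r₀)
    (by linarith) (by linarith) le_rfl
  have κC : κ ⊆ C := by
    intro y hy
    have a1 : dist y u₀ < 1 := by
      have := (mem_ball.mp (hκ hy).2).trans_le (min_le_right _ _)
      linarith [dist_triangle y n u₀]
    have a2 : 1 < dist y 0 := by linarith [(hρ y hy).1]
    rcases (hκ hy).1 with (g | g) | g
    · exact absurd g (hA.b0 (hτ.trans inter_subset_left) hp hu h0 a1 a2)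
    · exact absurd g (hB.b0 (hτ.trans inter_subset_right) hp hu h0 a1 a2)
    · exact g
  refine hC.b0 κC hκp hu1 hv1 ?_ ?_
  · have a1 : ‖u - n‖ < 1 / 10 := by
      rw [← dist_eq_norm]; exact (mem_ball.mp (hκ hu1).2).trans_le (min_le_left _ _)
    have a2 := ip_ge z (u - n)
    have a3 := norm_sq_eq z
    have a4 := norm_sq_eq u
    rw [dist_zero_right] at hu2
    rw [hu2] at a4
    simp only [sub_re, sub_im] at a2
    rw [dist_lt_one_iff]
    have a5 : ‖z‖ * ‖u - n‖ ≤ ‖z‖ * (1 / 10) := by gcongr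
    nlinarith
  · have := dist_triangle v z 0
    rw [dist_zero_right z, dist_comm v z] at this
    linarith

/-- rational parametrisation of the unit circle about `σ n` near the origin -/
noncomputable def zz (n : ℂ) (σ τ y : ℝ) : ℂ :=
  ((2 * y / (1 + y ^ 2) : ℝ) : ℂ) * n * ((σ * y : ℝ) + τ * I)

theorem zz_re (n : ℂ) (σ τ y : ℝ) :
    (zz n σ τ y).re = 2 * y / (1 + y ^ 2) * (σ * y * n.re - τ * n.im) := by
  simp only [zz, mul_re, ofReal_re, ofReal_im, mul_im, add_re, add_im, I_re, I_im]; ring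

theorem zz_im (n : ℂ) (σ τ y : ℝ) :
    (zz n σ τ y).im = 2 * y / (1 + y ^ 2) * (σ * y * n.im + τ * n.re) := by
  simp only [zz, mul_re, ofReal_re, ofReal_im, mul_im, add_re, add_im, I_re, I_im]; ring

theorem continuous_zz (n : ℂ) (σ τ : ℝ) : Continuous (zz n σ τ) := by
  unfold zz
  have : Continuous fun y : ℝ => 2 * y / (1 + y ^ 2) :=
    Continuous.div (by fun_prop) (by fun_prop) fun y => by positivity
  fun_prop

theorem zz_zero (n : ℂ) (σ τ : ℝ) : zz n σ τ 0 = 0 := by simp [zz]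

theorem zz_normsq {n : ℂ} (hn : ‖n‖ = 1) {σ τ : ℝ} (hσ : σ ^ 2 = 1) (hτ : τ ^ 2 = 1) (y : ℝ) :
    ‖zz n σ τ y‖ ^ 2 = (2 * y / (1 + y ^ 2)) ^ 2 * (1 + y ^ 2) := by
  have h1 := norm_sq_eq n
  rw [hn] at h1
  rw [norm_sq_eq, zz_re, zz_im]
  set l := 2 * y / (1 + y ^ 2)
  linear_combination (-l ^ 2 * (σ ^ 2 * y ^ 2 + τ ^ 2)) * h1 + l ^ 2 * y ^ 2 * hσ + l ^ 2 * hτ

theorem zz_dist {n : ℂ} (hn : ‖n‖ = 1) {σ τ : ℝ} (hσ : σ ^ 2 = 1) (hτ : τ ^ 2 = 1) (y : ℝ) :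
    dist (zz n σ τ y) (σ * n) = 1 := by
  have h1 := norm_sq_eq n
  rw [hn] at h1
  rw [dist_eq_one_iff, zz_re, zz_im]
  have hl : 2 * y / (1 + y ^ 2) * (1 + y ^ 2) = 2 * y := div_mul_cancel₀ _ (by positivity)
  set l := 2 * y / (1 + y ^ 2)
  simp only [mul_re, ofReal_re, ofReal_im, mul_im]
  linear_combination (-((l * y - 1) ^ 2 * σ ^ 2 + l ^ 2 * τ ^ 2)) * h1 + (l * y - 1) ^ 2 * hσ +
    l ^ 2 * hτ + l * hl

theorem arc_in {A B C : Set ℂ} (hA : Good A) (hB : Good B) (hC : Good C) {n m : ℂ} (hn : ‖n‖ = 1)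
    {σ τ : ℝ} (hσ : σ ^ 2 = 1) (hτ : τ ^ 2 = 1) (hν : (σ : ℂ) * n ∈ A) (h0 : (0 : ℂ) ∈ B)
    (hev : ∀ᶠ z in 𝓝 (0 : ℂ), z ∈ A ∨ z ∈ B ∨ z ∈ C) {r : ℝ} (hr : 0 < r)
    (hk : ∀ z : ℂ, z ≠ 0 → ‖z‖ < r → ‖z‖ / 2 ≤ z.re * m.re + z.im * m.im → z ∉ C)
    (hm : ∀ y ∈ Icc (0 : ℝ) (1 / 3),
      (1 + y) / 2 ≤ (σ * y * n.re - τ * n.im) * m.re + (σ * y * n.im + τ * n.re) * m.im)
    {c : ℝ} (hc : 0 < c) :
    ∃ y₀, 0 < y₀ ∧ y₀ ≤ c ∧ zz n σ τ '' Icc 0 y₀ ⊆ B := by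
  have ht := (continuous_zz n σ τ).tendsto 0
  rw [zz_zero] at ht
  have e1 : ∀ᶠ z in 𝓝 (0 : ℂ), ‖z‖ < r := by
    filter_upwards [ball_mem_nhds (0 : ℂ) hr] with z hz using mem_ball_zero_iff.mp hz
  obtain ⟨η, a0, a1, a2⟩ := ev_Icc (ht.eventually (e1.and hev.eventually_nhds))
    (c := min c (1 / 3)) (by positivity)
  refine ⟨η, a0, a1.trans (min_le_left _ _), ?_⟩
  rintro _ ⟨y, hy, rfl⟩
  rcases eq_or_lt_of_le hy.1 with rfl | y0
  · rw [zz_zero]; exact h0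
  obtain ⟨b1, b2⟩ := a2 y ⟨by linarith, by linarith [hy.2]⟩
  have l0 : 0 < 2 * y / (1 + y ^ 2) := by positivity
  have hsq := zz_normsq hn hσ hτ y
  have hC' : zz n σ τ y ∉ C := by
    refine hk _ ?_ b1 ?_
    · intro h
      rw [h, norm_zero] at hsq
      have : 0 < (2 * y / (1 + y ^ 2)) ^ 2 * (1 + y ^ 2) := by positivity
      linarith
    · have c1 := hm y ⟨y0.le, hy.2.trans (a1.trans (min_le_right _ _))⟩
      have c2 : ‖zz n σ τ y‖ ≤ 2 * y / (1 + y ^ 2) * (1 + y) := by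
        apply (pow_le_pow_iff_left₀ (norm_nonneg _) (by positivity) two_ne_zero).mp
        rw [hsq, mul_pow]
        gcongr
        nlinarith
      rw [zz_re, zz_im]
      nlinarith
  refine mem_of_cover (A := A) hB.closed ?_ (hA.not_int hν (zz_dist hn hσ hτ y))
  filter_upwards [b2, hC.closed.isOpen_compl.mem_nhds hC'] with z h1 h2
  simp only [mem_compl_iff] at h2
  tauto

theorem not_both {A B C : Set ℂ} (hA : Good A) (hB : Good B) (hC : Good C) (h0 : (0 : ℂ) ∈ B)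
    (h1 : (1 : ℂ) ∈ B) (hev : ∀ᶠ z in 𝓝 (0 : ℂ), z ∈ A ∨ z ∈ B ∨ z ∈ C) {φ : ℝ}
    (s1 : 0 < Real.sin φ) (s2 : 0 < Real.sin (φ + Real.pi / 3)) {r r' : ℝ} (hr : 0 < r)
    (hr' : 0 < r')
    (hk : ∀ z : ℂ, z ≠ 0 → ‖z‖ < r → ‖z‖ / 2 ≤ z.re * (ee φ).re + z.im * (ee φ).im → z ∉ C)
    (hk' : ∀ z : ℂ, z ≠ 0 → ‖z‖ < r' →
      ‖z‖ / 2 ≤ z.re * (ee (φ + Real.pi / 3)).re + z.im * (ee (φ + Real.pi / 3)).im → z ∉ C) :
    (ee φ ∉ A ∧ -ee φ ∉ A) ∨ (ee (φ + Real.pi / 3) ∉ A ∧ -ee (φ + Real.pi / 3) ∉ A) := by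
  by_contra hcon
  have q1 : (5 : ℝ) / 3 ≤ √3 := Real.le_sqrt_of_sq_le (by norm_num)
  have hsc := Real.sin_sq_add_cos_sq φ
  obtain ⟨σ, hσ, hσA⟩ : ∃ σ : ℝ, (σ = 1 ∨ σ = -1) ∧ (σ : ℂ) * ee φ ∈ A := by
    by_cases g : ee φ ∈ A
    · exact ⟨1, Or.inl rfl, by simpa using g⟩
    · exact ⟨-1, Or.inr rfl, by simp only [ofReal_neg, ofReal_one, neg_mul, one_mul]; tauto⟩
  obtain ⟨σ', hσ', hσA'⟩ : ∃ σ : ℝ, (σ = 1 ∨ σ = -1) ∧ (σ : ℂ) * ee (φ + Real.pi / 3) ∈ A := by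
    by_cases g : ee (φ + Real.pi / 3) ∈ A
    · exact ⟨1, Or.inl rfl, by simpa using g⟩
    · exact ⟨-1, Or.inr rfl, by simp only [ofReal_neg, ofReal_one, neg_mul, one_mul]; tauto⟩
  have q2 : σ ^ 2 = 1 := by rcases hσ with rfl | rfl <;> norm_num
  have q2' : σ' ^ 2 = 1 := by rcases hσ' with rfl | rfl <;> norm_num
  have q3 : |σ| = 1 := by rcases hσ with rfl | rfl <;> norm_num
  have q3' : |σ'| = 1 := by rcases hσ' with rfl | rfl <;> norm_num
  obtain ⟨y, y0, y1, hy⟩ := arc_in hA hB hC (norm_ee φ) q2 (τ := 1) (by norm_num) hσA h0 hev hr' hk'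
    (by
      intro y hy
      simp only [ee_re, ee_im, Real.cos_add, Real.sin_add, Real.cos_pi_div_three,
        Real.sin_pi_div_three]
      have e : (σ * y * Real.cos φ - 1 * Real.sin φ) * (Real.cos φ * (1 / 2) - Real.sin φ * (√3 / 2))
          + (σ * y * Real.sin φ + 1 * Real.cos φ) * (Real.sin φ * (1 / 2) + Real.cos φ * (√3 / 2))
          = σ * y / 2 + √3 / 2 := by linear_combination (σ * y / 2 + √3 / 2) * hsc
      rw [e]
      rcases hσ with rfl | rfl <;> linarith [hy.1, hy.2]) (c := Real.sin φ / 2) (by linarith)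
  obtain ⟨y', y0', y1', hy'⟩ := arc_in hA hB hC (norm_ee (φ + Real.pi / 3)) q2' (τ := -1)
    (by norm_num) hσA' h0 hev hr hk
    (by
      intro y hy
      simp only [ee_re, ee_im, Real.cos_add, Real.sin_add, Real.cos_pi_div_three,
        Real.sin_pi_div_three]
      have e : (σ' * y * (Real.cos φ * (1 / 2) - Real.sin φ * (√3 / 2)) -
          -1 * (Real.sin φ * (1 / 2) + Real.cos φ * (√3 / 2))) * Real.cos φ +
          (σ' * y * (Real.sin φ * (1 / 2) + Real.cos φ * (√3 / 2)) +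
          -1 * (Real.cos φ * (1 / 2) - Real.sin φ * (√3 / 2))) * Real.sin φ
          = σ' * y / 2 + √3 / 2 := by linear_combination (σ' * y / 2 + √3 / 2) * hsc
      rw [e]
      rcases hσ' with rfl | rfl <;> linarith [hy.1, hy.2])
    (c := Real.sin (φ + Real.pi / 3) / 4) (by linarith)
  have bd : ∀ (σ y t : ℝ), |σ| = 1 → 0 < y → |σ * y * Real.cos t| ≤ y := by
    intro σ y t h1 h2
    rw [abs_mul, abs_mul, h1, one_mul, abs_of_pos h2]
    have := Real.abs_cos_le_one t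
    nlinarith
  refine hB.b0 (union_subset hy hy') (IsPreconnected.union 0 ⟨0, ⟨le_rfl, y0.le⟩, zz_zero _ _ _⟩
    ⟨0, ⟨le_rfl, y0'.le⟩, zz_zero _ _ _⟩
    (isPreconnected_Icc.image _ (continuous_zz _ _ _).continuousOn)
    (isPreconnected_Icc.image _ (continuous_zz _ _ _).continuousOn))
    (Or.inr ⟨y', ⟨y0'.le, le_rfl⟩, rfl⟩) (Or.inl ⟨y, ⟨y0.le, le_rfl⟩, rfl⟩) ?_ ?_ h1
  · rw [dist_lt_one_iff]
    have a1 := zz_normsq (norm_ee (φ + Real.pi / 3)) q2' (τ := -1) (by norm_num) y'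
    rw [norm_sq_eq] at a1
    have a2 := zz_re (ee (φ + Real.pi / 3)) σ' (-1) y'
    rw [ee_re, ee_im] at a2
    have hl : 2 * y' / (1 + y' ^ 2) * (1 + y' ^ 2) = 2 * y' := div_mul_cancel₀ _ (by positivity)
    have l0 : 0 < 2 * y' / (1 + y' ^ 2) := by positivity
    set l := 2 * y' / (1 + y' ^ 2)
    have a3 := (abs_le.mp (bd σ' y' (φ + Real.pi / 3) q3' y0')).1
    have a4 : l * (2 * y') < l * (2 * (σ' * y' * Real.cos (φ + Real.pi / 3) -
        -1 * Real.sin (φ + Real.pi / 3))) := by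
      apply mul_lt_mul_of_pos_left _ l0
      linarith
    simp only [one_re, one_im]
    have a5 : l ^ 2 * (1 + y' ^ 2) = l * (2 * y') := by rw [← hl]; ring
    nlinarith
  · rw [one_lt_dist_iff]
    have a2 := zz_re (ee φ) σ 1 y
    rw [ee_re, ee_im] at a2
    have l0 : 0 < 2 * y / (1 + y ^ 2) := by positivity
    have a3 := (abs_le.mp (bd σ y φ q3 y0)).2
    have a4 : (zz (ee φ) σ 1 y).re < 0 := by
      rw [a2]; apply mul_neg_of_pos_of_neg l0; linarith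
    simp only [one_re, one_im]
    nlinarith [sq_nonneg (0 - (zz (ee φ) σ 1 y).im)]

theorem Five.siam_core {A B C D E : Set ℂ} (h : Five A B C D E) {τ : Set ℂ}
    (htA : (1 : ℂ) ∈ A) (htB : (1 : ℂ) ∈ B) (hτ : τ ⊆ A ∩ B) (hτp : IsPreconnected τ)
    (hp : (0 : ℂ) ∈ τ) (hpC : (0 : ℂ) ∈ C)
    (hfr : ∃ᶠ u in 𝓝 (0 : ℂ), u ∈ τ ∧ dist u 1 = 1 ∧ 0 < u.im)
    (hev : ∀ᶠ z in 𝓝 (0 : ℂ), z ∈ A ∨ z ∈ B ∨ z ∈ C)
    (hc : ∀ s, 0 + ee s ∈ D ∨ 0 + ee s ∈ E) : False := by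
  obtain ⟨φ, φ0, φ1, hcr⟩ := h.exists_cr hc
  have hpi := Real.pi_pos
  have s1 : 0 < Real.sin φ := Real.sin_pos_of_pos_of_lt_pi φ0 (by linarith)
  have s2 : 0 < Real.sin (φ + Real.pi / 3) :=
    Real.sin_pos_of_pos_of_lt_pi (by linarith) (by linarith)
  have cA : Cr (A ∪ B ∪ C) 0 (ee φ) := by simpa using hcr 0
  have cB : Cr (A ∪ B ∪ C) 0 (ee (φ + Real.pi / 3)) := by simpa using hcr 1
  have cA' : Cr (A ∪ B ∪ C) 0 (-ee φ) := by
    have := hcr 3
    rw [show φ + ((3 : ℤ) : ℝ) * (Real.pi / 3) = φ + Real.pi by push_cast; ring, ee_add_pi] at this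
    simpa using this
  have cB' : Cr (A ∪ B ∪ C) 0 (-ee (φ + Real.pi / 3)) := by
    have := hcr 4
    rw [show φ + ((4 : ℤ) : ℝ) * (Real.pi / 3) = φ + Real.pi / 3 + Real.pi by push_cast; ring,
      ee_add_pi] at this
    simpa using this
  have near : ∀ ψ, 0 < Real.sin ψ → ∃ u ∈ τ, dist (ee ψ) u < 1 := by
    intro ψ hψ
    obtain ⟨u, ⟨u1, u2, u3⟩, u4⟩ := (hfr.and_eventually
      (ball_mem_nhds (0 : ℂ) (half_pos hψ))).exists
    refine ⟨u, u1, ?_⟩
    rw [dist_eq_one_iff] at u2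
    rw [dist_lt_one_iff, ee_re, ee_im]
    simp only [one_re, one_im] at u2
    have a1 : ‖u‖ < Real.sin ψ / 2 := mem_ball_zero_iff.mp u4
    have a2 := (abs_le.mp (abs_im_le_norm u)).2
    have a3 := (abs_le.mp (abs_re_le_norm u)).2
    have a4 := Real.sin_le_one ψ
    have a5 := Real.neg_one_le_cos ψ
    have a6 := Real.sin_sq_add_cos_sq ψ
    have a7 : 0 ≤ u.re := by nlinarith
    have a8 : u.re ≤ u.im ^ 2 := by nlinarith
    have a9 : u.re * (1 - Real.cos ψ) ≤ u.im ^ 2 * 2 := by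
      apply mul_le_mul a8 (by linarith) (by linarith [Real.cos_le_one ψ]) (by positivity)
    have a10 : u.im * (2 * u.im) < u.im * Real.sin ψ := by
      apply mul_lt_mul_of_pos_left _ u3; linarith
    nlinarith
  obtain ⟨u1, hu1, hu1'⟩ := near φ s1
  obtain ⟨u2, hu2, hu2'⟩ := near _ s2
  obtain ⟨r, hr, hk⟩ := kfree h.a h.b h.c hτ hτp hp hu1 hu1' cA
  obtain ⟨r', hr', hk'⟩ := kfree h.a h.b h.c hτ hτp hp hu2 hu2' cB
  have nA := not_both h.a h.b h.c (hτ hp).2 htB hev s1 s2 hr hr' hk hk'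
  have nB := not_both h.b h.a h.c (hτ hp).1 htA (hev.mono fun z hz => by tauto) s1 s2 hr hr' hk hk'
  have hne : ∀ t, ee t ≠ -ee t := by
    intro t ht
    have : ee t = 0 := by linear_combination ht / 2
    have h2 := norm_ee t
    rw [this, norm_zero] at h2
    exact zero_ne_one h2
  have fin : ∀ r₁ r₂, 0 < r₁ → 0 < r₂ → IsTotallyDisconnected (B ∩ C ∩ closedBall 0 r₁) →
      IsTotallyDisconnected (A ∩ C ∩ closedBall 0 r₂) → False := by
    intro r₁ r₂ g1 g2 t1 t2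
    obtain ⟨e, he, hb⟩ := Metric.eventually_nhds_iff_ball.mp hev
    have hm : 0 < min e (min r₁ r₂) := by positivity
    obtain ⟨β, hβ, hβp, hβn⟩ := two_closed h.c.closed (h.a.closed.union h.b.closed) (x := 0)
      (r := min e (min r₁ r₂))
      (fun z hz => by
        have := hb z (ball_subset_ball (min_le_left _ _) hz)
        simp only [mem_union]; tauto)
      (h.c.int_ball hpC hm)
      ((h.a.int_ball (hτ hp).1 hm).mono
        (inter_subset_inter_left _ (interior_mono subset_union_left)))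
    refine hβn.not_subsingleton (td_union ((h.b.closed.inter h.c.closed).inter isClosed_closedBall)
      ((h.a.closed.inter h.c.closed).inter isClosed_closedBall) t1 t2 β (fun z hz => ?_) hβp)
    obtain ⟨⟨z1, z2⟩, z3⟩ := hβ hz
    rcases z2 with z2 | z2
    · exact Or.inr ⟨⟨z2, z1⟩, closedBall_subset_closedBall
        ((min_le_right _ _).trans (min_le_right _ _)) z3⟩
    · exact Or.inl ⟨⟨z2, z1⟩, closedBall_subset_closedBall
        ((min_le_right _ _).trans (min_le_left _ _)) z3⟩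
  have sw : B ∪ A ∪ C = A ∪ B ∪ C := by rw [union_comm B A]
  rcases nA with ⟨a1, a2⟩ | ⟨a1, a2⟩ <;> rcases nB with ⟨b1, b2⟩ | ⟨b1, b2⟩
  · exact excl_same h.a h.b h.c a1 b1 cA hpC
  · obtain ⟨r₁, g1, t1⟩ := excl_pair h.a h.b h.c (hne _) a1 a2 cA cA'
    obtain ⟨r₂, g2, t2⟩ := excl_pair h.b h.a h.c (hne _) b1 b2 (sw ▸ cB) (sw ▸ cB')
    exact fin r₁ r₂ g1 g2 t1 t2
  · obtain ⟨r₁, g1, t1⟩ := excl_pair h.a h.b h.c (hne _) a1 a2 cB cB'
    obtain ⟨r₂, g2, t2⟩ := excl_pair h.b h.a h.c (hne _) b1 b2 (sw ▸ cA) (sw ▸ cA')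
    exact fin r₁ r₂ g1 g2 t1 t2
  · exact excl_same h.a h.b h.c a1 b1 cB hpC

theorem Good.comap {S : Set ℂ} (hS : Good S) (f : ℂ ≃ᵢ ℂ) : Good (f ⁻¹' S) := by
  refine ⟨hS.closed.preimage f.continuous, ?_, ?_⟩
  · have h1 := f.toHomeomorph.preimage_interior S
    have h2 := f.toHomeomorph.preimage_closure (interior S)
    simp only [IsometryEquiv.coe_toHomeomorph] at h1 h2
    rw [← h1, ← h2]
    exact preimage_mono hS.reg
  · intro x hx y hy
    have h1 := f.toHomeomorph.preimage_interior S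
    simp only [IsometryEquiv.coe_toHomeomorph] at h1
    rw [← h1] at hx
    rw [← f.dist_eq]
    exact hS.unit _ hx _ hy

theorem Five.comap {A B C D E : Set ℂ} (h : Five A B C D E) (f : ℂ ≃ᵢ ℂ) :
    Five (f ⁻¹' A) (f ⁻¹' B) (f ⁻¹' C) (f ⁻¹' D) (f ⁻¹' E) :=
  ⟨h.a.comap f, h.b.comap f, h.c.comap f, h.d.comap f, h.e.comap f, fun z => h.cov (f z)⟩

/-- the isometry `z ↦ p + c z` -/
noncomputable def mot (p c : ℂ) (hc : ‖c‖ = 1) : ℂ ≃ᵢ ℂ where
  toFun z := p + c * z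
  invFun z := (z - p) / c
  left_inv z := by
    have : c ≠ 0 := by rintro rfl; simp at hc
    field_simp; ring
  right_inv z := by
    have : c ≠ 0 := by rintro rfl; simp at hc
    field_simp; ring
  isometry_toFun := Isometry.of_dist_eq fun a b => by
    rw [dist_eq_norm, dist_eq_norm, show p + c * a - (p + c * b) = c * (a - b) by ring, norm_mul,
      hc, one_mul]

/-- no siamese triple point -/
theorem Five.siamese {A B C D E : Set ℂ} (h : Five A B C D E) {p t : ℂ} {τ : Set ℂ}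
    (htA : t ∈ A) (htB : t ∈ B) (hτ : τ ⊆ A ∩ B) (hτt : ∀ u ∈ τ, dist u t = 1)
    (hτp : IsPreconnected τ) (hτn : τ.Nontrivial) (hp : p ∈ τ) (hpC : p ∈ C)
    (hev : ∀ᶠ z in 𝓝 p, z ∈ A ∨ z ∈ B ∨ z ∈ C) : False := by
  have hc := h.siam_circle htA htB hτ hτt hτp hτn hp hpC hev
  have core : ∀ f : ℂ ≃ᵢ ℂ, f 0 = p → f 1 = t →
      ¬ ∃ᶠ u in 𝓝 (0 : ℂ), u ∈ f ⁻¹' τ ∧ 0 < u.im := by
    intro f f0 f1 hfr
    refine (h.comap f).siam_core (τ := f ⁻¹' τ) (by simpa [f1] using htA) (by simpa [f1] using htB)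
      (preimage_mono hτ) (f.toHomeomorph.isPreconnected_preimage.mpr hτp) (by simpa [f0] using hp)
      (by simpa [f0] using hpC) (hfr.mono fun u hu => ⟨hu.1, ?_, hu.2⟩) ?_ ?_
    · rw [← f.dist_eq, f1]; exact hτt _ hu.1
    · have := f.continuous.tendsto 0
      rw [f0] at this
      exact this.eventually hev
    · intro s
      obtain ⟨s', hs'⟩ := exists_ee_of_dist (x := p) (y := f (0 + ee s))
        (by rw [← f0, f.dist_eq, dist_ee])
      simp only [mem_preimage]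
      rw [hs']
      exact hc s'
  have hn : ‖t - p‖ = 1 := by rw [← dist_eq_norm, dist_comm]; exact hτt p hp
  set f := mot p (t - p) hn with hf
  have f0 : f 0 = p := by show p + (t - p) * 0 = p; ring
  have f1 : f 1 = t := by show p + (t - p) * 1 = t; ring
  set g : ℂ ≃ᵢ ℂ := conjLIE.toIsometryEquiv.trans f with hg
  have gz : ∀ z, g z = f ((starRingEnd ℂ) z) := fun z => rfl
  have c1 := core f f0 f1
  have c2 := core g (by rw [gz, map_zero, f0]) (by rw [gz, map_one, f1])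
  rw [not_frequently] at c1 c2
  have c3 : ∀ᶠ u in 𝓝 (0 : ℂ), ¬ (u ∈ f ⁻¹' τ ∧ u.im < 0) := by
    have := continuous_conj.tendsto (0 : ℂ)
    rw [map_zero] at this
    filter_upwards [this.eventually c2] with u hu
    simpa [gz] using hu
  have hp' : IsPreconnected (f ⁻¹' τ) := f.toHomeomorph.isPreconnected_preimage.mpr hτp
  have hn' : (f ⁻¹' τ).Nontrivial := hτn.preimage f.surjective
  have h0 : (0 : ℂ) ∈ f ⁻¹' τ := by simpa [f0] using hp
  obtain ⟨e, he, hb⟩ := Metric.eventually_nhds_iff_ball.mp (c1.and c3)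
  obtain ⟨v, hv, hv0⟩ := hn'.exists_ne 0
  have v0 : 0 < ‖v‖ := norm_pos_iff.mpr hv0
  have hm : 0 < min (min (e / 2) 1) ‖v‖ := by positivity
  obtain ⟨u, hu, hu1⟩ := hp'.intermediate_value h0 hv (f := fun w => ‖w‖) (by fun_prop)
    (⟨by simpa using hm.le, min_le_right _ _⟩ : min (min (e / 2) 1) ‖v‖ ∈ Icc _ _)
  simp only at hu1
  have m1 : ‖u‖ ≤ e / 2 := by rw [hu1]; exact (min_le_left _ _).trans (min_le_left _ _)
  have m2 : ‖u‖ ≤ 1 := by rw [hu1]; exact (min_le_left _ _).trans (min_le_right _ _)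
  have m3 : 0 < ‖u‖ := by rw [hu1]; exact hm
  obtain ⟨b1, b2⟩ := hb u (mem_ball_zero_iff.mpr (by linarith))
  have i0 : u.im = 0 := by
    rcases lt_trichotomy u.im 0 with g | g | g
    · exact absurd ⟨hu, g⟩ b2
    · exact g
    · exact absurd ⟨hu, g⟩ b1
  have d1 : dist u 1 = 1 := by rw [← f.dist_eq, f1]; exact hτt _ hu
  rw [dist_eq_one_iff] at d1
  simp only [one_re, one_im] at d1
  have a1 := norm_sq_eq u
  have a3 := (abs_le.mp (abs_re_le_norm u)).2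
  rw [i0] at d1 a1
  have : u.re * (u.re - 2) = 0 := by linear_combination d1
  rcases mul_eq_zero.mp this with g | g
  · rw [g] at a1; nlinarith
  · linarith

end Vale.Agent.P032
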