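import Vale.Agent.P032.Geom3

/-! Indexed colourings, the arc lemma, impossibility of tame vertices. -/

namespace Vale.Agent.P032

open Set Metric Complex Filter Topology

/-- five good sets covering the plane, indexed -/
structure Col (S : Fin 5 → Set ℂ) : Prop where
  good : ∀ c, Good (S c)
  cov : ∀ z, ∃ c, z ∈ S c

variable {S : Fin 5 → Set ℂ}

theorem Col.five (h : Col S) {a b c d e : Fin 5}
    (hall : ∀ f, f = a ∨ f = b ∨ f = c ∨ f = d ∨ f = e) : Five (S a) (S b) (S c) (S d) (S e) := by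
  refine ⟨h.good a, h.good b, h.good c, h.good d, h.good e, fun z => ?_⟩
  obtain ⟨f, hf⟩ := h.cov z
  rcases hall f with rfl | rfl | rfl | rfl | rfl <;> tauto

theorem rest3 : ∀ a b c : Fin 5, a ≠ b → a ≠ c → b ≠ c →
    ∃ d e, ∀ f, f = a ∨ f = b ∨ f = c ∨ f = d ∨ f = e := by decide

theorem rest4 : ∀ a b c d : Fin 5, a ≠ b → a ≠ c → a ≠ d → b ≠ c → b ≠ d → c ≠ d →
    ∃ e, ∀ f, f = a ∨ f = b ∨ f = e ∨ f = c ∨ f = d := by decide

/-- points with at least three colours -/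
def X3 (S : Fin 5 → Set ℂ) : Set ℂ :=
  {z | ∃ a b c, a ≠ b ∧ a ≠ c ∧ b ≠ c ∧ z ∈ S a ∧ z ∈ S b ∧ z ∈ S c}

theorem td_biUnion {ι : Type*} (s : Finset ι) {X : ι → Set ℂ} (h1 : ∀ i ∈ s, IsClosed (X i))
    (h2 : ∀ i ∈ s, IsTotallyDisconnected (X i)) : IsTotallyDisconnected (⋃ i ∈ s, X i) := by
  classical
  induction s using Finset.induction_on with
  | empty => simpa using isTotallyDisconnected_empty
  | insert a s ha ih =>
    rw [Finset.set_biUnion_insert]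
    exact td_union (h1 a (Finset.mem_insert_self _ _))
      (s.finite_toSet.isClosed_biUnion fun i hi => h1 i (Finset.mem_insert_of_mem hi))
      (h2 a (Finset.mem_insert_self _ _))
      (ih (fun i hi => h1 i (Finset.mem_insert_of_mem hi))
        fun i hi => h2 i (Finset.mem_insert_of_mem hi))

theorem X3_eq (S : Fin 5 → Set ℂ) : X3 S = ⋃ t ∈ (Finset.univ.filter
    fun t : Fin 5 × Fin 5 × Fin 5 => t.1 ≠ t.2.1 ∧ t.1 ≠ t.2.2 ∧ t.2.1 ≠ t.2.2),
    S t.1 ∩ S t.2.1 ∩ S t.2.2 := by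
  ext z
  simp only [X3, mem_ofPred_eq, mem_iUnion, Finset.mem_filter, Finset.mem_univ, true_and,
    mem_inter_iff, exists_prop, Prod.exists]
  constructor
  · rintro ⟨a, b, c, h1, h2, h3, h4, h5, h6⟩
    exact ⟨a, b, c, ⟨h1, h2, h3⟩, ⟨h4, h5⟩, h6⟩
  · rintro ⟨a, b, c, ⟨h1, h2, h3⟩, ⟨h4, h5⟩, h6⟩
    exact ⟨a, b, c, h1, h2, h3, h4, h5, h6⟩

theorem Col.X3_closed (h : Col S) : IsClosed (X3 S) := by
  rw [X3_eq]
  exact (Finset.finite_toSet _).isClosed_biUnion fun t _ =>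
    ((h.good _).closed.inter (h.good _).closed).inter (h.good _).closed

theorem Col.X3_td (h : Col S) : IsTotallyDisconnected (X3 S) := by
  rw [X3_eq]
  refine td_biUnion _ (fun t _ =>
    ((h.good _).closed.inter (h.good _).closed).inter (h.good _).closed) fun t ht => ?_
  obtain ⟨h1, h2, h3⟩ := (Finset.mem_filter.mp ht).2
  obtain ⟨d, e, hall⟩ := rest3 _ _ _ h1 h2 h3
  exact (h.five hall).td3

theorem Col.ev_sub (h : Col S) (y : ℂ) : ∀ᶠ z in 𝓝 y, ∃ c, y ∈ S c ∧ z ∈ S c := by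
  have : ∀ᶠ z in 𝓝 y, ∀ c, y ∉ S c → z ∉ S c := by
    rw [eventually_all]
    intro c
    by_cases hc : y ∈ S c
    · exact Eventually.of_forall fun _ h => absurd hc h
    · filter_upwards [(h.good c).closed.isOpen_compl.mem_nhds hc] with z hz _ using hz
  filter_upwards [this] with z hz
  obtain ⟨c, hc⟩ := h.cov z
  exact ⟨c, by by_contra hh; exact hz c hh hc, hc⟩

theorem Col.two_nbhd (h : Col S) {y : ℂ} (hy : y ∉ X3 S) (F : Finset (Fin 5)) (hF : F.card ≤ 3)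
    (hyF : ∀ f ∈ F, y ∉ S f) :
    ∃ a b, a ≠ b ∧ a ∉ F ∧ b ∉ F ∧ ∀ᶠ z in 𝓝 y, z ∈ S a ∨ z ∈ S b := by
  classical
  set I := Finset.univ.filter fun c => y ∈ S c with hI
  have h1 : I.card ≤ 2 := by
    by_contra hh
    obtain ⟨a, b, c, ha, hb, hc, h1, h2, h3⟩ := Finset.two_lt_card_iff.mp (not_le.mp hh)
    exact hy ⟨a, b, c, h1, h2, h3, (Finset.mem_filter.mp ha).2, (Finset.mem_filter.mp hb).2,
      (Finset.mem_filter.mp hc).2⟩
  have h2 : I ⊆ Fᶜ := fun c hc => Finset.mem_compl.mpr fun hf =>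
    hyF c hf (Finset.mem_filter.mp hc).2
  have h3 : 2 ≤ Fᶜ.card := by rw [Finset.card_compl, Fintype.card_fin]; omega
  obtain ⟨T, t1, t2, t3⟩ := Finset.exists_subsuperset_card_eq h2 h1 h3
  obtain ⟨a, b, hab, rfl⟩ := Finset.card_eq_two.mp t3
  refine ⟨a, b, hab, Finset.mem_compl.mp (t2 (by simp)), Finset.mem_compl.mp (t2 (by simp)), ?_⟩
  filter_upwards [h.ev_sub y] with z ⟨c, hc1, hc2⟩
  have := t1 (Finset.mem_filter.mpr ⟨Finset.mem_univ c, hc1⟩)
  simp only [Finset.mem_insert, Finset.mem_singleton] at this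
  rcases this with rfl | rfl
  · exact Or.inl hc2
  · exact Or.inr hc2

theorem arc_nontrivial (x : ℂ) {u v : ℝ} (h : u < v) :
    ((fun s => x + ee s) '' Icc u v).Nontrivial :=
  ⟨_, ⟨u, ⟨le_rfl, h.le⟩, rfl⟩, _, ⟨min v (u + 1), ⟨le_min h.le (by linarith), min_le_left _ _⟩, rfl⟩,
    ee_ne x (lt_min h (by linarith))
      ((min_le_right _ _).trans_lt (by linarith [Real.pi_gt_three]))⟩

theorem exists_not_td {X : Set ℂ} (hX : IsTotallyDisconnected X) (x : ℂ) {u v : ℝ} (h : u < v) :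
    ∃ s ∈ Icc u v, x + ee s ∉ X := by
  by_contra hh
  push Not at hh
  exact (arc_nontrivial x h).not_subsingleton
    (hX _ (by rintro _ ⟨s, hs, rfl⟩; exact hh s hs) (arc_pre _ _ _))

theorem exists_not_td' {X : Set ℂ} (hX : IsTotallyDisconnected X) (x : ℂ) {u v s : ℝ} (h : u < v)
    (hs : s ∈ Icc u v) {P : ℝ → Prop} (hP : ∀ᶠ t in 𝓝 s, P t) :
    ∃ t ∈ Icc u v, P t ∧ x + ee t ∉ X := by
  obtain ⟨η, e0, -, e2⟩ := ev_Icc hP (c := 1) one_pos
  obtain ⟨t, ht, htX⟩ := exists_not_td hX x (u := max u (s - η)) (v := min v (s + η))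
    (max_lt (lt_min h (by linarith [hs.1])) (lt_min (by linarith [hs.2]) (by linarith)))
  exact ⟨t, ⟨(le_max_left _ _).trans ht.1, ht.2.trans (min_le_left _ _)⟩,
    e2 t ⟨(le_max_right _ _).trans ht.1, ht.2.trans (min_le_right _ _)⟩, htX⟩

theorem loc2 {A B : Set ℂ} (hA : Good A) (hB : Good B) {x : ℂ} (hxA : x ∈ A) (hxB : x ∈ B) {s : ℝ}
    (hev : ∀ᶠ z in 𝓝 (x + ee s), z ∈ A ∨ z ∈ B) : ∀ᶠ t in 𝓝 s, x + ee t ∈ A ∩ B := by
  have hf : Continuous fun s => x + ee s := by fun_prop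
  filter_upwards [hf.continuousAt.eventually hev.eventually_nhds] with t ht
  exact ⟨mem_of_cover hA.closed (ht.mono fun _ h => h.symm) (hB.not_int hxB (dist_ee _ _)),
    mem_of_cover hB.closed ht (hA.not_int hxA (dist_ee _ _))⟩

theorem propagate_right {T : Set ℝ} (hT : IsClosed T) {b s₀ : ℝ} (h0 : T ∈ 𝓝 s₀)
    (step : ∀ s ∈ Icc s₀ b, s₀ < s → Icc s₀ s ⊆ T → T ∈ 𝓝 s) : Icc s₀ b ⊆ T := by
  refine (hT.inter isClosed_Icc).Icc_subset_of_forall_mem_nhdsGT_of_Icc_subset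
    (mem_of_mem_nhds h0) fun t ht h => mem_nhdsWithin_of_mem_nhds ?_
  rcases eq_or_lt_of_le ht.1 with rfl | g
  · exact h0
  · exact step t ⟨ht.1, ht.2.le⟩ g h

theorem propagate {T : Set ℝ} (hT : IsClosed T) {a b s₀ : ℝ} (hs : s₀ ∈ Icc a b) (h0 : T ∈ 𝓝 s₀)
    (step : ∀ s ∈ Icc a b, ∀ u v, u < v → s ∈ Icc u v → Icc u v ⊆ T → T ∈ 𝓝 s) :
    Icc a b ⊆ T := by
  have r := propagate_right hT (b := b) h0 fun s g1 g2 g3 =>
    step s ⟨hs.1.trans g1.1, g1.2⟩ s₀ s g2 ⟨g2.le, le_rfl⟩ g3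
  have l := propagate_right (T := Neg.neg ⁻¹' T) (hT.preimage continuous_neg) (b := -a) (s₀ := -s₀)
    (continuous_neg.continuousAt.preimage_mem_nhds (by simpa using h0)) fun s g1 g2 g3 =>
      continuous_neg.continuousAt.preimage_mem_nhds (step (-s)
        ⟨by linarith [g1.2], by linarith [hs.2]⟩ (-s) s₀ (by linarith) ⟨le_rfl, by linarith⟩
        fun t ht => by simpa using g3 (a := -t) ⟨by linarith [ht.2], by linarith [ht.1]⟩)
  intro t ht
  rcases le_total s₀ t with g | g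
  · exact r ⟨g, ht.2⟩
  · simpa using l (a := -t) ⟨by linarith, by linarith [ht.1]⟩

theorem Col.arc (h : Col S) {x : ℂ} {m : Fin 5} (hx : ∀ c ≠ m, x ∈ S c) {a b : ℝ}
    (hab : a + Real.pi / 3 < b)
    (hy : ∀ s ∈ Icc a b, (∃ c c', c ≠ c' ∧ x + ee s ∉ S c ∧ x + ee s ∉ S c') ∨
      ∀ᶠ t in 𝓝 s, x + ee t ∈ S m) : False := by
  have hf : Continuous fun s => x + ee s := by fun_prop
  have hab' : a < b := by linarith [Real.pi_pos]
  obtain ⟨s, hs, hsm⟩ : ∃ s ∈ Icc a b, x + ee s ∉ S m := by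
    by_contra hh
    push Not at hh
    exact (h.good m).arc60 hab hh
  obtain ⟨s₀, hs₀, g1, g2⟩ := exists_not_td' h.X3_td x hab' hs
    (hf.continuousAt.eventually ((h.good m).closed.isOpen_compl.mem_nhds hsm))
  obtain ⟨P, Q, hPQ, hP, hQ, hev⟩ := h.two_nbhd g2 {m} (by simp) (by simpa using g1)
  rw [Finset.mem_singleton] at hP hQ
  have key := propagate (T := {s | x + ee s ∈ S P ∩ S Q})
    (((h.good P).closed.inter (h.good Q).closed).preimage hf) hs₀
    (loc2 (h.good P) (h.good Q) (hx P hP) (hx Q hQ) hev) (by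
      intro s hs u v huv hsuv hT
      rcases hy s hs with ⟨c, c', hcc, n1, n2⟩ | hm
      · obtain ⟨p1, p2⟩ := hT hsuv
        obtain ⟨R, hall⟩ := rest4 P Q c c' hPQ (by rintro rfl; exact n1 p1) (by rintro rfl; exact n2 p1)
          (by rintro rfl; exact n1 p2) (by rintro rfl; exact n2 p2) hcc
        by_cases hR : x + ee s ∈ S R
        · exfalso
          refine (h.five hall).siamese (hx P hP) (hx Q hQ) (τ := (fun s => x + ee s) '' Icc u v)
            (by rintro _ ⟨t, ht, rfl⟩; exact hT ht) (by rintro _ ⟨t, -, rfl⟩; exact dist_ee _ _)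
            (arc_pre _ _ _) (arc_nontrivial _ huv) ⟨s, hsuv, rfl⟩ hR ?_
          filter_upwards [h.ev_sub (x + ee s)] with z ⟨f, f1, f2⟩
          rcases hall f with rfl | rfl | rfl | rfl | rfl <;> tauto
        · refine loc2 (h.good P) (h.good Q) (hx P hP) (hx Q hQ) ?_
          filter_upwards [h.ev_sub (x + ee s)] with z ⟨f, f1, f2⟩
          rcases hall f with rfl | rfl | rfl | rfl | rfl <;> tauto
      · exfalso
        obtain ⟨t, t1, t2, t3⟩ := exists_not_td' h.X3_td x huv hsuv hm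
        exact t3 ⟨P, Q, m, hPQ, hP, hQ, (hT t1).1, (hT t1).2, t2⟩)
  exact (h.good P).arc60 hab fun s hs => (key hs).1

/-- a nontrivial continuum through `x` inside `M` -/
def Leaf (M : Set ℂ) (x : ℂ) : Prop := ∃ β ⊆ M, IsPreconnected β ∧ β.Nontrivial ∧ x ∈ β

theorem pigeon {n : ℕ} (P : Fin n → ℂ → Prop) (hu : ∀ i y y', P i y → P i y' → y = y')
    (f : Fin (n + 1) → ℂ) (hf : Function.Injective f) : ∃ k, ∀ i, ¬ P i (f k) := by
  by_contra hh
  push Not at hh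
  choose g hg using hh
  obtain ⟨k, k', hne, he⟩ := Fintype.exists_ne_map_eq_of_card_lt g (by simp)
  exact hne (hf (hu _ _ _ (hg k) (he ▸ hg k')))

theorem ee_inj {n : ℕ} (x : ℂ) {g : Fin n → ℝ} (hg : StrictMono g)
    (hw : ∀ i j, g j < g i + 2 * Real.pi) : Function.Injective fun k => x + ee (g k) := by
  intro i j hij
  by_contra hne
  rcases lt_or_gt_of_ne hne with g | g
  · exact ee_ne x (hg g) (hw _ _) hij
  · exact ee_ne x (hg g) (hw _ _) hij.symm

theorem side (β : Set ℂ) (y : ℂ) (h : ¬ ∀ u ∈ β, dist u y = 1) :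
    (∃ u ∈ β, dist y u < 1) ∨ ∃ u ∈ β, 1 < dist y u := by
  push Not at h
  obtain ⟨u, hu, h1⟩ := h
  rw [dist_comm] at h1
  rcases lt_or_gt_of_ne h1 with g | g
  · exact Or.inl ⟨u, hu, g⟩
  · exact Or.inr ⟨u, hu, g⟩

theorem in_free {A β : Set ℂ} (hA : Good A) (hβ : β ⊆ A) (hp : IsPreconnected β) {x y : ℂ}
    (hx : x ∈ β) (h : ∃ u ∈ β, dist y u < 1) : ∀ᶠ z in 𝓝 y, 1 < dist z x → z ∉ A := by
  obtain ⟨u, hu, h⟩ := h
  filter_upwards [ev_lt h] with z h1 h2 using hA.b0 hβ hp hu hx h1 h2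

theorem out_free {A β : Set ℂ} (hA : Good A) (hβ : β ⊆ A) (hp : IsPreconnected β) {x y : ℂ}
    (hx : x ∈ β) (h : ∃ u ∈ β, 1 < dist y u) : ∀ᶠ z in 𝓝 y, dist z x < 1 → z ∉ A := by
  obtain ⟨u, hu, h⟩ := h
  filter_upwards [ev_gt h] with z h1 h2 using hA.b0 hβ hp hx hu h2 h1

theorem chg {A β β' : Set ℂ} (hA : Good A) (hβ : β ⊆ A) (hβ' : β' ⊆ A) (hp : IsPreconnected β)
    (hp' : IsPreconnected β') {x y : ℂ} (hx : x ∈ β) (hx' : x ∈ β')
    (h : ∃ u ∈ β, dist y u < 1) (h' : ∃ u ∈ β', 1 < dist y u) : y ∉ A := by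
  obtain ⟨u, hu, h⟩ := h
  obtain ⟨v, hv, h'⟩ := h'
  exact hA.b0 (union_subset hβ hβ') (hp.union x hx hx' hp') (Or.inl hu) (Or.inr hv) h h'

theorem nu_inj (x : ℂ) (θ : ℝ) :
    Function.Injective fun k : Fin 4 => x + ee (θ + ((k : ℕ) : ℤ) * (Real.pi / 3)) := by
  have hpi := Real.pi_pos
  refine ee_inj x (g := fun k : Fin 4 => θ + ((k : ℕ) : ℤ) * (Real.pi / 3)) ?_ ?_
  · intro i j hij
    have : ((i : ℕ) : ℝ) < ((j : ℕ) : ℝ) := by exact_mod_cast hij
    simp only [Int.cast_natCast]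
    nlinarith
  · intro i j
    have h1 : ((j : ℕ) : ℝ) < 4 := by exact_mod_cast j.2
    have h2 : (0 : ℝ) ≤ ((i : ℕ) : ℝ) := by positivity
    simp only [Int.cast_natCast]
    nlinarith

theorem Five.tame3 {A B C D E : Set ℂ} (h : Five A B C D E) {x : ℂ} (l1 : Leaf (A ∩ B) x)
    (l2 : Leaf (B ∩ C) x) (l3 : Leaf (C ∩ A) x) : False := by
  obtain ⟨β₁, s1, p1, n1, x1⟩ := l1
  obtain ⟨β₂, s2, p2, n2, x2⟩ := l2
  obtain ⟨β₃, s3, p3, n3, x3⟩ := l3
  have A1 : β₁ ⊆ A := s1.trans inter_subset_left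
  have B1 : β₁ ⊆ B := s1.trans inter_subset_right
  have B2 : β₂ ⊆ B := s2.trans inter_subset_left
  have C2 : β₂ ⊆ C := s2.trans inter_subset_right
  have C3 : β₃ ⊆ C := s3.trans inter_subset_left
  have A3 : β₃ ⊆ A := s3.trans inter_subset_right
  set P : Fin 3 → ℂ → Prop := fun i y => ∀ u ∈ (![β₁, β₂, β₃] : Fin 3 → Set ℂ) i, dist u y = 1 with hP
  have uq : ∀ i y y', P i y → P i y' → y = y' := by
    intro i y y' g1 g2
    fin_cases i
    · exact siam_unique p1 n1 g1 g2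
    · exact siam_unique p2 n2 g1 g2
    · exact siam_unique p3 n3 g1 g2
  have one : ∀ y, (∀ i, ¬ P i y) → (∀ᶠ z in 𝓝 y, 1 < dist z x → z ∉ A ∪ B ∪ C) ∨
      ∀ᶠ z in 𝓝 y, dist z x < 1 → z ∉ A ∪ B ∪ C := by
    intro y hy
    have comb : ∀ {Q : ℂ → Prop}, (∀ᶠ z in 𝓝 y, Q z → z ∉ A) → (∀ᶠ z in 𝓝 y, Q z → z ∉ B) →
        (∀ᶠ z in 𝓝 y, Q z → z ∉ C) → ∀ᶠ z in 𝓝 y, Q z → z ∉ A ∪ B ∪ C := by
      intro Q a b c
      filter_upwards [a, b, c] with z a b c q
      simp only [mem_union]; tauto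
    rcases side β₁ y (hy 0) with a | a <;> rcases side β₂ y (hy 1) with b | b <;>
      rcases side β₃ y (hy 2) with c | c
    · exact Or.inl (comb (in_free h.a A1 p1 x1 a) (in_free h.b B1 p1 x1 a) (in_free h.c C2 p2 x2 b))
    · exact Or.inl (comb (in_free h.a A1 p1 x1 a) (in_free h.b B1 p1 x1 a) (in_free h.c C2 p2 x2 b))
    · exact Or.inl (comb (in_free h.a A1 p1 x1 a) (in_free h.b B1 p1 x1 a) (in_free h.c C3 p3 x3 c))
    · exact Or.inr (comb (out_free h.a A3 p3 x3 c) (out_free h.b B2 p2 x2 b)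
        (out_free h.c C2 p2 x2 b))
    · exact Or.inl (comb (in_free h.a A3 p3 x3 c) (in_free h.b B2 p2 x2 b) (in_free h.c C2 p2 x2 b))
    · exact Or.inr (comb (out_free h.a A1 p1 x1 a) (out_free h.b B1 p1 x1 a)
        (out_free h.c C3 p3 x3 c))
    · exact Or.inr (comb (out_free h.a A1 p1 x1 a) (out_free h.b B1 p1 x1 a)
        (out_free h.c C2 p2 x2 b))
    · exact Or.inr (comb (out_free h.a A1 p1 x1 a) (out_free h.b B1 p1 x1 a)
        (out_free h.c C2 p2 x2 b))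
  have hDE : ∀ y ∉ A ∪ B ∪ C, y ∈ D ∪ E := by
    intro y hy
    have := h.cov y
    simp only [mem_union] at hy ⊢
    tauto
  have hcl := h.d.closed.union h.e.closed
  have good : ∀ s, (∀ i, ¬ P i (x + ee s)) → x + ee s ∈ D ∪ E := by
    intro s hs
    rw [← hcl.closure_eq, mem_closure_iff_frequently]
    rcases one _ hs with g | g
    · exact ((freq_out (dist_ee x s)).and_eventually g).mono fun z hz => hDE z (hz.2 hz.1)
    · exact ((freq_in (dist_ee x s)).and_eventually g).mono fun z hz => hDE z (hz.2 hz.1)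
  have hc : ∀ s, x + ee s ∈ D ∨ x + ee s ∈ E := by
    intro s
    by_contra hs
    have hf : Continuous fun s => x + ee s := by fun_prop
    obtain ⟨η, e0, e1, e2⟩ := ev_Icc (hf.continuousAt.eventually (hcl.isOpen_compl.mem_nhds hs))
      (c := 1) one_pos
    obtain ⟨k, hk⟩ := pigeon P uq (fun k : Fin 4 => x + ee (s + (k : ℕ) * (η / 4)))
      (ee_inj x (g := fun k : Fin 4 => s + (k : ℕ) * (η / 4)) (by
        intro i j hij
        have : ((i : ℕ) : ℝ) < ((j : ℕ) : ℝ) := by exact_mod_cast hij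
        simp only
        nlinarith) (by
        intro i j
        have h1 : ((j : ℕ) : ℝ) < 4 := by exact_mod_cast j.2
        have h2 : (0 : ℝ) ≤ ((i : ℕ) : ℝ) := by positivity
        nlinarith [Real.pi_gt_three]))
    have h1 : ((k : ℕ) : ℝ) < 4 := by exact_mod_cast k.2
    have h2 : (0 : ℝ) ≤ ((k : ℕ) : ℝ) := by positivity
    exact e2 _ ⟨by nlinarith, by nlinarith⟩ (good _ hk)
  obtain ⟨θ, -, -, hcr⟩ := h.exists_cr hc
  obtain ⟨k, hk⟩ := pigeon P uq _ (nu_inj x θ)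
  obtain ⟨e, he, hb⟩ := Metric.eventually_nhds_iff_ball.mp
    (show ∀ᶠ z in 𝓝 (x + ee (θ + ((k : ℕ) : ℤ) * (Real.pi / 3))),
      (∀ᶠ z in 𝓝 (x + ee (θ + ((k : ℕ) : ℤ) * (Real.pi / 3))), 1 < dist z x → z ∉ A ∪ B ∪ C) →
        1 < dist z x → z ∉ A ∪ B ∪ C from by
      by_cases g : ∀ᶠ z in 𝓝 (x + ee (θ + ((k : ℕ) : ℤ) * (Real.pi / 3))),
        1 < dist z x → z ∉ A ∪ B ∪ C
      · exact g.mono fun z hz _ => hz
      · exact Eventually.of_forall fun z hz => absurd hz g)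
  rcases one _ hk with g | g
  · obtain ⟨r, hr, hk⟩ := hcr k e he
    obtain ⟨κ, hκ, -, -, -, v, hv, hv'⟩ := hk (1 - r) (1 + r) le_rfl (by linarith) le_rfl
    exact hb v (hκ hv).2 g (by linarith) (hκ hv).1
  · obtain ⟨e', he', hb'⟩ := Metric.eventually_nhds_iff_ball.mp g
    obtain ⟨r, hr, hk⟩ := hcr k e' he'
    obtain ⟨κ, hκ, -, -, ⟨v, hv, hv'⟩, -⟩ := hk (1 - r) (1 + r) le_rfl (by linarith) le_rfl
    exact hb' v (hκ hv).2 (by linarith) (hκ hv).1

theorem good_interval (x : ℂ) (P : Fin 5 → ℂ → Prop) (hu : ∀ i y y', P i y → P i y' → y = y') :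
    ∃ a b, a + Real.pi / 3 < b ∧ ∀ s ∈ Icc a b, ∀ i, ¬ P i (x + ee s) := by
  by_contra hh
  push Not at hh
  have hpi := Real.pi_gt_three
  choose nx h1 h2 using fun a => hh a (a + Real.pi / 3 + 1 / 100) (by linarith)
  let g : ℕ → ℝ := fun k => Nat.rec (nx 0) (fun _ s => nx (s + 1 / 100)) k
  have gs : ∀ k, g (k + 1) = nx (g k + 1 / 100) := fun k => rfl
  have mono : StrictMono g := strictMono_nat_of_lt_succ fun k => by
    rw [gs]; linarith [(h1 (g k + 1 / 100)).1]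
  have up : ∀ k : ℕ, g k ≤ g 0 + k * (Real.pi / 3 + 2 / 100) := by
    intro k
    induction k with
    | zero => simp
    | succ k ih => rw [gs]; push_cast; linarith [(h1 (g k + 1 / 100)).2]
  have bad : ∀ k, ∃ i, P i (x + ee (g k)) := by
    intro k
    cases k with
    | zero => exact h2 0
    | succ k => exact h2 _
  obtain ⟨k, hk⟩ := pigeon P hu (fun k : Fin 6 => x + ee (g k))
    (ee_inj x (g := fun k : Fin 6 => g k) (fun i j hij => mono hij) (by
      intro i j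
      have a1 := up j
      have a2 : g 0 ≤ g i := mono.monotone (Nat.zero_le _)
      have a3 : ((j : ℕ) : ℝ) ≤ 5 := by exact_mod_cast Nat.lt_succ_iff.mp j.2
      nlinarith))
  obtain ⟨i, hi⟩ := bad k
  exact hk i hi

theorem Col.tame4 (h : Col S) {x : ℂ} {a b c d m : Fin 5} (ab : a ≠ b) (ac : a ≠ c) (ad : a ≠ d)
    (bc : b ≠ c) (bd : b ≠ d) (cd : c ≠ d) (hall : ∀ f, f = a ∨ f = b ∨ f = c ∨ f = d ∨ f = m)
    (l1 : Leaf (S a ∩ S b) x) (l2 : Leaf (S b ∩ S c) x) (l3 : Leaf (S c ∩ S d) x)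
    (l4 : Leaf (S d ∩ S a) x) : False := by
  obtain ⟨β₁, s1, p1, n1, x1⟩ := l1
  obtain ⟨β₂, s2, p2, n2, x2⟩ := l2
  obtain ⟨β₃, s3, p3, n3, x3⟩ := l3
  obtain ⟨β₄, s4, p4, n4, x4⟩ := l4
  have A1 : β₁ ⊆ S a := s1.trans inter_subset_left
  have B1 : β₁ ⊆ S b := s1.trans inter_subset_right
  have B2 : β₂ ⊆ S b := s2.trans inter_subset_left
  have C2 : β₂ ⊆ S c := s2.trans inter_subset_right
  have C3 : β₃ ⊆ S c := s3.trans inter_subset_left
  have D3 : β₃ ⊆ S d := s3.trans inter_subset_right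
  have D4 : β₄ ⊆ S d := s4.trans inter_subset_left
  have A4 : β₄ ⊆ S a := s4.trans inter_subset_right
  obtain ⟨u, v, huv, hg⟩ := good_interval x
    (fun i y => ∀ u ∈ (![β₁, β₂, β₃, β₄, β₁] : Fin 5 → Set ℂ) i, dist u y = 1) (by
      intro i y y' g1 g2
      fin_cases i
      · exact siam_unique p1 n1 g1 g2
      · exact siam_unique p2 n2 g1 g2
      · exact siam_unique p3 n3 g1 g2
      · exact siam_unique p4 n4 g1 g2
      · exact siam_unique p1 n1 g1 g2)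
  refine h.arc (x := x) (m := m) (fun f hf => ?_) huv fun s hs => ?_
  · rcases hall f with rfl | rfl | rfl | rfl | rfl
    · exact A1 x1
    · exact B1 x1
    · exact C3 x3
    · exact D3 x3
    · exact absurd rfl hf
  have hf : Continuous fun s => x + ee s := by fun_prop
  have fin : ∀ {Q : ℂ → Prop}, (∀ t, ∃ᶠ z in 𝓝 (x + ee t), Q z) →
      (∀ᶠ z in 𝓝 (x + ee s), Q z → z ∉ S a) → (∀ᶠ z in 𝓝 (x + ee s), Q z → z ∉ S b) →
      (∀ᶠ z in 𝓝 (x + ee s), Q z → z ∉ S c) → (∀ᶠ z in 𝓝 (x + ee s), Q z → z ∉ S d) →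
      ∀ᶠ t in 𝓝 s, x + ee t ∈ S m := by
    intro Q hq qa qb qc qd
    have : ∀ᶠ z in 𝓝 (x + ee s), Q z → z ∈ S m := by
      filter_upwards [qa, qb, qc, qd] with z qa qb qc qd q
      obtain ⟨f, hf⟩ := h.cov z
      rcases hall f with rfl | rfl | rfl | rfl | rfl <;> tauto
    filter_upwards [hf.continuousAt.eventually this.eventually_nhds] with t ht
    rw [← (h.good m).closed.closure_eq, mem_closure_iff_frequently]
    exact ((hq t).and_eventually ht).mono fun z hz => hz.2 hz.1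
  have b1 := chg (h.good b) B1 B2 p1 p2 x1 x2 (y := x + ee s)
  have b2 := chg (h.good b) B2 B1 p2 p1 x2 x1 (y := x + ee s)
  have c1 := chg (h.good c) C2 C3 p2 p3 x2 x3 (y := x + ee s)
  have c2 := chg (h.good c) C3 C2 p3 p2 x3 x2 (y := x + ee s)
  have d1 := chg (h.good d) D3 D4 p3 p4 x3 x4 (y := x + ee s)
  have d2 := chg (h.good d) D4 D3 p4 p3 x4 x3 (y := x + ee s)
  have a1 := chg (h.good a) A4 A1 p4 p1 x4 x1 (y := x + ee s)
  have a2 := chg (h.good a) A1 A4 p1 p4 x1 x4 (y := x + ee s)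
  have two : ∀ {c c' : Fin 5}, c ≠ c' → x + ee s ∉ S c → x + ee s ∉ S c' →
      (∃ c c', c ≠ c' ∧ x + ee s ∉ S c ∧ x + ee s ∉ S c') ∨ ∀ᶠ t in 𝓝 s, x + ee t ∈ S m :=
    fun g1 g2 g3 => Or.inl ⟨_, _, g1, g2, g3⟩
  rcases side β₁ _ (hg s hs 0) with i1 | i1 <;> rcases side β₂ _ (hg s hs 1) with i2 | i2 <;>
    rcases side β₃ _ (hg s hs 2) with i3 | i3 <;> rcases side β₄ _ (hg s hs 3) with i4 | i4 <;>
  first
    | exact Or.inr (fin (fun t => freq_out (dist_ee x t)) (in_free (h.good a) A1 p1 x1 i1)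
        (in_free (h.good b) B2 p2 x2 i2) (in_free (h.good c) C3 p3 x3 i3)
        (in_free (h.good d) D4 p4 x4 i4))
    | exact Or.inr (fin (fun t => freq_in (dist_ee x t)) (out_free (h.good a) A1 p1 x1 i1)
        (out_free (h.good b) B2 p2 x2 i2) (out_free (h.good c) C3 p3 x3 i3)
        (out_free (h.good d) D4 p4 x4 i4))
    | (have na : x + ee s ∉ S a := by first | exact a1 i4 i1 | exact a2 i1 i4
       first
        | exact two ab na (by first | exact b1 i1 i2 | exact b2 i2 i1)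
        | exact two ac na (by first | exact c1 i2 i3 | exact c2 i3 i2)
        | exact two ad na (by first | exact d1 i3 i4 | exact d2 i4 i3))
    | (have na : x + ee s ∉ S b := by first | exact b1 i1 i2 | exact b2 i2 i1
       first
        | exact two bc na (by first | exact c1 i2 i3 | exact c2 i3 i2)
        | exact two bd na (by first | exact d1 i3 i4 | exact d2 i4 i3))
    | exact two cd (by first | exact c1 i2 i3 | exact c2 i3 i2)
        (by first | exact d1 i3 i4 | exact d2 i4 i3)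

theorem Col.tame5 (h : Col S) {x : ℂ} {a b c d e : Fin 5} (ab : a ≠ b) (ac : a ≠ c) (ad : a ≠ d)
    (ae : a ≠ e) (bc : b ≠ c) (bd : b ≠ d) (be : b ≠ e) (cd : c ≠ d) (ce : c ≠ e) (de : d ≠ e)
    (hall : ∀ f, f = a ∨ f = b ∨ f = c ∨ f = d ∨ f = e)
    (l1 : Leaf (S a ∩ S b) x) (l2 : Leaf (S b ∩ S c) x) (l3 : Leaf (S c ∩ S d) x)
    (l4 : Leaf (S d ∩ S e) x) (l5 : Leaf (S e ∩ S a) x) : False := by
  obtain ⟨β₁, s1, p1, n1, x1⟩ := l1
  obtain ⟨β₂, s2, p2, n2, x2⟩ := l2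
  obtain ⟨β₃, s3, p3, n3, x3⟩ := l3
  obtain ⟨β₄, s4, p4, n4, x4⟩ := l4
  obtain ⟨β₅, s5, p5, n5, x5⟩ := l5
  have A1 : β₁ ⊆ S a := s1.trans inter_subset_left
  have B1 : β₁ ⊆ S b := s1.trans inter_subset_right
  have B2 : β₂ ⊆ S b := s2.trans inter_subset_left
  have C2 : β₂ ⊆ S c := s2.trans inter_subset_right
  have C3 : β₃ ⊆ S c := s3.trans inter_subset_left
  have D3 : β₃ ⊆ S d := s3.trans inter_subset_right
  have D4 : β₄ ⊆ S d := s4.trans inter_subset_left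
  have E4 : β₄ ⊆ S e := s4.trans inter_subset_right
  have E5 : β₅ ⊆ S e := s5.trans inter_subset_left
  have A5 : β₅ ⊆ S a := s5.trans inter_subset_right
  obtain ⟨u, v, huv, hg⟩ := good_interval x
    (fun i y => ∀ u ∈ (![β₁, β₂, β₃, β₄, β₅] : Fin 5 → Set ℂ) i, dist u y = 1) (by
      intro i y y' g1 g2
      fin_cases i
      · exact siam_unique p1 n1 g1 g2
      · exact siam_unique p2 n2 g1 g2
      · exact siam_unique p3 n3 g1 g2
      · exact siam_unique p4 n4 g1 g2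
      · exact siam_unique p5 n5 g1 g2)
  refine h.arc (x := x) (m := e) (fun f hf => ?_) huv fun s hs => ?_
  · rcases hall f with rfl | rfl | rfl | rfl | rfl
    · exact A1 x1
    · exact B1 x1
    · exact C3 x3
    · exact D3 x3
    · exact absurd rfl hf
  have fin : ∀ {Q : ℂ → Prop}, (∃ᶠ z in 𝓝 (x + ee s), Q z) →
      (∀ᶠ z in 𝓝 (x + ee s), Q z → z ∉ S a) → (∀ᶠ z in 𝓝 (x + ee s), Q z → z ∉ S b) →
      (∀ᶠ z in 𝓝 (x + ee s), Q z → z ∉ S c) → (∀ᶠ z in 𝓝 (x + ee s), Q z → z ∉ S d) →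
      (∀ᶠ z in 𝓝 (x + ee s), Q z → z ∉ S e) → False := by
    intro Q hq qa qb qc qd qe
    obtain ⟨z, q, qa, qb, qc, qd, qe⟩ :=
      (hq.and_eventually (qa.and (qb.and (qc.and (qd.and qe))))).exists
    obtain ⟨f, hf⟩ := h.cov z
    rcases hall f with rfl | rfl | rfl | rfl | rfl <;> tauto
  have b1 := chg (h.good b) B1 B2 p1 p2 x1 x2 (y := x + ee s)
  have b2 := chg (h.good b) B2 B1 p2 p1 x2 x1 (y := x + ee s)
  have c1 := chg (h.good c) C2 C3 p2 p3 x2 x3 (y := x + ee s)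
  have c2 := chg (h.good c) C3 C2 p3 p2 x3 x2 (y := x + ee s)
  have d1 := chg (h.good d) D3 D4 p3 p4 x3 x4 (y := x + ee s)
  have d2 := chg (h.good d) D4 D3 p4 p3 x4 x3 (y := x + ee s)
  have e1 := chg (h.good e) E4 E5 p4 p5 x4 x5 (y := x + ee s)
  have e2 := chg (h.good e) E5 E4 p5 p4 x5 x4 (y := x + ee s)
  have a1 := chg (h.good a) A5 A1 p5 p1 x5 x1 (y := x + ee s)
  have a2 := chg (h.good a) A1 A5 p1 p5 x1 x5 (y := x + ee s)
  left
  have two : ∀ {c c' : Fin 5}, c ≠ c' → x + ee s ∉ S c → x + ee s ∉ S c' →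
      ∃ c c', c ≠ c' ∧ x + ee s ∉ S c ∧ x + ee s ∉ S c' := fun g1 g2 g3 => ⟨_, _, g1, g2, g3⟩
  rcases side β₁ _ (hg s hs 0) with i1 | i1 <;> rcases side β₂ _ (hg s hs 1) with i2 | i2 <;>
    rcases side β₃ _ (hg s hs 2) with i3 | i3 <;> rcases side β₄ _ (hg s hs 3) with i4 | i4 <;>
    rcases side β₅ _ (hg s hs 4) with i5 | i5 <;>
  first
    | exact (fin (freq_out (dist_ee x s)) (in_free (h.good a) A1 p1 x1 i1)
        (in_free (h.good b) B2 p2 x2 i2) (in_free (h.good c) C3 p3 x3 i3)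
        (in_free (h.good d) D4 p4 x4 i4) (in_free (h.good e) E5 p5 x5 i5)).elim
    | exact (fin (freq_in (dist_ee x s)) (out_free (h.good a) A1 p1 x1 i1)
        (out_free (h.good b) B2 p2 x2 i2) (out_free (h.good c) C3 p3 x3 i3)
        (out_free (h.good d) D4 p4 x4 i4) (out_free (h.good e) E5 p5 x5 i5)).elim
    | (have na : x + ee s ∉ S a := by first | exact a1 i5 i1 | exact a2 i1 i5
       first
        | exact two ab na (by first | exact b1 i1 i2 | exact b2 i2 i1)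
        | exact two ac na (by first | exact c1 i2 i3 | exact c2 i3 i2)
        | exact two ad na (by first | exact d1 i3 i4 | exact d2 i4 i3)
        | exact two ae na (by first | exact e1 i4 i5 | exact e2 i5 i4))
    | (have na : x + ee s ∉ S b := by first | exact b1 i1 i2 | exact b2 i2 i1
       first
        | exact two bc na (by first | exact c1 i2 i3 | exact c2 i3 i2)
        | exact two bd na (by first | exact d1 i3 i4 | exact d2 i4 i3)
        | exact two be na (by first | exact e1 i4 i5 | exact e2 i5 i4))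
    | (have na : x + ee s ∉ S c := by first | exact c1 i2 i3 | exact c2 i3 i2
       first
        | exact two cd na (by first | exact d1 i3 i4 | exact d2 i4 i3)
        | exact two ce na (by first | exact e1 i4 i5 | exact e2 i5 i4))
    | exact two de (by first | exact d1 i3 i4 | exact d2 i4 i3)
        (by first | exact e1 i4 i5 | exact e2 i5 i4)

end Vale.Agent.P032
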