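import Vale.Agent.P032.Geom4

/-! Three-coloured points with a two-coloured circle; cones. -/

namespace Vale.Agent.P032

open Set Metric Complex Filter Topology

theorem Five.centre_aux {A B C D E : Set ℂ} (h : Five A B C D E) {ν : ℂ} (hA : ν ∈ A) (hB : ν ∈ B)
    {s₀ s₁ : ℝ} (h01 : s₀ ≤ s₁) (h0 : ν + ee s₀ ∈ C) (h1 : ν + ee s₁ ∉ C)
    (hev : ∀ s ∈ Icc s₀ s₁, ∀ᶠ z in 𝓝 (ν + ee s), z ∈ A ∨ z ∈ B ∨ z ∈ C) : False := by
  have hf : Continuous fun s => ν + ee s := by fun_prop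
  have hK : IsCompact (Icc s₀ s₁ ∩ {s | ν + ee s ∈ C}) :=
    isCompact_Icc.inter_right (h.c.closed.preimage hf)
  obtain ⟨m, ⟨hm1, hm2⟩, hm3⟩ := hK.exists_isGreatest ⟨s₀, ⟨le_rfl, h01⟩, h0⟩
  have hlt : m < s₁ := lt_of_le_of_ne hm1.2 (by rintro rfl; exact h1 hm2)
  have hsub : Icc m s₁ ⊆ {s | ν + ee s ∈ A ∩ B} := by
    rw [← closure_Ioc hlt.ne]
    refine closure_minimal (fun s hs => ?_) ((h.a.closed.inter h.b.closed).preimage hf)
    have hsI : s ∈ Icc s₀ s₁ := ⟨hm1.1.trans hs.1.le, hs.2⟩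
    have hC : ν + ee s ∉ C := fun g => absurd (hm3 ⟨hsI, g⟩) (not_le.mpr hs.1)
    refine (loc2 h.a h.b hA hB (s := s) ?_).self_of_nhds
    filter_upwards [hev s hsI, h.c.closed.isOpen_compl.mem_nhds hC] with z g1 g2
    simp only [mem_compl_iff] at g2
    tauto
  exact h.siamese hA hB (τ := (fun s => ν + ee s) '' Icc m s₁)
    (by rintro _ ⟨t, ht, rfl⟩; exact hsub ht) (by rintro _ ⟨t, -, rfl⟩; exact dist_ee _ _)
    (arc_pre _ _ _) (arc_nontrivial _ hlt) ⟨m, ⟨le_rfl, hlt.le⟩, rfl⟩ hm2 (hev m hm1)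

theorem Five.no_centre {A B C D E : Set ℂ} (h : Five A B C D E) {x ν : ℂ} (xA : x ∈ A) (xB : x ∈ B)
    (xC : x ∈ C) (hev : ∀ᶠ z in 𝓝 x, z ∈ A ∨ z ∈ B ∨ z ∈ C) (hd : dist ν x = 1) :
    ν ∉ A ∨ ν ∉ B ∨ ν ∉ C := by
  by_contra hh
  push Not at hh
  obtain ⟨nA, nB, nC⟩ := hh
  obtain ⟨s₀, rfl⟩ := exists_ee_of_dist (x := ν) (y := x) (by rw [dist_comm, hd])
  have hf : Continuous fun s => ν + ee s := by fun_prop
  obtain ⟨η, e0, -, e2⟩ := ev_Icc (hf.continuousAt.eventually hev.eventually_nhds) (c := 1) one_pos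
  obtain ⟨s₁, hs₁, hX⟩ := exists_not_td h.td3 ν (u := s₀) (v := s₀ + η) (by linarith)
  have e3 : ∀ s ∈ Icc s₀ s₁, ∀ᶠ z in 𝓝 (ν + ee s), z ∈ A ∨ z ∈ B ∨ z ∈ C :=
    fun s hs => e2 s ⟨by linarith [hs.1], hs.2.trans hs₁.2⟩
  by_cases c : ν + ee s₁ ∈ C
  · by_cases b : ν + ee s₁ ∈ B
    · have a : ν + ee s₁ ∉ A := fun a => hX ⟨⟨a, b⟩, c⟩
      exact Five.centre_aux ⟨h.b, h.c, h.a, h.d, h.e, fun z => by have := h.cov z; tauto⟩ nB nC
        hs₁.1 xA a fun s hs => (e3 s hs).mono fun z hz => by tauto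
    · exact Five.centre_aux ⟨h.a, h.c, h.b, h.d, h.e, fun z => by have := h.cov z; tauto⟩ nA nC
        hs₁.1 xB b fun s hs => (e3 s hs).mono fun z hz => by tauto
  · exact h.centre_aux nA nB hs₁.1 xC c e3

theorem Five.caseA {A B C D E : Set ℂ} (h : Five A B C D E) {x : ℂ} (xA : x ∈ A) (xB : x ∈ B)
    (xC : x ∈ C) (hev : ∀ᶠ z in 𝓝 x, z ∈ A ∨ z ∈ B ∨ z ∈ C)
    (hc : ∀ s, x + ee s ∈ D ∨ x + ee s ∈ E) :
    ∃ r, 0 < r ∧ (IsTotallyDisconnected (B ∩ C ∩ closedBall x r) ∨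
      IsTotallyDisconnected (A ∩ C ∩ closedBall x r) ∨
      IsTotallyDisconnected (A ∩ B ∩ closedBall x r)) := by
  obtain ⟨θ, -, -, hcr⟩ := h.exists_cr hc
  by_contra hh
  push Not at hh
  set ν : Fin 4 → ℂ := fun k => x + ee (θ + ((k : ℕ) : ℤ) * (Real.pi / 3)) with hν
  have hcr' : ∀ k, Cr (A ∪ B ∪ C) x (ν k) := fun k => hcr _
  obtain ⟨k, hk⟩ := pigeon
    (fun i y => (∃ k, y = ν k) ∧ y ∉ (![A, B, C] : Fin 3 → Set ℂ) i) (by
      rintro i y y' ⟨⟨k, rfl⟩, g1⟩ ⟨⟨k', rfl⟩, g2⟩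
      by_contra hne
      fin_cases i
      · obtain ⟨r, hr, t⟩ := excl_pair h.a h.b h.c hne g1 g2 (hcr' k) (hcr' k')
        exact (hh r hr).1 t
      · have sw : B ∪ A ∪ C = A ∪ B ∪ C := by rw [union_comm B A]
        obtain ⟨r, hr, t⟩ := excl_pair h.b h.a h.c hne g1 g2 (sw ▸ hcr' k) (sw ▸ hcr' k')
        exact (hh r hr).2.1 t
      · have sw : C ∪ A ∪ B = A ∪ B ∪ C := by rw [union_assoc, union_comm C]
        obtain ⟨r, hr, t⟩ := excl_pair h.c h.a h.b hne g1 g2 (sw ▸ hcr' k) (sw ▸ hcr' k')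
        exact (hh r hr).2.2 t) ν (nu_inj x θ)
  rcases h.no_centre xA xB xC hev (ν := ν k) (dist_ee _ _) with g | g | g
  · exact hk 0 ⟨⟨k, rfl⟩, g⟩
  · exact hk 1 ⟨⟨k, rfl⟩, g⟩
  · exact hk 2 ⟨⟨k, rfl⟩, g⟩

/-- skew coordinates adapted to a thin double cone -/
noncomputable def skew (c s ε : ℝ) (h : s ^ 2 + c ^ 2 = 1) (hε : ε ≠ 0) : ℂ ≃ₗ[ℝ] ℝ × ℝ where
  toFun z := (z.re * c + z.im * s + ε * (z.im * c - z.re * s),
    z.re * c + z.im * s - ε * (z.im * c - z.re * s))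
  invFun p := ⟨(p.1 + p.2) / 2 * c - (p.1 - p.2) / (2 * ε) * s,
    (p.1 + p.2) / 2 * s + (p.1 - p.2) / (2 * ε) * c⟩
  map_add' a b := by ext <;> simp <;> ring
  map_smul' a b := by ext <;> simp <;> ring
  left_inv z := by
    apply Complex.ext
    · simp only; field_simp; linear_combination (2 * ε * z.re) * h
    · simp only; field_simp; linear_combination (2 * ε * z.im) * h
  right_inv p := by
    ext
    · simp only; field_simp; linear_combination (2 * ε * p.1) * h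
    · simp only; field_simp; linear_combination (2 * ε * p.2) * h

theorem cone_ineq {ζ ξ w T : ℝ} (g : 0 < ξ) (c6 : ξ < T / 4) (c7 : |w| ≤ T / 2 * ξ)
    (c8 : ζ ^ 2 ≤ ξ ^ 2) :
    ζ ^ 2 + ξ ^ 2 - 2 * (w + ξ * T) + 1 < 1 ∧ 1 < ζ ^ 2 + ξ ^ 2 - 2 * (w - ξ * T) + 1 := by
  obtain ⟨a, b⟩ := abs_le.mp c7
  have := mul_lt_mul_of_pos_left c6 g
  have h2 := sq_nonneg ζ
  have h3 := mul_pos g g
  constructor <;> nlinarith

theorem cones {A B : Set ℂ} (hA : Good A) (hB : Good B) {x₀ : ℂ} {θ : ℝ}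
    (hev : ∀ᶠ z in 𝓝 (x₀ + ee θ), z ∈ A ∨ z ∈ B) :
    ∃ (e : ℂ ≃L[ℝ] ℝ × ℝ) (δ : ℝ), 0 < δ ∧ ∀ q ∈ ball x₀ δ, q ∈ A → q ∈ B → ∀ z ∈ ball x₀ δ, z ≠ q →
      ((e z).1 - (e q).1) * ((e z).2 - (e q).2) ≤ 0 → z ∉ A ∧ z ∉ B := by
  obtain ⟨ρ, hρ, hb⟩ := Metric.eventually_nhds_iff_ball.mp hev.eventually_nhds
  set h := min (ρ / 4) 1 with hh
  have h0 : 0 < h := by positivity
  have h1 : h ≤ 1 := min_le_right _ _
  have h2 : h ≤ ρ / 4 := min_le_left _ _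
  have sh : 0 < Real.sin h := Real.sin_pos_of_pos_of_lt_pi h0 (by linarith [Real.pi_gt_three])
  have sh1 := Real.sin_le_one h
  refine ⟨(skew (Real.cos θ) (Real.sin θ) (Real.sin h / 2) (Real.sin_sq_add_cos_sq θ)
    (by positivity)).toContinuousLinearEquiv, min (ρ / 2) (Real.sin h / 8), by positivity, ?_⟩
  intro q hq qA qB z hz hne hPQ
  have q1 : dist q x₀ < ρ / 2 := (mem_ball.mp hq).trans_le (min_le_left _ _)
  have q2 : dist q x₀ < Real.sin h / 8 := (mem_ball.mp hq).trans_le (min_le_right _ _)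
  have z2 : dist z x₀ < Real.sin h / 8 := (mem_ball.mp hz).trans_le (min_le_right _ _)
  set K := (fun s => q + ee s) '' Icc (θ - h) (θ + h) with hK
  have KAB : K ⊆ A ∩ B := by
    rintro _ ⟨s, hs, rfl⟩
    refine (loc2 hA hB qA qB (hb _ ?_)).self_of_nhds
    rw [mem_ball, dist_eq_norm, show q + ee s - (x₀ + ee θ) = (q - x₀) + (ee s - ee θ) by ring]
    refine (norm_add_le _ _).trans_lt ?_
    have := norm_ee_sub_le s θ
    have h3 : |s - θ| ≤ h := abs_le.mpr ⟨by linarith [hs.1], by linarith [hs.2]⟩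
    rw [← dist_eq_norm]
    linarith
  have m1 : q + ee (θ - h) ∈ K := ⟨_, ⟨le_rfl, by linarith⟩, rfl⟩
  have m2 : q + ee (θ + h) ∈ K := ⟨_, ⟨by linarith, le_rfl⟩, rfl⟩
  set ζ := (z.re - q.re) * Real.cos θ + (z.im - q.im) * Real.sin θ with hζ
  set ξ := (z.im - q.im) * Real.cos θ - (z.re - q.re) * Real.sin θ with hξ
  have hsc := Real.sin_sq_add_cos_sq θ
  have hsc' := Real.sin_sq_add_cos_sq h
  have c1 : ζ ^ 2 ≤ (Real.sin h / 2 * ξ) ^ 2 := by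
    simp only [LinearEquiv.coe_toContinuousLinearEquiv', skew, LinearEquiv.coe_mk,
      LinearMap.coe_mk, AddHom.coe_mk] at hPQ
    rw [hζ, hξ]; nlinarith
  have c2 : dist z q ^ 2 = ζ ^ 2 + ξ ^ 2 := by
    rw [dist_sq, hζ, hξ]
    linear_combination (-((z.re - q.re) ^ 2 + (z.im - q.im) ^ 2)) * hsc
  have c3 : dist z q < Real.sin h / 4 := by linarith [dist_triangle_right z q x₀]
  have c4 : 0 < dist z q := dist_pos.mpr hne
  have c5 : |ζ| ≤ Real.sin h / 2 * |ξ| := by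
    have := sq_le_sq.mp c1
    rwa [abs_mul, abs_of_pos (half_pos sh)] at this
  have c6 : |ξ| < Real.sin h / 4 := by
    have : ξ ^ 2 < (Real.sin h / 4) ^ 2 := by nlinarith
    have := sq_lt_sq.mp this
    rwa [abs_of_pos (a := Real.sin h / 4) (by positivity)] at this
  have c7 : |ζ * Real.cos h| ≤ Real.sin h / 2 * |ξ| := by
    rw [abs_mul]
    exact (mul_le_of_le_one_right (abs_nonneg _) (Real.abs_cos_le_one h)).trans c5
  have c8 : ζ ^ 2 ≤ ξ ^ 2 := by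
    refine c1.trans ?_
    rw [mul_pow]
    exact mul_le_of_le_one_left (sq_nonneg _) (by nlinarith)
  have d1 : dist z (q + ee (θ + h)) ^ 2 =
      ζ ^ 2 + ξ ^ 2 - 2 * (ζ * Real.cos h + ξ * Real.sin h) + 1 := by
    rw [← c2, dist_sq, dist_sq, hζ, hξ]
    simp only [add_re, add_im, ee_re, ee_im, Real.cos_add, Real.sin_add]
    linear_combination (Real.sin h ^ 2 + Real.cos h ^ 2) * hsc + hsc'
  have d2 : dist z (q + ee (θ - h)) ^ 2 =
      ζ ^ 2 + ξ ^ 2 - 2 * (ζ * Real.cos h - ξ * Real.sin h) + 1 := by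
    rw [← c2, dist_sq, dist_sq, hζ, hξ]
    simp only [add_re, add_im, ee_re, ee_im, Real.cos_sub, Real.sin_sub]
    linear_combination (Real.sin h ^ 2 + Real.cos h ^ 2) * hsc + hsc'
  rcases lt_trichotomy ξ 0 with g | g | g
  · rw [abs_of_neg g] at c6 c7
    have k := cone_ineq (ζ := ζ) (neg_pos.mpr g) c6 c7 (by rw [neg_sq]; exact c8)
    have e1 : dist z (q + ee (θ - h)) < 1 := lt_one_of_sq (by rw [d2]; linarith [k.1])
    have e2 : 1 < dist z (q + ee (θ + h)) := one_lt_of_sq dist_nonneg (by rw [d1]; linarith [k.2])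
    exact ⟨hA.b0 (KAB.trans inter_subset_left) (arc_pre _ _ _) m1 m2 e1 e2,
      hB.b0 (KAB.trans inter_subset_right) (arc_pre _ _ _) m1 m2 e1 e2⟩
  · exfalso
    rw [g] at c8 c2
    have := pow_pos c4 2
    linarith
  · rw [abs_of_pos g] at c6 c7
    have k := cone_ineq (ζ := ζ) g c6 c7 c8
    have e1 : dist z (q + ee (θ + h)) < 1 := lt_one_of_sq (by rw [d1]; linarith [k.1])
    have e2 : 1 < dist z (q + ee (θ - h)) := one_lt_of_sq dist_nonneg (by rw [d2]; linarith [k.2])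
    exact ⟨hA.b0 (KAB.trans inter_subset_left) (arc_pre _ _ _) m2 m1 e1 e2,
      hB.b0 (KAB.trans inter_subset_right) (arc_pre _ _ _) m2 m1 e1 e2⟩

end Vale.Agent.P032
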