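import Vale.Agent.P032.Omega3

/-! The global degree argument: five good sets do not cover the plane. -/

namespace Vale.Agent.P032

open Set Metric Complex Filter Topology

variable {S : Fin 5 → Set ℂ}

theorem Good.split {A : Set ℂ} (hA : Good A) : ∃ M₁ M₂ M₃ : Set ℂ, IsCompact M₁ ∧ IsCompact M₂ ∧
    IsCompact M₃ ∧ Disjoint M₁ M₂ ∧ Disjoint M₁ M₃ ∧ Disjoint M₂ M₃ ∧
    A ∩ closedBall 0 20 ⊆ M₁ ∪ M₂ ∪ M₃ ∧ (∀ z ∈ M₁, z.re < 1 ∧ z.im < 2) ∧
    (∀ z ∈ M₂, -1 < z.re ∧ z.im < 2) ∧ ∀ z ∈ M₃, 0 < z.im := by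
  obtain ⟨L, H, l1, h1, d1, u1, b1, a1⟩ := sep ((isCompact_closedBall (0 : ℂ) 20).inter_left hA.closed)
    (isClosed_le continuous_im continuous_const : IsClosed {z : ℂ | z.im ≤ 0})
    (isClosed_le continuous_const continuous_im : IsClosed {z : ℂ | 2 ≤ z.im}) (by
      rintro C hC - hp ⟨u, hu, hu'⟩ ⟨v, hv, hv'⟩
      have h1 := hA.diam (hC.trans inter_subset_left) hp hv hu
      have h2 := (abs_le.mp (abs_im_le_norm (v - u))).2
      rw [dist_eq_norm] at h1
      simp only [mem_ofPred_eq, sub_im] at hu' hv' h2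
      linarith)
  have LA : L ⊆ A := fun z hz => (u1 ▸ (Or.inl hz : z ∈ L ∪ H) : z ∈ A ∩ closedBall 0 20).1
  obtain ⟨L₁, L₂, l2, h2, d2, u2, b2, a2⟩ := sep l1
    (isClosed_le continuous_re continuous_const : IsClosed {z : ℂ | z.re ≤ -1})
    (isClosed_le continuous_const continuous_re : IsClosed {z : ℂ | 1 ≤ z.re}) (by
      rintro C hC - hp ⟨u, hu, hu'⟩ ⟨v, hv, hv'⟩
      have h1 := hA.diam (hC.trans LA) hp hv hu
      have h2 := (abs_le.mp (abs_re_le_norm (v - u))).2
      rw [dist_eq_norm] at h1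
      simp only [mem_ofPred_eq, sub_re] at hu' hv' h2
      linarith)
  have s1 : L₁ ⊆ L := u2 ▸ subset_union_left
  have s2 : L₂ ⊆ L := u2 ▸ subset_union_right
  refine ⟨L₁, L₂, H, l2, h2, h1, d2, d1.mono_left s1, d1.mono_left s2, by rw [u2, u1], ?_, ?_, ?_⟩
  · intro z hz
    exact ⟨not_le.mp (Set.disjoint_left.mp b2 hz), not_le.mp (Set.disjoint_left.mp b1 (s1 hz))⟩
  · intro z hz
    exact ⟨not_le.mp (Set.disjoint_left.mp a2 hz), not_le.mp (Set.disjoint_left.mp b1 (s2 hz))⟩
  · intro z hz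
    exact not_le.mp (Set.disjoint_left.mp a1 hz)

theorem ev_thick {A B : Set ℂ} (hA : IsCompact A) (hB : IsCompact B) (h : Disjoint A B) :
    ∀ᶠ δ in 𝓝[>] (0 : ℝ), Disjoint (thickening (2 * δ) A) (thickening (2 * δ) B) := by
  obtain ⟨δ, hδ, hd⟩ := h.exists_thickenings hA hB.isClosed
  filter_upwards [Ioo_mem_nhdsGT (half_pos hδ)] with e he
  exact hd.mono (thickening_mono (by linarith [he.2]) _) (thickening_mono (by linarith [he.2]) _)

theorem Col.false_of_nonempty (hc : Col S) (hne : ∀ c, (S c).Nonempty) : False := by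
  classical
  choose M₁ M₂ M₃ k1 k2 k3 d12 d13 d23 hM b1 b2 b3 using fun c => (hc.good c).split
  obtain ⟨ε, ⟨ε0, ε1⟩, hε⟩ := ((show ∀ᶠ δ in 𝓝[>] (0 : ℝ), δ ∈ Ioo (0 : ℝ) 1 from
    Ioo_mem_nhdsGT one_pos).and (eventually_all.mpr fun c =>
    (ev_thick (k1 c) (k2 c) (d12 c)).and ((ev_thick (k1 c) (k3 c) (d13 c)).and
      (ev_thick (k2 c) (k3 c) (d23 c))))).exists
  obtain ⟨w, h⟩ := hc.exists_wt hne ε0
  have th2 : ∀ {M : Set ℂ} {x z : ℂ}, z ∈ ball x ε → z ∈ thickening ε M →
      x ∈ thickening (2 * ε) M := by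
    intro M x z hz hz'
    obtain ⟨y, hy, hy'⟩ := mem_thickening_iff.mp hz'
    refine mem_thickening_iff.mpr ⟨y, hy, ?_⟩
    have := mem_ball.mp hz
    linarith [dist_triangle_left x y z]
  have act : ∀ c z, ‖z‖ < 12 → w c z ≠ 0 → z ∈ thickening ε (M₁ c) ∨ z ∈ thickening ε (M₂ c) ∨
      z ∈ thickening ε (M₃ c) := by
    intro c z hz hw
    obtain ⟨y, hy, hy'⟩ := (infDist_lt_iff (hne c)).mp
      (h.near c z (lt_of_le_of_ne (h.nonneg _ _) (Ne.symm hw)))
    have : y ∈ closedBall (0 : ℂ) 20 := by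
      have := dist_triangle_left y 0 z
      rw [dist_zero_right z] at this
      exact mem_closedBall.mpr (by linarith)
    rcases hM c ⟨hy, this⟩ with (g | g) | g
    · exact Or.inl (mem_thickening_iff.mpr ⟨y, g, hy'⟩)
    · exact Or.inr (Or.inl (mem_thickening_iff.mpr ⟨y, g, hy'⟩))
    · exact Or.inr (Or.inr (mem_thickening_iff.mpr ⟨y, g, hy'⟩))
  have nb : ∀ {x z : ℂ}, ‖x‖ < 10 → z ∈ ball x ε → ‖z‖ < 12 := by
    intro x z hx hz
    have := mem_ball.mp hz
    have h2 := dist_triangle z x 0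
    rw [dist_zero_right, dist_zero_right] at h2
    linarith
  have lab1 : ∀ c {x z : ℂ}, ‖x‖ < 10 → z ∈ ball x ε → w c z ≠ 0 → x ∈ thickening (2 * ε) (M₁ c) →
      z ∈ thickening ε (M₁ c) := by
    intro c x z hx hz hw hx'
    rcases act c z (nb hx hz) hw with g | g | g
    · exact g
    · exact absurd (th2 hz g) (Set.disjoint_left.mp (hε c).1 hx')
    · exact absurd (th2 hz g) (Set.disjoint_left.mp (hε c).2.1 hx')
  have lab2 : ∀ c {x z : ℂ}, ‖x‖ < 10 → z ∈ ball x ε → w c z ≠ 0 → x ∈ thickening (2 * ε) (M₂ c) →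
      z ∈ thickening ε (M₂ c) := by
    intro c x z hx hz hw hx'
    rcases act c z (nb hx hz) hw with g | g | g
    · exact absurd hx' (Set.disjoint_left.mp (hε c).1 (th2 hz g))
    · exact g
    · exact absurd (th2 hz g) (Set.disjoint_left.mp (hε c).2.2 hx')
  have ex12 : ∀ c z, z ∈ thickening ε (M₁ c) → z ∉ thickening ε (M₂ c) := fun c z g1 g2 =>
    Set.disjoint_left.mp (hε c).1 (th2 (mem_ball_self ε0) g1) (th2 (mem_ball_self ε0) g2)
  set f : Fin 5 × Fin 5 → ℂ → ℂ := fun p z =>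
    if p.1 ≠ p.2 ∧ z ∈ thickening ε (M₁ p.1) ∧ z ∈ thickening ε (M₂ p.2) then om w p.1 p.2 z else 1
    with hf
  have floc : ∀ p x, ‖x‖ < 10 → (p.1 ≠ p.2 ∧ ∀ z ∈ ball x ε, f p z = om w p.1 p.2 z) ∨
      ∀ z ∈ ball x ε, f p z = 1 := by
    intro p x hx
    by_cases g : p.1 ≠ p.2 ∧ x ∈ thickening (2 * ε) (M₁ p.1) ∧ x ∈ thickening (2 * ε) (M₂ p.2)
    · refine Or.inl ⟨g.1, fun z hz => ?_⟩
      simp only [hf]
      split_ifs with g'
      · rfl
      · symm
        apply om_one
        by_contra hh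
        push Not at hh
        exact g' ⟨g.1, lab1 _ hx hz hh.1 g.2.1, lab2 _ hx hz hh.2 g.2.2⟩
    · refine Or.inr fun z hz => ?_
      simp only [hf]
      exact if_neg fun g' => g ⟨g'.1, th2 hz g'.2.1, th2 hz g'.2.2⟩
  set F : ℂ → ℂ := fun z => ∏ p, f p z with hF
  have Flog : ∀ Z, IsCompact Z → Z ⊆ ball 0 9 \ X3 S → HasLog F Z := by
    intro Z hZ hZs
    refine patch (X' := X3 S ∪ (ball 0 10)ᶜ) (isCompact_closedBall 0 9) (convex_closedBall _ _)
      hc.X3_closed hc.X3_td (hc.X3_closed.union isOpen_ball.isClosed_compl) ?_ ?_ ?_ ?_ hZ ?_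
    · rintro z ⟨g | g, g'⟩
      · exact g
      · exact absurd (closedBall_subset_ball (by norm_num) g') g
    · refine continuousOn_finsetProd _ fun p _ x hx => ContinuousAt.continuousWithinAt ?_
      simp only [mem_compl_iff, mem_union, not_or, not_not, mem_ball_zero_iff] at hx
      rcases floc p x hx.2 with ⟨g1, g2⟩ | g
      · refine ContinuousAt.congr ((om_contOn hc h g1).continuousAt (((hc.X3_closed.inter
          (hc.good _).closed).inter (hc.good _).closed).isOpen_compl.mem_nhds fun g => hx.1 g.1.1)) ?_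
        filter_upwards [ball_mem_nhds x ε0] with z hz using (g2 z hz).symm
      · refine (continuousAt_const (y := (1 : ℂ))).congr ?_
        filter_upwards [ball_mem_nhds x ε0] with z hz using (g z hz).symm
    · intro z _
      refine Finset.prod_ne_zero_iff.mpr fun p _ => ?_
      simp only [hf]
      split_ifs
      · exact om_ne_zero _ _ _
      · exact one_ne_zero
    · rintro x ⟨g | g, g'⟩
      swap
      · exact absurd (closedBall_subset_ball (by norm_num) g') g
      refine rem_prod _ fun p _ => ?_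
      rcases floc p x ((mem_closedBall_zero_iff.mp g').trans_lt (by norm_num)) with ⟨g1, g2⟩ | g2
      · refine Rem.congr (rm_of_not_ess g1 g (ess_empty hc h x)) ?_
        filter_upwards [ball_mem_nhds x ε0] with z hz _ using (g2 z hz).symm
      · refine (rem_one _ _).congr ?_
        filter_upwards [ball_mem_nhds x ε0] with z hz _ using (g2 z hz).symm
    · intro z hz
      refine ⟨ball_subset_closedBall (hZs hz).1, ?_⟩
      rintro (g | g)
      · exact (hZs hz).2 g
      · exact g (ball_subset_ball (by norm_num) (hZs hz).1)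
  have near_re : ∀ {y z : ℂ}, dist z y < ε → |z.re - y.re| < 1 ∧ |z.im - y.im| < 1 := by
    intro y z hd
    rw [dist_eq_norm] at hd
    have h1 := abs_re_le_norm (z - y)
    have h2 := abs_im_le_norm (z - y)
    simp only [sub_re, sub_im] at h1 h2
    constructor <;> linarith
  have t1 : ∀ c z, z ∈ thickening ε (M₁ c) → z.re < 2 ∧ z.im < 3 := by
    intro c z hz
    obtain ⟨y, hy, hy'⟩ := mem_thickening_iff.mp hz
    obtain ⟨a1, a2⟩ := near_re hy'
    have := b1 c y hy
    constructor <;> linarith [(abs_lt.mp a1).2, (abs_lt.mp a2).2]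
  have t2 : ∀ c z, z ∈ thickening ε (M₂ c) → -2 < z.re := by
    intro c z hz
    obtain ⟨y, hy, hy'⟩ := mem_thickening_iff.mp hz
    obtain ⟨a1, a2⟩ := near_re hy'
    have := b2 c y hy
    linarith [(abs_lt.mp a1).1]
  have t3 : ∀ c z, z ∈ thickening ε (M₃ c) → -1 < z.im := by
    intro c z hz
    obtain ⟨y, hy, hy'⟩ := mem_thickening_iff.mp hz
    obtain ⟨a1, a2⟩ := near_re hy'
    have := b3 c y hy
    linarith [(abs_lt.mp a2).1]
  have F1 : ∀ z, z.re < -2 ∨ 3 < z.im ∨ 2 < z.re → F z = 1 := by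
    intro z hz
    refine Finset.prod_eq_one fun p _ => if_neg fun g => ?_
    have a1 := t1 _ _ g.2.1
    have a2 := t2 _ _ g.2.2
    rcases hz with hz | hz | hz <;> linarith [a1.1, a1.2]
  set pp : Fin 5 → ℂ → ℝ := fun u z => if z ∈ thickening ε (M₁ u) then w u z else 0 with hpp
  set G : ℂ → ℂ := fun z => 2 * Real.pi * I * (((∑ u, pp u z) / ∑ c, w c z : ℝ) : ℂ) with hG
  have spos : ∀ z, z ∉ X3 S → 0 < ∑ c, w c z := by
    intro z hz
    obtain ⟨c, hzc⟩ := hc.cov z
    exact (h.pos c z hz hzc).trans_le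
      (Finset.single_le_sum (f := fun c => w c z) (fun c _ => h.nonneg c z) (Finset.mem_univ c))
  have Gc : ContinuousOn G (ball 0 9 \ X3 S) := by
    refine continuousOn_const.mul (continuous_ofReal.comp_continuousOn ?_)
    refine ContinuousOn.div (continuousOn_finsetSum _ fun u _ x hx =>
      ContinuousAt.continuousWithinAt ?_)
      (continuous_finsetSum _ fun c _ => h.cont c).continuousOn fun z hz => (spos z hz.2).ne'
    have hx' : ‖x‖ < 10 := (mem_ball_zero_iff.mp hx.1).trans (by norm_num)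
    by_cases g : x ∈ thickening (2 * ε) (M₁ u)
    · refine (h.cont u).continuousAt.congr ?_
      filter_upwards [ball_mem_nhds x ε0] with z hz
      simp only [hpp]
      split_ifs with g'
      · rfl
      · by_contra hh
        exact g' (lab1 u hx' hz hh g)
    · refine (continuousAt_const (y := (0 : ℝ))).congr ?_
      filter_upwards [ball_mem_nhds x ε0] with z hz
      exact (if_neg fun g' => g (th2 hz g')).symm
  have G1 : ∀ z, z ∉ X3 S → (∀ u, w u z ≠ 0 → z ∈ thickening ε (M₁ u)) → G z = 2 * Real.pi * I := by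
    intro z hz hu
    have : ∑ u, pp u z = ∑ c, w c z := Finset.sum_congr rfl fun u _ => by
      simp only [hpp]
      split_ifs with g'
      · rfl
      · by_contra hh
        exact g' (hu u (Ne.symm hh))
    simp only [hG]
    rw [this, div_self (spos z hz).ne']
    simp
  have G0 : ∀ z, (∀ u, w u z ≠ 0 → z ∉ thickening ε (M₁ u)) → G z = 0 := by
    intro z hu
    have : ∑ u, pp u z = 0 := Finset.sum_eq_zero fun u _ => by
      simp only [hpp]
      split_ifs with g'
      · by_contra hh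
        exact hu u hh g'
      · rfl
    simp only [hG]
    rw [this]
    simp
  have bot : ∀ c z, ‖z‖ < 9 → z.im < -1 → w c z ≠ 0 → z ∈ thickening ε (M₁ c) ∨
      z ∈ thickening ε (M₂ c) := by
    intro c z hz hi hw
    rcases act c z (by linarith) hw with g | g | g
    · exact Or.inl g
    · exact Or.inr g
    · linarith [t3 c z g]
  have FG : ∀ z, ‖z‖ < 9 → z.im < -1 → z ∉ X3 S → F z = exp (G z) := by
    intro z hz hi hX
    by_cases hy : ∃ u v, u ≠ v ∧ w u z ≠ 0 ∧ w v z ≠ 0 ∧ z ∈ thickening ε (M₁ u) ∧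
      z ∈ thickening ε (M₂ v)
    · obtain ⟨u, v, uv, wu, wv, zu, zv⟩ := hy
      have e1 : F z = om w u v z := by
        simp only [hF]
        rw [Finset.prod_eq_single_of_mem (u, v) (Finset.mem_univ _)]
        · exact if_pos ⟨uv, zu, zv⟩
        · rintro ⟨u', v'⟩ _ hne
          simp only [hf]
          split_ifs with g
          · apply om_one
            by_contra hh
            push Not at hh
            apply hne
            have a1 : u' = u := by
              by_contra a1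
              exact hh.1 (h.others uv wu wv a1 (by rintro rfl; exact ex12 _ _ g.2.1 zv))
            have a2 : v' = v := by
              by_contra a2
              exact hh.2 (h.others uv wu wv (by rintro rfl; exact ex12 _ _ zu g.2.2) a2)
            rw [a1, a2]
          · rfl
      have e2 : ∑ c, pp c z = w u z := by
        rw [Finset.sum_eq_single_of_mem u (Finset.mem_univ _)]
        · exact if_pos zu
        · intro c _ cu
          simp only [hpp]
          split_ifs with g
          · exact h.others uv wu wv cu (by rintro rfl; exact ex12 _ _ g zv)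
          · rfl
      simp only [hG]
      rw [e1, e2, h.sum_eq uv fun c h1 h2 => h.others uv wu wv h1 h2]
      rfl
    · have e1 : F z = 1 := by
        refine Finset.prod_eq_one fun p _ => ?_
        simp only [hf]
        split_ifs with g
        · apply om_one
          by_contra hh
          push Not at hh
          exact hy ⟨_, _, g.1, hh.1, hh.2, g.2.1, g.2.2⟩
        · rfl
      rw [e1]
      by_cases hu : ∃ u, w u z ≠ 0 ∧ z ∈ thickening ε (M₁ u)
      · obtain ⟨u, wu, zu⟩ := hu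
        rw [G1 z hX fun v wv => (bot v z hz hi wv).resolve_right fun zv =>
          hy ⟨u, v, by rintro rfl; exact ex12 _ _ zu zv, wu, wv, zu, zv⟩]
        simp
      · rw [G0 z fun u wu zu => hu ⟨u, wu, zu⟩]
        simp
  have ob : IsOpen (ball (0 : ℂ) 9) := isOpen_ball
  have cb : Convex ℝ (ball (0 : ℂ) 9) := convex_ball _ _
  have oB : IsOpen (ball (0 : ℂ) 9 ∩ {z | z.im < -1}) :=
    ob.inter (isOpen_lt continuous_im continuous_const)
  have oL : IsOpen (ball (0 : ℂ) 9 ∩ {z | z.re < -2}) :=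
    ob.inter (isOpen_lt continuous_re continuous_const)
  have oT : IsOpen (ball (0 : ℂ) 9 ∩ {z | 3 < z.im}) :=
    ob.inter (isOpen_lt continuous_const continuous_im)
  have oR : IsOpen (ball (0 : ℂ) 9 ∩ {z | 2 < z.re}) :=
    ob.inter (isOpen_lt continuous_const continuous_re)
  have inb : ∀ x y : ℝ, |x| ≤ 4 → |y| ≤ 4 → (⟨x, y⟩ : ℂ) ∈ ball (0 : ℂ) 9 := by
    intro x y hx hy
    have := norm_le_abs_re_add_abs_im (⟨x, y⟩ : ℂ)
    simp only at this
    exact mem_ball_zero_iff.mpr (by linarith)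
  obtain ⟨a, ⟨a1, a2⟩, a3⟩ := td_exists_notMem hc.X3_td (oB.inter oL)
    ⟨⟨-3, -2⟩, ⟨inb _ _ (by norm_num) (by norm_num), by norm_num⟩,
      inb _ _ (by norm_num) (by norm_num), by norm_num⟩
  obtain ⟨b, ⟨b1, b2⟩, b3⟩ := td_exists_notMem hc.X3_td (oB.inter oR)
    ⟨⟨3, -2⟩, ⟨inb _ _ (by norm_num) (by norm_num), by norm_num⟩,
      inb _ _ (by norm_num) (by norm_num), by norm_num⟩
  obtain ⟨c, ⟨c1, c2⟩, c3⟩ := td_exists_notMem hc.X3_td (oL.inter oT)
    ⟨⟨-3, 4⟩, ⟨inb _ _ (by norm_num) (by norm_num), by norm_num⟩,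
      inb _ _ (by norm_num) (by norm_num), by norm_num⟩
  obtain ⟨d, ⟨d1, d2⟩, d3⟩ := td_exists_notMem hc.X3_td (oT.inter oR)
    ⟨⟨3, 4⟩, ⟨inb _ _ (by norm_num) (by norm_num), by norm_num⟩,
      inb _ _ (by norm_num) (by norm_num), by norm_num⟩
  obtain ⟨κ₁, p1, q1, r1, u1, v1⟩ := joined oB (cb.inter (convex_halfSpace_im_lt _)) hc.X3_closed
    hc.X3_td a1 b1 a3 b3
  obtain ⟨κ₂, p2, q2, r2, u2, v2⟩ := joined oL (cb.inter (convex_halfSpace_re_lt _)) hc.X3_closed
    hc.X3_td a2 c1 a3 c3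
  obtain ⟨κ₃, p3, q3, r3, u3, v3⟩ := joined oT (cb.inter (convex_halfSpace_im_gt _)) hc.X3_closed
    hc.X3_td c2 d1 c3 d3
  obtain ⟨κ₄, p4, q4, r4, u4, v4⟩ := joined oR (cb.inter (convex_halfSpace_re_gt _)) hc.X3_closed
    hc.X3_td d2 b2 d3 b3
  obtain ⟨φ, φc, hφ⟩ := Flog (κ₁ ∪ ((κ₂ ∪ κ₃) ∪ κ₄)) (q1.union ((q2.union q3).union q4)) (by
    rintro z (hz | (hz | hz) | hz)
    · exact ⟨(p1 hz).1.1, (p1 hz).2⟩
    · exact ⟨(p2 hz).1.1, (p2 hz).2⟩
    · exact ⟨(p3 hz).1.1, (p3 hz).2⟩
    · exact ⟨(p4 hz).1.1, (p4 hz).2⟩)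
  have e1 : φ a = φ b := const_of_exp ((r2.union c v2 u3 r3).union d (Or.inr v3) u4 r4)
    (φc.mono subset_union_right) (c := 1) (by
      intro z hz
      rw [hφ z (Or.inr hz)]
      rcases hz with (hz | hz) | hz
      · exact F1 z (Or.inl (p2 hz).1.2)
      · exact F1 z (Or.inr (Or.inl (p3 hz).1.2))
      · exact F1 z (Or.inr (Or.inr (p4 hz).1.2))) (Or.inl (Or.inl u2)) (Or.inr v4)
  have e2 := const_of_exp_eq r1 (φc.mono subset_union_left)
    (Gc.mono fun z hz => ⟨(p1 hz).1.1, (p1 hz).2⟩) (fun z hz => by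
      rw [hφ z (Or.inl hz), FG z (mem_ball_zero_iff.mp (p1 hz).1.1) (p1 hz).1.2 (p1 hz).2]) u1 v1
  rw [G1 a a3 fun u wu => (bot u a (mem_ball_zero_iff.mp a1.1) a1.2 wu).resolve_right fun g => by
      have := t2 u a g; have := a2.2; simp only [mem_ofPred_eq] at this; linarith,
    G0 b fun u _ g => by
      have := (t1 u b g).1; have := b2.2; simp only [mem_ofPred_eq] at this; linarith, e1] at e2
  exact two_pi_I_ne_zero (by linear_combination -e2)

theorem good_small : Good (closedBall (0 : ℂ) (1 / 4)) := by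
  refine ⟨isClosed_closedBall, ?_, ?_⟩
  · rw [interior_closedBall _ (by norm_num), closure_ball _ (by norm_num)]
  · intro x hx y hy
    have h1 := mem_closedBall.mp (interior_subset hx)
    have h2 := mem_closedBall.mp hy
    linarith [dist_triangle_right x y 0]

/-- five open sets without unit distances do not have dense union -/
theorem no_open_five (O : Fin 5 → Set ℂ) (h1 : ∀ i, IsOpen (O i)) (h2 : Dense (⋃ i, O i))
    (h3 : ∀ i, ∀ x ∈ O i, ∀ y ∈ O i, dist x y ≠ 1) : False := by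
  classical
  have good : ∀ i, Good (closure (O i)) := by
    intro i
    refine ⟨isClosed_closure, closure_mono (interior_maximal subset_closure (h1 i)), ?_⟩
    intro x hx y hy hd
    obtain ⟨r, hr, hb⟩ := Metric.isOpen_iff.mp isOpen_interior x hx
    obtain ⟨y', hy', hyy⟩ := Metric.mem_closure_iff.mp hy r hr
    have a1 : x + (y' - y) ∈ closure (O i) := interior_subset (hb (by
      rw [mem_ball, dist_eq_norm, add_sub_cancel_left, ← dist_eq_norm, dist_comm]; exact hyy))
    have a2 : dist (x + (y' - y)) y' = 1 := by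
      rw [dist_eq_norm] at hd ⊢; rw [← hd]; congr 1; ring
    have a3 : x + (y' - y) ∈ interior (closure (O i)) := hb (by
      rw [mem_ball, dist_eq_norm, add_sub_cancel_left, ← dist_eq_norm, dist_comm]; exact hyy)
    have hcont : Continuous fun v : ℂ => y' + v := by fun_prop
    have hcont' : Continuous fun v : ℂ => x + (y' - y) + v := by fun_prop
    obtain ⟨s, hs, hs'⟩ := Metric.isOpen_iff.mp (h1 i) y' hy'
    obtain ⟨x', hx', hxx⟩ := Metric.mem_closure_iff.mp a1 s hs
    refine h3 i x' hx' (y' + (x' - (x + (y' - y)))) (hs' ?_) ?_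
    · rw [mem_ball, dist_eq_norm, add_sub_cancel_left, ← dist_eq_norm, dist_comm]; exact hxx
    · rw [dist_eq_norm] at hd ⊢; rw [← hd]; congr 1; ring
  refine Col.false_of_nonempty
    (S := fun i => if (O i).Nonempty then closure (O i) else closedBall 0 (1 / 4)) ⟨?_, ?_⟩ ?_
  · intro i
    split_ifs
    · exact good i
    · exact good_small
  · intro z
    have := h2 z
    rw [closure_iUnion_of_finite] at this
    obtain ⟨i, hi⟩ := mem_iUnion.mp this
    exact ⟨i, by rw [if_pos (closure_nonempty_iff.mp ⟨z, hi⟩)]; exact hi⟩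
  · intro i
    split_ifs with g
    · exact g.closure
    · exact ⟨0, mem_closedBall_self (by norm_num)⟩

end Vale.Agent.P032
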