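import Vale.Agent.P032.Defs

namespace Vale.Agent.P032

/-- bounded real functions -/
def bddFns (G : Type*) : Submodule ℝ (G → ℝ) where
  carrier := {f | ∃ C, ∀ x, |f x| ≤ C}
  zero_mem' := ⟨0, by simp⟩
  add_mem' := by
    rintro f g ⟨C, hC⟩ ⟨D, hD⟩
    exact ⟨C + D, fun x => (abs_add_le _ _).trans (add_le_add (hC x) (hD x))⟩
  smul_mem' := by
    rintro c f ⟨C, hC⟩
    exact ⟨|c| * C, fun x => by
      rw [Pi.smul_apply, smul_eq_mul, abs_mul]
      exact mul_le_mul_of_nonneg_left (hC x) (abs_nonneg c)⟩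

section
variable {G : Type*} [CommGroup G]

/-- upper bounds of finite averages of translates -/
def upSet (f : G → ℝ) : Set ℝ :=
  {t | ∃ (ι : Type) (_ : Fintype ι) (_ : Nonempty ι) (a : ι → G),
    ∀ x, ∑ i, f (a i * x) ≤ Fintype.card ι * t}

lemma mem_upSet_of_le {f : G → ℝ} {t : ℝ} (h : ∀ x, f x ≤ t) : t ∈ upSet f :=
  ⟨Unit, inferInstance, inferInstance, fun _ => 1, fun x => by simpa using h x⟩

lemma upSet_bdd (f : bddFns G) : BddBelow (upSet f.1) := by
  obtain ⟨C, hC⟩ := f.2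
  refine ⟨-C, ?_⟩
  rintro t ⟨ι, _, _, a, ha⟩
  have h1 : ∑ _i : ι, -C ≤ ∑ i, f.1 (a i * 1) :=
    Finset.sum_le_sum fun i _ => (abs_le.1 (hC _)).1
  have h2 : (0 : ℝ) < Fintype.card ι := by exact_mod_cast Fintype.card_pos
  simp only [Finset.sum_const, Finset.card_univ, nsmul_eq_mul] at h1
  exact le_of_mul_le_mul_left (h1.trans (ha 1)) h2

lemma upSet_nonempty (f : bddFns G) : (upSet f.1).Nonempty := by
  obtain ⟨C, hC⟩ := f.2
  exact ⟨C, mem_upSet_of_le fun x => (abs_le.1 (hC x)).2⟩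

lemma upInf_smul_le (c : ℝ) (hc : 0 < c) (f : bddFns G) :
    sInf (upSet (c • f).1) ≤ c * sInf (upSet f.1) := by
  rw [← div_le_iff₀' hc]
  refine le_csInf (upSet_nonempty f) ?_
  rintro t ⟨ι, _, _, a, ha⟩
  rw [div_le_iff₀' hc]
  refine csInf_le (upSet_bdd _) ⟨ι, inferInstance, inferInstance, a, fun x => ?_⟩
  simp only [Submodule.coe_smul, Pi.smul_apply, smul_eq_mul, ← Finset.mul_sum]
  nlinarith [mul_le_mul_of_nonneg_left (ha x) hc.le]

lemma upInf_add_le (f g : bddFns G) :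
    sInf (upSet (f + g).1) ≤ sInf (upSet f.1) + sInf (upSet g.1) := by
  rw [← sub_le_iff_le_add]
  refine le_csInf (upSet_nonempty f) ?_
  rintro s ⟨ι, _, _, a, ha⟩
  rw [sub_le_comm]
  refine le_csInf (upSet_nonempty g) ?_
  rintro t ⟨κ, _, _, b, hb⟩
  rw [sub_le_iff_le_add']
  refine csInf_le (upSet_bdd _) ⟨ι × κ, inferInstance, inferInstance, fun p => a p.1 * b p.2,
    fun x => ?_⟩
  simp only [Submodule.coe_add, Pi.add_apply, Finset.sum_add_distrib, Fintype.card_prod]
  have h1 : ∑ p : ι × κ, f.1 (a p.1 * b p.2 * x) ≤ ∑ _j : κ, Fintype.card ι * s := by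
    rw [Fintype.sum_prod_type_right]
    exact Finset.sum_le_sum fun j _ => by simpa [mul_assoc] using ha (b j * x)
  have h2 : ∑ p : ι × κ, g.1 (a p.1 * b p.2 * x) ≤ ∑ _i : ι, Fintype.card κ * t := by
    rw [Fintype.sum_prod_type]
    exact Finset.sum_le_sum fun i _ => by
      simpa [mul_assoc, mul_left_comm (a i)] using hb (a i * x)
  simp only [Finset.sum_const, Finset.card_univ, nsmul_eq_mul] at h1 h2
  push_cast
  linarith

lemma upInf_cobound (h : bddFns G) (f : G → ℝ) (C : ℝ) (hC : ∀ x, |f x| ≤ C) (g : G)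
    (hh : ∀ x, h.1 x = f (g * x) - f x) : sInf (upSet h.1) ≤ 0 := by
  refine le_of_forall_pos_le_add fun ε hε => ?_
  obtain ⟨N, hN⟩ := exists_nat_gt (2 * C / ε)
  refine csInf_le (upSet_bdd _) ⟨Fin (N + 1), inferInstance, inferInstance, fun k => g ^ (k : ℕ),
    fun x => ?_⟩
  simp only [hh]
  rw [Fin.sum_univ_eq_sum_range (fun k => f (g * (g ^ k * x)) - f (g ^ k * x))]
  have := Finset.sum_range_sub (fun k => f (g ^ k * x)) (N + 1)
  simp only [pow_succ' g, mul_assoc] at this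
  rw [this]
  rw [div_lt_iff₀ hε] at hN
  have h1 := (abs_le.1 (hC (g * (g ^ N * x)))).2
  have h2 := (abs_le.1 (hC (g ^ 0 * x))).1
  simp only [Fintype.card_fin]
  push_cast
  nlinarith

end

/-- every commutative (discrete) group has an invariant mean -/
theorem exists_mean (G : Type*) [CommGroup G] :
    ∃ M : (G → ℝ) →ₗ[ℝ] ℝ, IsMean M ∧ Invariant M := by
  obtain ⟨m, -, hm⟩ := exists_extension_of_le_sublinear (E := bddFns G) ⟨⊥, 0⟩
    (fun f => sInf (upSet f.1)) (fun c hc f => by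
      refine le_antisymm (upInf_smul_le c hc f) ?_
      have := upInf_smul_le c⁻¹ (inv_pos.2 hc) (c • f)
      rw [smul_smul, inv_mul_cancel₀ hc.ne', one_smul] at this
      rw [← le_div_iff₀' hc, div_eq_inv_mul]; exact this) upInf_add_le (by
      rintro ⟨x, hx⟩
      obtain rfl : x = 0 := by simpa using hx
      refine le_csInf (upSet_nonempty 0) ?_
      rintro t ⟨ι, _, _, a, ha⟩
      have h2 : (0 : ℝ) < Fintype.card ι := by exact_mod_cast Fintype.card_pos
      have h3 : 0 ≤ (Fintype.card ι : ℝ) * t := by simpa using ha 1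
      simpa using (mul_nonneg_iff_of_pos_left h2).1 h3)
  obtain ⟨M, hM⟩ := LinearMap.exists_extend m
  have hM' : ∀ f : bddFns G, M f.1 = m f := fun f => by rw [← hM]; rfl
  have hle : ∀ (f : bddFns G) (t : ℝ), (∀ x, f.1 x ≤ t) → m f ≤ t := fun f t h =>
    (hm f).trans (csInf_le (upSet_bdd f) (mem_upSet_of_le h))
  refine ⟨M, ⟨?_, fun f C hC h0 => ?_⟩, fun f C hC g => ?_⟩
  · let o : bddFns G := ⟨fun _ => 1, 1, by simp⟩
    have h1 := hle o 1 fun _ => le_rfl
    have h2 := hle (-o) (-1) fun _ => le_rfl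
    rw [map_neg] at h2
    have := hM' o
    exact this.trans (by linarith)
  · have h2 := hle (-⟨f, C, hC⟩) 0 fun x => by simpa using h0 x
    rw [map_neg, ← hM'] at h2
    linarith
  · let a : bddFns G := ⟨fun x => f (g * x), C, fun x => hC _⟩
    let b : bddFns G := ⟨f, C, hC⟩
    have h1 := (hm (a - b)).trans (upInf_cobound _ f C hC g fun _ => rfl)
    have h2 := (hm (b - a)).trans (upInf_cobound _ (fun x => -f x) C (fun x => by simpa using hC x)
      g fun x => by simp [a, b]; ring)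
    rw [map_sub, ← hM', ← hM'] at h1 h2
    linarith

end Vale.Agent.P032
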