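import Vale.Agent.P032.Mean

/-! An invariant probability measure on proper colourings. -/

namespace Vale.Agent.P032

open MeasureTheory CompactlySupported

lemma meas_mean_abs_le {G : Type*} {M : (G → ℝ) →ₗ[ℝ] ℝ} (hM : IsMean M) {f : G → ℝ} {C : ℝ}
    (hf : ∀ x, |f x| ≤ C) : |M f| ≤ C := by
  have hc : M (fun _ => C) = C := by
    have : (fun _ : G => C) = C • (fun _ : G => (1 : ℝ)) := by ext; simp
    rw [this, map_smul, hM.one]; simp
  have h1 := hM.nonneg ((fun _ => C) - f) (C + C) (fun x => by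
    have := abs_le.1 (hf x); rw [abs_le]; simp only [Pi.sub_apply]; constructor <;> linarith)
    (fun x => by have := abs_le.1 (hf x); simp only [Pi.sub_apply]; linarith)
  have h2 := hM.nonneg ((fun _ => C) + f) (C + C) (fun x => by
    have := abs_le.1 (hf x); rw [abs_le]; simp only [Pi.add_apply]; constructor <;> linarith)
    (fun x => by have := abs_le.1 (hf x); simp only [Pi.add_apply]; linarith)
  rw [map_sub, hc] at h1
  rw [map_add, hc] at h2
  rw [abs_le]; constructor <;> linarith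

lemma meas_cont_bdd {X : Type*} [TopologicalSpace X] [CompactSpace X] {f : X → ℝ} (hf : Continuous f) :
    ∃ C, ∀ x, |f x| ≤ C := by
  obtain ⟨C, hC⟩ := isCompact_univ.exists_bound_of_continuousOn hf.continuousOn
  exact ⟨C, fun x => hC x trivial⟩

/-- Riesz-Markov for a mean on a compact space -/
lemma exists_measure_of_mean {X : Type*} [TopologicalSpace X] [T2Space X] [CompactSpace X]
    [MeasurableSpace X] [BorelSpace X] {L : (X → ℝ) →ₗ[ℝ] ℝ} (hL : IsMean L) :
    ∃ μ : Measure X, IsProbabilityMeasure μ ∧ (∀ f : X → ℝ, Continuous f → ∫ x, f x ∂μ = L f) ∧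
      ∀ e : X ≃ₜ X, (∀ f : X → ℝ, Continuous f → L (fun x => f (e x)) = L f) →
        MeasurePreserving e μ μ := by
  let L0 : C_c(X, ℝ) →ₗ[ℝ] ℝ :=
    { toFun := fun f => L f
      map_add' := fun f g => by rw [← map_add]; rfl
      map_smul' := fun c f => by rw [RingHom.id_apply, ← map_smul]; rfl }
  let Λ : C_c(X, ℝ) →ₚ[ℝ] ℝ := PositiveLinearMap.mk₀ L0 fun f hf => by
    obtain ⟨C, hC⟩ := meas_cont_bdd f.continuous
    exact hL.nonneg f C hC fun x => CompactlySupportedContinuousMap.le_def.1 hf x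
  have hint : ∀ f : X → ℝ, Continuous f → ∫ x, f x ∂(RealRMK.rieszMeasure Λ) = L f := fun f hf =>
    RealRMK.integral_rieszMeasure Λ ⟨⟨f, hf⟩, HasCompactSupport.of_compactSpace f⟩
  refine ⟨RealRMK.rieszMeasure Λ, ?_, hint, fun e he => ⟨e.continuous.measurable, ?_⟩⟩
  · have h1 := hint (fun _ => 1) continuous_const
    rw [hL.one, integral_const, smul_eq_mul, mul_one] at h1
    exact ⟨(ENNReal.toReal_eq_one_iff _).1 h1⟩
  · have := Measure.Regular.map (μ := RealRMK.rieszMeasure Λ) e
    refine Measure.ext_of_integral_eq_on_compactlySupported fun f => ?_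
    have hf : Continuous (f : X → ℝ) := f.continuous
    rw [integral_map e.continuous.measurable.aemeasurable hf.aestronglyMeasurable,
      hint _ hf]
    exact (hint _ (hf.comp e.continuous)).trans (he f hf)

/-- the space of all colourings -/
def Om (k : ℕ) : Type := ℂ → Fin k

instance (k : ℕ) : TopologicalSpace (Om k) := inferInstanceAs (TopologicalSpace (ℂ → Fin k))
instance (k : ℕ) : CompactSpace (Om k) := inferInstanceAs (CompactSpace (ℂ → Fin k))
instance (k : ℕ) : T2Space (Om k) := inferInstanceAs (T2Space (ℂ → Fin k))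
instance (k : ℕ) : MeasurableSpace (Om k) := borel _
instance (k : ℕ) : BorelSpace (Om k) := ⟨rfl⟩

/-- action of the rigid motions -/
def Om.T {k : ℕ} (v w : ℂ) (ω : Om k) : Om k := fun z => ω (v + w * z)

lemma Om.T_T {k : ℕ} (v w v' w' : ℂ) (ω : Om k) :
    Om.T v w (Om.T v' w' ω) = Om.T (v' + w' * v) (w' * w) ω := by
  funext z; simp only [Om.T]; congr 1; ring

lemma Om.T_id {k : ℕ} (ω : Om k) : Om.T 0 1 ω = ω := by
  funext z; simp [Om.T]

lemma Om.continuous_ev {k : ℕ} (z : ℂ) : Continuous fun ω : Om k => ω z :=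
  continuous_apply (A := fun _ : ℂ => Fin k) z

lemma Om.continuous_T {k : ℕ} (v w : ℂ) : Continuous (Om.T (k := k) v w) :=
  continuous_pi (A := fun _ : ℂ => Fin k) fun _ => Om.continuous_ev _

/-- the action as a homeomorphism -/
noncomputable def Om.homeo {k : ℕ} (v w : ℂ) (hw : w ≠ 0) : Om k ≃ₜ Om k where
  toFun := Om.T v w
  invFun := Om.T (-(w⁻¹ * v)) w⁻¹
  left_inv ω := by
    rw [Om.T_T, mul_inv_cancel₀ hw, show v + w * -(w⁻¹ * v) = 0 by field_simp; ring, Om.T_id]
  right_inv ω := by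
    rw [Om.T_T, inv_mul_cancel₀ hw, neg_add_cancel, Om.T_id]
  continuous_toFun := Om.continuous_T _ _
  continuous_invFun := Om.continuous_T _ _

theorem exists_inv_measure {k : ℕ} (c : ℂ → Fin k) (hc : ∀ x y : ℂ, dist x y = 1 → c x ≠ c y) :
    ∃ μ : Measure (Om k), IsProbabilityMeasure μ ∧
      (∀ v w : ℂ, ‖w‖ = 1 → MeasurePreserving (Om.T v w) μ μ) ∧
      ∀ v : ℂ, ‖v‖ = 1 → ∀ᵐ ω ∂μ, ω 0 ≠ ω v := by
  obtain ⟨Mu, hMu, iMu⟩ := exists_mean Circle
  obtain ⟨Mb, hMb, iMb⟩ := exists_mean (Multiplicative ℂ)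
  let c' : Om k := c
  let om : Circle → Multiplicative ℂ → Om k := fun u b => Om.T b.toAdd u c'
  let L : (Om k → ℝ) →ₗ[ℝ] ℝ :=
    Mu ∘ₗ LinearMap.pi fun u => Mb ∘ₗ LinearMap.funLeft ℝ ℝ (om u)
  have hLe : ∀ F : Om k → ℝ, L F = Mu fun u => Mb fun b => F (om u b) := fun F => rfl
  have hL : IsMean L := by
    refine ⟨?_, fun f C hC h0 => ?_⟩
    · rw [hLe]; simp only [hMb.one, hMu.one]
    · rw [hLe]
      exact hMu.nonneg _ C (fun u => meas_mean_abs_le hMb fun b => hC _)
        fun u => hMb.nonneg _ C (fun b => hC _) fun b => h0 _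
  obtain ⟨μ, hμ, hint, hinv⟩ := exists_measure_of_mean hL
  refine ⟨μ, hμ, fun v w hw => ?_, fun v hv => ?_⟩
  · have hw0 : w ≠ 0 := by rintro rfl; simp at hw
    refine hinv (Om.homeo v w hw0) fun f hf => ?_
    obtain ⟨C, hC⟩ := meas_cont_bdd hf
    rw [hLe, hLe]
    let w' : Circle := ⟨w, by simpa [Submonoid.unitSphere] using hw⟩
    refine Eq.trans ?_ (iMu (fun u => Mb fun b => f (om u b)) C
      (fun u => meas_mean_abs_le hMb fun b => hC _) w')
    congr 1
    funext u
    refine Eq.trans ?_ (iMb (fun b => f (om (w' * u) b)) C (fun b => hC _)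
      (Multiplicative.ofAdd ((u : ℂ) * v)))
    congr 1
    funext b
    congr 1
    change Om.T v w (Om.T _ _ c') = Om.T _ _ c'
    rw [Om.T_T]
    congr 1
    · simp [add_comm]
    · rw [Circle.coe_mul, mul_comm]
  · let F : Om k → ℝ := fun ω => if ω 0 = ω v then 1 else 0
    have hF : Continuous F :=
      (continuous_of_discreteTopology (f := fun p : Fin k × Fin k =>
        if p.1 = p.2 then (1 : ℝ) else 0)).comp ((Om.continuous_ev 0).prodMk (Om.continuous_ev v))
    have h0 : ∫ ω, F ω ∂μ = 0 := by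
      rw [hint F hF, hLe]
      have : ∀ u b, F (om u b) = 0 := fun u b => by
        refine if_neg (hc _ _ ?_)
        simp [dist_eq_norm, hv, Circle.norm_coe]
      simp only [this]
      exact (congrArg Mu (funext fun _ => map_zero Mb)).trans (map_zero Mu)
    rw [integral_eq_zero_iff_of_nonneg (fun ω => by simp only [F, Pi.zero_apply]; split_ifs <;> norm_num)
      (hF.integrable_of_hasCompactSupport (HasCompactSupport.of_compactSpace _))] at h0
    filter_upwards [h0] with ω h hne
    simp [F, hne] at h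

end Vale.Agent.P032
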