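import Vale.Agent.P032.Defs

/-! Continuous vectors of an isometric action of `ℂ` on a real Hilbert space. -/

namespace Vale.Agent.P032

open scoped RealInnerProductSpace
open Filter Topology

variable {H : Type*} [NormedAddCommGroup H] [InnerProductSpace ℝ H]

/-- the vectors with continuous orbit map -/
def contVec (U : ℂ → H →ₗᵢ[ℝ] H) : Submodule ℝ H where
  carrier := {x | Continuous fun v => U v x}
  zero_mem' := by simpa using continuous_const
  add_mem' := fun {x y} hx hy => by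
    simp only [Set.mem_ofPred_eq, map_add] at *
    exact Continuous.add hx hy
  smul_mem' := fun c x hx => by
    simp only [Set.mem_ofPred_eq, map_smul] at *
    exact Continuous.const_smul hx c

lemma mem_contVec {U : ℂ → H →ₗᵢ[ℝ] H} {x : H} : x ∈ contVec U ↔ Continuous fun v => U v x :=
  Iff.rfl

lemma isClosed_contVec (U : ℂ → H →ₗᵢ[ℝ] H) : IsClosed (contVec U : Set H) := by
  refine isClosed_of_closure_subset fun x hx => ?_
  refine continuous_of_uniform_approx_of_continuous fun u hu => ?_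
  obtain ⟨ε, hε, h⟩ := Metric.mem_uniformity_dist.1 hu
  obtain ⟨y, hy, hxy⟩ := Metric.mem_closure_iff.1 hx ε hε
  exact ⟨fun v => U v y, hy, fun v => h (by rwa [LinearIsometry.dist_map])⟩

/-- an action of the additive group `ℂ` -/
structure IsAct (U : ℂ → H →ₗᵢ[ℝ] H) : Prop where
  zero : ∀ x, U 0 x = x
  add : ∀ v w x, U v (U w x) = U (v + w) x

variable {U : ℂ → H →ₗᵢ[ℝ] H}

lemma IsAct.inner_eq (hU : IsAct U) (a b : ℂ) (x y : H) : ⟪U a x, U b y⟫ = ⟪x, U (b - a) y⟫ := by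
  rw [← (U a).inner_map_map x, hU.add, add_sub_cancel]

lemma IsAct.mem (hU : IsAct U) {x : H} (hx : x ∈ contVec U) (a : ℂ) : U a x ∈ contVec U := by
  rw [mem_contVec] at *
  simp only [hU.add]
  exact hx.comp (continuous_id.add continuous_const)

lemma IsAct.mem_orth (hU : IsAct U) {x : H} (hx : x ∈ (contVec U)ᗮ) (a : ℂ) :
    U a x ∈ (contVec U)ᗮ := by
  rw [Submodule.mem_orthogonal] at *
  intro y hy
  rw [← (U (-a)).inner_map_map, hU.add, neg_add_cancel, hU.zero]
  exact hx _ (hU.mem hy _)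

lemma IsAct.mem_of_tendsto (hU : IsAct U) {x : H}
    (hx : Tendsto (fun v => ‖U v x - x‖) (𝓝 0) (𝓝 0)) : x ∈ contVec U := by
  rw [mem_contVec, continuous_iff_continuousAt]
  intro a
  rw [ContinuousAt, tendsto_iff_norm_sub_tendsto_zero]
  have h : Tendsto (fun v : ℂ => v - a) (𝓝 a) (𝓝 0) := tendsto_sub_nhds_zero_iff.2 tendsto_id
  refine (hx.comp h).congr fun v => ?_
  simp only [Function.comp]
  rw [← (U a).norm_map, map_sub, hU.add, add_sub_cancel]

lemma IsAct.energy (hU : IsAct U) (ξ : H) {ι : Type*} [Fintype ι] (c : ι → ℝ) (v : ι → ℂ) :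
    ∑ i, ∑ j, c i * c j * ⟪ξ, U (v i - v j) ξ⟫ = ‖∑ i, c i • U (v i) ξ‖ ^ 2 := by
  rw [← real_inner_self_eq_norm_sq, inner_sum]
  refine Finset.sum_congr rfl fun i _ => ?_
  rw [sum_inner]
  refine Finset.sum_congr rfl fun j _ => ?_
  rw [real_inner_smul_left, real_inner_smul_right, hU.inner_eq]
  ring

lemma IsAct.pd (hU : IsAct U) (ξ : H) : PD fun v => ⟪ξ, U v ξ⟫ := fun _ c v => by
  rw [hU.energy]; positivity

/-- closed convex hull of a piece of the orbit -/
def orbHull (U : ℂ → H →ₗᵢ[ℝ] H) (ξ : H) (r : ℝ) : Set H :=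
  closure (convexHull ℝ ((fun v => U v ξ) '' {v | ‖v‖ ≤ max r 0}))

lemma orbHull_mono (ξ : H) {r s : ℝ} (h : r ≤ s) : orbHull U ξ r ⊆ orbHull U ξ s :=
  closure_mono (convexHull_mono (Set.image_mono fun _ hv => le_trans hv (max_le_max_right _ h)))

lemma orbHull_nonempty (ξ : H) (r : ℝ) : (orbHull U ξ r).Nonempty :=
  ⟨U 0 ξ, subset_closure (subset_convexHull _ _ ⟨0, by simp, rfl⟩)⟩

lemma orbHull_convex (ξ : H) (r : ℝ) : Convex ℝ (orbHull U ξ r) :=
  (convex_convexHull _ _).closure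

lemma IsAct.map_orbHull (hU : IsAct U) (ξ : H) {r : ℝ} (hr : 0 ≤ r) (a : ℂ) {x : H}
    (hx : x ∈ orbHull U ξ r) : U a x ∈ orbHull U ξ (r + ‖a‖) := by
  have : orbHull U ξ r ⊆ (U a).toLinearMap ⁻¹' orbHull U ξ (r + ‖a‖) := by
    refine closure_minimal (convexHull_min ?_ ((orbHull_convex ξ _).linear_preimage _))
      (isClosed_closure.preimage (U a).continuous)
    rintro _ ⟨v, hv, rfl⟩
    refine subset_closure (subset_convexHull _ _ ⟨a + v, ?_, (hU.add _ _ _).symm⟩)
    have h1 := norm_add_le a v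
    have h2 := norm_nonneg a
    simp only [Set.mem_ofPred_eq, max_eq_left hr] at hv
    exact le_max_of_le_left (show ‖a + v‖ ≤ r + ‖a‖ by linarith)
  exact this hx

lemma IsAct.orbHull_orth (hU : IsAct U) {ξ : H} (hξ : ξ ∈ (contVec U)ᗮ) (r : ℝ) :
    orbHull U ξ r ⊆ (contVec U)ᗮ := by
  refine closure_minimal (convexHull_min ?_ (Submodule.convex _)) (Submodule.isClosed_orthogonal _)
  rintro _ ⟨v, -, rfl⟩
  exact hU.mem_orth hξ v

lemma IsAct.zero_mem_orbHull [CompleteSpace H] (hU : IsAct U) {ξ : H} (hξ : ξ ∈ (contVec U)ᗮ)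
    {ε : ℝ} (hε : 0 < ε) : (0 : H) ∈ orbHull U ξ ε := by
  let n : ℝ → ℝ := fun r => Metric.infDist 0 (orbHull U ξ r)
  have hn : Antitone n := fun r s h =>
    Metric.infDist_le_infDist_of_subset (orbHull_mono ξ h) (orbHull_nonempty ξ r)
  obtain ⟨r, hr, hc⟩ : ∃ r ∈ Set.Ioo 0 ε, ContinuousAt n r := by
    by_contra h
    push Not at h
    have h1 : (Set.Ioo 0 ε).Countable := hn.countable_not_continuousAt.mono h
    have h2 := h1.measure_zero MeasureTheory.volume
    simp only [Real.volume_Ioo, sub_zero, ENNReal.ofReal_eq_zero] at h2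
    linarith
  obtain ⟨η, hη, hmin⟩ := exists_norm_eq_iInf_of_complete_convex (orbHull_nonempty (U := U) ξ r)
    isClosed_closure.isComplete (orbHull_convex ξ r) 0
  have hηn : ‖η‖ = n r := by
    simp only [n, Metric.infDist_eq_iInf, dist_eq_norm]
    rw [← hmin, zero_sub, norm_neg]
  have key : ∀ a : ℂ, ‖U a η - η‖ ^ 2 ≤ 4 * (n r ^ 2 - n (r + ‖a‖) ^ 2) := fun a => by
    have h1 := hU.map_orbHull ξ hr.1.le a hη
    have h2 := orbHull_mono (U := U) ξ (show r ≤ r + ‖a‖ by linarith [norm_nonneg a]) hη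
    have h3 := orbHull_convex ξ _ h1 h2 (a := 1 / 2) (b := 1 / 2) (by norm_num) (by norm_num)
      (by norm_num)
    have h4 : n (r + ‖a‖) ≤ 1 / 2 * ‖U a η + η‖ := by
      refine (Metric.infDist_le_dist_of_mem h3).trans ?_
      rw [dist_eq_norm, zero_sub, norm_neg, ← smul_add, norm_smul]
      norm_num
    have h5 : 0 ≤ n (r + ‖a‖) := Metric.infDist_nonneg
    have h6 := parallelogram_law_with_norm ℝ (U a η) η
    rw [(U a).norm_map, hηn] at h6
    nlinarith
  have hη0 : η ∈ contVec U := by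
    refine hU.mem_of_tendsto ?_
    have h1 : Tendsto (fun a : ℂ => r + ‖a‖) (𝓝 0) (𝓝 r) := by
      simpa using (continuous_const.add continuous_norm).tendsto (0 : ℂ) (f := fun a => r + ‖a‖)
    have h2 : Tendsto (fun a : ℂ => Real.sqrt (4 * (n r ^ 2 - n (r + ‖a‖) ^ 2))) (𝓝 0) (𝓝 0) := by
      have := (((hc.tendsto.comp h1).pow 2).const_sub (n r ^ 2)).const_mul 4 |>.sqrt
      simpa using this
    exact squeeze_zero (fun _ => norm_nonneg _) (fun a => Real.le_sqrt_of_sq_le (key a)) h2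
  have : η = 0 := inner_self_eq_zero.1
    ((Submodule.mem_orthogonal _ _).1 (hU.orbHull_orth hξ r hη) η hη0)
  exact orbHull_mono ξ hr.2.le (this ▸ hη)

lemma IsAct.wild [CompleteSpace H] (hU : IsAct U) {ξ : H} (hξ : ξ ∈ (contVec U)ᗮ) :
    Wild fun v => ⟪ξ, U v ξ⟫ := by
  intro ε hε
  obtain ⟨y, hy, hy0⟩ := Metric.mem_closure_iff.1 (hU.zero_mem_orbHull hξ hε) (Real.sqrt ε)
    (Real.sqrt_pos.2 hε)
  obtain ⟨ι, _, w, z, hw0, hw1, hz, rfl⟩ := mem_convexHull_iff_exists_fintype.1 hy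
  choose v hv hvz using hz
  let e := Fintype.equivFin ι
  refine ⟨Fintype.card ι, fun i => w (e.symm i), fun i => v (e.symm i), fun i => hw0 _, ?_,
    fun i => ?_, ?_⟩
  · rw [← hw1]; exact Equiv.sum_comp e.symm w
  · simpa [max_eq_left hε.le] using hv (e.symm i)
  · rw [hU.energy, Equiv.sum_comp e.symm fun i => w i • U (v i) ξ]
    simp only at hvz
    simp only [hvz]
    rw [dist_eq_norm, zero_sub, norm_neg] at hy0
    exact ((Real.lt_sqrt (norm_nonneg _)).1 hy0).le

end Vale.Agent.P032
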