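import Vale.Agent.P032.Defs

/-! A continuous curve in `L^2` has a jointly measurable version. -/

namespace Vale.Agent.P032

open MeasureTheory Filter Topology

lemma exists_measurable_version {Ω : Type*} [MeasurableSpace Ω] {μ : Measure Ω}
    {γ : ℂ → Lp ℝ 2 μ} (hγ : Continuous γ) :
    ∃ G : ℂ × Ω → ℝ, Measurable G ∧ ∀ x, (fun ω => G (x, ω)) =ᵐ[μ] γ x := by
  classical
  let d := TopologicalSpace.denseSeq ℂ
  have h : ∀ (m : ℕ) (x : ℂ), ∃ n, ‖γ (d n) - γ x‖ < (1 / 2 : ℝ) ^ m := fun m x => by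
    have ho : IsOpen {y | ‖γ y - γ x‖ < (1 / 2 : ℝ) ^ m} :=
      isOpen_lt (hγ.sub continuous_const).norm continuous_const
    obtain ⟨n, hn⟩ := (TopologicalSpace.denseRange_denseSeq ℂ).exists_mem_open ho ⟨x, by simp⟩
    exact ⟨n, hn⟩
  let F : ℕ → ℂ × Ω → ℝ := fun m q => γ (d (Nat.find (h m q.1))) q.2
  have hF : ∀ m, Measurable (F m) := fun m =>
    Measurable.find (f := fun n (q : ℂ × Ω) => γ (d n) q.2)
      (p := fun n (q : ℂ × Ω) => ‖γ (d n) - γ q.1‖ < (1 / 2 : ℝ) ^ m)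
      (fun n => (Lp.stronglyMeasurable _).measurable.comp measurable_snd)
      (fun n => measurable_fst
        (isOpen_lt (continuous_const.sub hγ).norm continuous_const).measurableSet)
      (fun q => h m q.1)
  refine ⟨fun q => limsup (fun m => F m q) atTop, Measurable.limsup hF, fun x => ?_⟩
  let y : ℕ → Lp ℝ 2 μ := fun m => γ (d (Nat.find (h m x))) - γ x
  have hy : ∀ m, ‖y m‖ < (1 / 2 : ℝ) ^ m := fun m => Nat.find_spec (h m x)
  have hs : Summable fun m => ‖y m‖ :=
    Summable.of_nonneg_of_le (fun _ => norm_nonneg _) (fun m => (hy m).le) summable_geometric_two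
  have h1 := summable_norm_of_tsum_eLpNorm_ne_top (p := 2) (μ := μ) (by norm_num)
    (f := fun m => y m) (fun m => Lp.aestronglyMeasurable _) (by
      simp only [← Lp.enorm_def]
      exact tsum_enorm_ne_top_iff_summable_norm.2 hs)
  have h2 : ∀ᵐ ω ∂μ, ∀ m, y m ω = F m (x, ω) - γ x ω :=
    ae_all_iff.2 fun m => Lp.coeFn_sub _ _
  filter_upwards [h1, h2] with ω h1 h2
  refine Tendsto.limsup_eq ?_
  rw [tendsto_iff_norm_sub_tendsto_zero]
  simpa only [h2] using h1.tendsto_atTop_zero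

end Vale.Agent.P032
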