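import Vale.Agent.P032.Rigid
import Vale.Agent.P032.MeasA
import Vale.Agent.P032.MeasB
import Vale.Agent.P032.MeasC

namespace Vale.Agent.P032

open MeasureTheory
open scoped RealInnerProductSpace

/-- correlations of a rotation invariant vector only see the continuous part -/
lemma meas_corr_eq {H : Type*} [NormedAddCommGroup H] [InnerProductSpace ℝ H] [CompleteSpace H]
    {U : ℂ → H →ₗᵢ[ℝ] H} (hU : IsAct U) (R : Circle → H →ₗᵢ[ℝ] H)
    (hR : ∀ w x, R w (R w⁻¹ x) = x) (hRU : ∀ w v x, R w (U v x) = U (w * v) (R w x))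
    {g ξ : H} (hg : g ∈ contVec U) (hξ : ξ ∈ (contVec U)ᗮ) (hf : ∀ w, R w (g + ξ) = g + ξ)
    {v : ℂ} (hv : v ≠ 0) : ⟪g + ξ, U v (g + ξ)⟫ = ⟪g, U v g⟫ := by
  have hRm : ∀ w x, x ∈ contVec U → R w x ∈ contVec U := fun w x hx => by
    rw [mem_contVec] at *
    have : (fun v => U v (R w x)) = fun v => R w (U ((w : ℂ)⁻¹ * v) x) := by
      funext v
      rw [hRU, mul_inv_cancel_left₀ w.coe_ne_zero]
    rw [this]
    exact (R w).continuous.comp (hx.comp (continuous_const.mul continuous_id))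
  have hRo : ∀ w x, x ∈ (contVec U)ᗮ → R w x ∈ (contVec U)ᗮ := fun w x hx => by
    rw [Submodule.mem_orthogonal] at *
    intro y hy
    rw [← hR w y, (R w).inner_map_map]
    exact hx _ (hRm _ _ hy)
  have hRξ : ∀ w, R w ξ = ξ := fun w => by
    have h1 : R w ξ - ξ = g - R w g := by
      have := hf w
      rw [map_add] at this
      rw [sub_eq_sub_iff_add_eq_add, add_comm, this]
    have h2 : R w ξ - ξ ∈ (contVec U)ᗮ := sub_mem (hRo _ _ hξ) hξ
    have h3 : R w ξ - ξ ∈ contVec U := h1 ▸ sub_mem hg (hRm _ _ hg)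
    exact sub_eq_zero.1 (inner_self_eq_zero.1 ((Submodule.mem_orthogonal _ _).1 h2 _ h3))
  have hrad : Radial fun v => ⟪ξ, U v ξ⟫ := fun u v hu => by
    let w : Circle := ⟨u, by simpa [Submonoid.unitSphere] using hu⟩
    have := (R w).inner_map_map ξ (U v ξ)
    rw [hRU, hRξ] at this
    exact this
  have h0 := rigid (hU.pd ξ) hrad (hU.wild hξ) v hv
  have h1 : ⟪g, U v ξ⟫ = 0 := (Submodule.mem_orthogonal _ _).1 (hU.mem_orth hξ v) _ hg
  have h2 : ⟪ξ, U v g⟫ = 0 := (Submodule.mem_orthogonal' _ _).1 hξ _ (hU.mem hg v)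
  rw [map_add, inner_add_left, inner_add_right, inner_add_right, h0, h1, h2]
  ring

lemma meas_norm_ee (t : ℝ) : ‖ee t‖ = 1 := Complex.norm_exp_ofReal_mul_I t

lemma meas_ae_not_pos {Ω : Type*} [MeasurableSpace Ω] {μ : Measure Ω} {a b : Lp ℝ 2 μ}
    (ha : 0 ≤ᵐ[μ] a) (hb : 0 ≤ᵐ[μ] b) (h : ⟪a, b⟫ = 0) : ∀ᵐ ω ∂μ, ¬ (0 < a ω ∧ 0 < b ω) := by
  rw [L2.inner_def, integral_eq_zero_iff_of_nonneg_ae _ (L2.integrable_inner a b)] at h
  · filter_upwards [h] with ω h1 h2
    have := mul_pos h2.2 h2.1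
    simp only [RCLike.inner_apply, conj_trivial, Pi.zero_apply] at h1
    linarith
  · filter_upwards [ha, hb] with ω h1 h2
    simpa using mul_nonneg h2 h1

/-- the continuous parts of the colour indicators -/
lemma exists_cont_part {k : ℕ} (c : ℂ → Fin k) (hc : ∀ x y : ℂ, dist x y = 1 → c x ≠ c y) :
    ∃ μ : Measure (Om k), IsProbabilityMeasure μ ∧ ∃ γ : Fin k → ℂ → Lp ℝ 2 μ,
      (∀ i, Continuous (γ i)) ∧ (∀ x, ∀ᵐ ω ∂μ, ∃ i, 0 < γ i x ω) ∧
      ∀ i x v, ‖v‖ = 1 → ∀ᵐ ω ∂μ, ¬ (0 < γ i x ω ∧ 0 < γ i (x + v) ω) := by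
  obtain ⟨μ, hμ, hT, hp⟩ := exists_inv_measure c hc
  refine ⟨μ, hμ, ?_⟩
  let V : ℂ → Circle → Lp ℝ 2 μ →ₗᵢ[ℝ] Lp ℝ 2 μ := fun v w =>
    Lp.compMeasurePreservingₗᵢ ℝ (Om.T v w) (hT v w w.norm_coe)
  have hV : ∀ v w x, V v w x =ᵐ[μ] fun ω => x (Om.T v w ω) := fun v w x =>
    Lp.coeFn_compMeasurePreserving x (hT v w w.norm_coe)
  have hae : ∀ v (w : Circle) {p : Om k → Prop}, (∀ᵐ ω ∂μ, p ω) → ∀ᵐ ω ∂μ, p (Om.T v w ω) :=
    fun v w p h => (hT v w w.norm_coe).quasiMeasurePreserving.ae h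
  have hVV : ∀ v w v' w' x, V v' w' (V v w x) = V (v' + w' * v) (w' * w) x :=
    fun v w v' w' x => by
      refine Lp.ext ?_
      filter_upwards [hV v' w' (V v w x), hae v' w' (hV v w x), hV (v' + w' * v) (w' * w) x]
        with ω h1 h2 h3
      rw [h1, h2, h3, Om.T_T, Circle.coe_mul]
  have hV0 : ∀ x, V 0 1 x = x := fun x => by
    refine Lp.ext ?_
    filter_upwards [hV 0 1 x] with ω h1
    rw [h1, Circle.coe_one, Om.T_id]
  let U : ℂ → Lp ℝ 2 μ →ₗᵢ[ℝ] Lp ℝ 2 μ := fun v => V v 1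
  have hU : IsAct U := ⟨hV0, fun v w x => by simp only [U, hVV]; simp⟩
  have hms : ∀ i, MeasurableSet {ω : Om k | ω 0 = i} := fun i =>
    (isClosed_eq (Om.continuous_ev 0) continuous_const).measurableSet
  let f : Fin k → Lp ℝ 2 μ := fun i => indicatorConstLp 2 (hms i) (measure_ne_top _ _) 1
  have hf : ∀ i, ∀ᵐ ω ∂μ, f i ω = if ω 0 = i then 1 else 0 := fun i => by
    filter_upwards [indicatorConstLp_coeFn (p := 2) (hs := hms i) (hμs := measure_ne_top μ _)
      (c := (1 : ℝ))] with ω h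
    rw [h, Set.indicator_apply]; rfl
  let o : Lp ℝ 2 μ := Lp.const 2 μ 1
  have ho : ∀ᵐ ω ∂μ, o ω = 1 := Lp.coeFn_const 2 μ 1
  have hUo : ∀ v, U v o = o := fun v => by
    refine Lp.ext ?_
    filter_upwards [hV v 1 o, hae v 1 ho, ho] with ω h1 h2 h3
    rw [h3, ← h2, ← h1]
  have hom : o ∈ contVec U := by
    rw [mem_contVec]; simp only [hUo]; exact continuous_const
  have hsum : ∀ g : Fin k → Lp ℝ 2 μ, ∀ᵐ ω ∂μ, (∑ i, g i : Lp ℝ 2 μ) ω = ∑ i, g i ω := fun g => by
    filter_upwards [Lp.coeFn_finsetSum Finset.univ g] with ω h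
    rw [h, Finset.sum_apply]
  have hfo : ∑ i, f i = o := by
    refine Lp.ext ?_
    filter_upwards [hsum f, ae_all_iff.2 hf, ho] with ω h1 h2 h3
    rw [h1, h3]
    simp [h2]
  have : CompleteSpace (contVec U) := (isClosed_contVec U).completeSpace_coe
  choose g hg ξ hξ hgξ using fun i => (contVec U).exists_add_mem_mem_orthogonal (f i)
  have hgo : ∑ i, g i = o := by
    have h1 : o - ∑ i, g i = ∑ i, ξ i := by
      rw [← hfo, ← Finset.sum_sub_distrib]
      exact Finset.sum_congr rfl fun i _ => by rw [hgξ i]; abel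
    have h2 : o - ∑ i, g i ∈ (contVec U)ᗮ := h1 ▸ sum_mem fun i _ => hξ i
    have h3 : o - ∑ i, g i ∈ contVec U := sub_mem hom (sum_mem fun i _ => hg i)
    exact (sub_eq_zero.1 (inner_self_eq_zero.1 ((Submodule.mem_orthogonal _ _).1 h2 _ h3))).symm
  have hneg : ∀ x ∈ contVec U, Lp.negPart x ∈ contVec U := fun x hx => by
    rw [mem_contVec] at *
    have : (fun v => U v (Lp.negPart x)) = fun v => Lp.negPart (U v x) := by
      funext v
      refine Lp.ext ?_
      filter_upwards [hV v 1 (Lp.negPart x), hae v 1 (Lp.coeFn_negPart_eq_max x),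
        Lp.coeFn_negPart_eq_max (U v x), hV v 1 x] with ω h1 h2 h3 h4
      rw [h3, h4, ← h2, ← h1]
    rw [this]
    exact Lp.continuous_negPart.comp hx
  have hg0 : ∀ i, 0 ≤ᵐ[μ] g i := fun i => by
    have h1 : ⟪Lp.negPart (g i), ξ i⟫ = 0 :=
      (Submodule.mem_orthogonal _ _).1 (hξ i) _ (hneg _ (hg i))
    have h2 : ∀ᵐ ω ∂μ, ξ i ω = f i ω - g i ω := by
      have : ξ i = f i - g i := by rw [hgξ i]; abel
      rw [this]
      exact Lp.coeFn_sub _ _
    rw [L2.inner_def, integral_eq_zero_iff_of_nonneg_ae _ (L2.integrable_inner _ _)] at h1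
    · filter_upwards [h1, h2, hf i, Lp.coeFn_negPart_eq_max (g i)] with ω h1 h2 h3 h4
      simp only [RCLike.inner_apply, conj_trivial, Pi.zero_apply, h2, h4] at h1 ⊢
      by_contra h
      push Not at h
      rw [max_eq_left (by linarith)] at h1
      have : 0 ≤ f i ω := by rw [h3]; split_ifs <;> norm_num
      nlinarith
    · filter_upwards [h2, hf i, Lp.coeFn_negPart_eq_max (g i)] with ω h2 h3 h4
      simp only [RCLike.inner_apply, conj_trivial, Pi.zero_apply, h2, h4]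
      have : 0 ≤ f i ω := by rw [h3]; split_ifs <;> norm_num
      rcases le_total 0 (g i ω) with h | h
      · rw [max_eq_right (by linarith)]; simp
      · rw [max_eq_left (by linarith)]; nlinarith
  have hUg0 : ∀ i x, 0 ≤ᵐ[μ] U x (g i) := fun i x => by
    filter_upwards [hV x 1 (g i), hae x 1 (hg0 i)] with ω h1 h2
    exact h2.trans_eq h1.symm
  refine ⟨fun i x => U x (g i), hg, fun x => ?_, fun i x v hv => ?_⟩
  · have h1 : ∑ i, U x (g i) = o := by rw [← map_sum, hgo, hUo]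
    filter_upwards [hsum fun i => U x (g i), ho] with ω h2 h3
    rw [h1, h3] at h2
    by_contra h
    push Not at h
    have := Finset.sum_nonpos (s := Finset.univ) fun i _ => h i
    linarith
  · refine meas_ae_not_pos (hUg0 i x) (hUg0 i (x + v)) ?_
    rw [hU.inner_eq, add_sub_cancel_left, ← meas_corr_eq hU (V 0) (fun w x => by
      rw [hVV, mul_inv_cancel, mul_zero, add_zero, hV0]) (fun w v x => by
      simp only [U, hVV]; simp) (hg i) (hξ i) (fun w => ?_) (by rintro rfl; simp at hv), ← hgξ i]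
    · rw [L2.inner_def]
      refine integral_eq_zero_of_ae ?_
      filter_upwards [hV v 1 (f i), hae v 1 (hf i), hf i, hp v hv] with ω h1 h2 h3 h4
      have h5 : U v (f i) ω = if ω v = i then 1 else 0 := by
        rw [h1, h2]; simp [Om.T]
      simp only [RCLike.inner_apply, conj_trivial, Pi.zero_apply, h5, h3]
      split_ifs with h6 h7
      · exact absurd (h7.trans h6.symm) h4
      all_goals simp
    · rw [← hgξ i]
      refine Lp.ext ?_
      filter_upwards [hV 0 w (f i), hae 0 w (hf i), hf i] with ω h1 h2 h3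
      rw [h1, h2, h3]; simp [Om.T]

/-- a proper colouring gives a measurable almost-everywhere proper colouring -/
theorem exists_meas {k : ℕ} (c : ℂ → Fin k) (hc : ∀ x y : ℂ, dist x y = 1 → c x ≠ c y) :
    ∃ A : Fin k → Set ℂ, (∀ i, MeasurableSet (A i)) ∧ (∀ᵐ x : ℂ, ∃ i, x ∈ A i) ∧
      ∀ i, ∀ᵐ p : ℂ × ℝ, ¬ (p.1 ∈ A i ∧ p.1 + ee p.2 ∈ A i) := by
  obtain ⟨μ, hμ, γ, hγ, h1, h2⟩ := exists_cont_part c hc
  choose G hG hGγ using fun i => exists_measurable_version (hγ i)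
  have hee : Continuous ee := by unfold ee; fun_prop
  have hpos : ∀ i, MeasurableSet {q | 0 < G i q} := fun i => measurableSet_lt measurable_const (hG i)
  have h3 : ∀ᵐ ω ∂μ, ∀ᵐ x : ℂ, ∃ i, 0 < G i (x, ω) := by
    rw [← Measure.ae_ae_comm]
    · refine Filter.Eventually.of_forall fun x => ?_
      filter_upwards [h1 x, ae_all_iff.2 fun i => hGγ i x] with ω h h'
      simpa only [h'] using h
    · simp only [Set.ofPred_exists]
      exact MeasurableSet.iUnion hpos
  have h4 : ∀ᵐ ω ∂μ, ∀ i, ∀ᵐ p : ℂ × ℝ, ¬ (0 < G i (p.1, ω) ∧ 0 < G i (p.1 + ee p.2, ω)) := by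
    refine ae_all_iff.2 fun i => ?_
    rw [← Measure.ae_ae_comm]
    · refine Filter.Eventually.of_forall fun p => ?_
      filter_upwards [h2 i p.1 (ee p.2) (meas_norm_ee _), hGγ i p.1, hGγ i (p.1 + ee p.2)]
        with ω h h' h''
      rwa [h', h'']
    · refine MeasurableSet.compl (MeasurableSet.inter ?_ ?_)
      · exact (measurable_fst.fst.prodMk measurable_snd) (hpos i)
      · exact ((measurable_fst.fst.add (hee.measurable.comp measurable_fst.snd)).prodMk
          measurable_snd) (hpos i)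
  obtain ⟨ω, h5, h6⟩ := (h3.and h4).exists
  exact ⟨fun i => {x | 0 < G i (x, ω)}, fun i => (measurable_id.prodMk measurable_const) (hpos i),
    h5, h6⟩

end Vale.Agent.P032
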