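import Vale.Agent.P032.Geom5

/-! Weights and the edge cocycles. -/

namespace Vale.Agent.P032

open Set Metric Complex Filter Topology

variable {S : Fin 5 → Set ℂ} {ε : ℝ} {w : Fin 5 → ℂ → ℝ}

/-- weight functions for the map to the nerve -/
structure Wt (S : Fin 5 → Set ℂ) (ε : ℝ) (w : Fin 5 → ℂ → ℝ) : Prop where
  cont : ∀ c, Continuous (w c)
  nonneg : ∀ c z, 0 ≤ w c z
  two : ∀ a b c z, a ≠ b → a ≠ c → b ≠ c → w a z = 0 ∨ w b z = 0 ∨ w c z = 0
  lt : ∀ a c z, z ∉ X3 S → z ∈ S c → z ∉ S a → w a z < w c z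
  pos : ∀ c z, z ∉ X3 S → z ∈ S c → 0 < w c z
  zero : ∀ c z, z ∈ X3 S → w c z = 0
  near : ∀ c z, 0 < w c z → infDist z (S c) < ε
  loc : ∀ c x, x ∈ X3 S → x ∉ S c → ∀ᶠ z in 𝓝 x, w c z = 0

theorem Col.exists_wt (h : Col S) (hne : ∀ c, (S c).Nonempty) (hε : 0 < ε) : ∃ w, Wt S ε w := by
  set T := Finset.univ.filter
    fun t : Fin 5 × Fin 5 × Fin 5 => t.1 ≠ t.2.1 ∧ t.1 ≠ t.2.2 ∧ t.2.1 ≠ t.2.2 with hT
  have hTn : T.Nonempty := ⟨(0, 1, 2), by simp [hT]⟩
  set d : Fin 5 → ℂ → ℝ := fun c z => infDist z (S c) with hd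
  have dc : ∀ c, Continuous (d c) := fun c => continuous_infDist_pt _
  have d0 : ∀ c z, 0 ≤ d c z := fun c z => infDist_nonneg
  have dz : ∀ c z, z ∈ S c → d c z = 0 := fun c z hz => infDist_zero_of_mem hz
  have dp : ∀ c z, z ∉ S c → 0 < d c z := fun c z hz =>
    ((h.good c).closed.notMem_iff_infDist_pos (hne c)).mp hz
  set m : ℂ → ℝ := fun z => min ε (T.inf' hTn fun t => max (d t.1 z) (max (d t.2.1 z) (d t.2.2 z)))
    with hm
  have mc : Continuous m := continuous_const.min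
    (Continuous.finset_inf'_apply hTn fun t _ => (dc _).max ((dc _).max (dc _)))
  have mle : ∀ a b c z, a ≠ b → a ≠ c → b ≠ c → m z ≤ max (d a z) (max (d b z) (d c z)) :=
    fun a b c z h1 h2 h3 => (min_le_right _ _).trans
      (Finset.inf'_le (fun t : Fin 5 × Fin 5 × Fin 5 => max (d t.1 z) (max (d t.2.1 z) (d t.2.2 z)))
        (b := (a, b, c)) (Finset.mem_filter.mpr ⟨Finset.mem_univ _, h1, h2, h3⟩))
  have mpos : ∀ z, z ∉ X3 S → 0 < m z := by
    intro z hz
    refine lt_min hε ((Finset.lt_inf'_iff _).mpr fun t ht => ?_)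
    obtain ⟨h1, h2, h3⟩ := (Finset.mem_filter.mp ht).2
    by_cases g1 : z ∈ S t.1
    · by_cases g2 : z ∈ S t.2.1
      · have g3 : z ∉ S t.2.2 := fun g3 => hz ⟨_, _, _, h1, h2, h3, g1, g2, g3⟩
        exact (dp _ _ g3).trans_le ((le_max_right _ _).trans (le_max_right _ _))
      · exact (dp _ _ g2).trans_le ((le_max_left _ _).trans (le_max_right _ _))
    · exact (dp _ _ g1).trans_le (le_max_left _ _)
  have mz : ∀ z, z ∈ X3 S → m z ≤ 0 := by
    rintro z ⟨a, b, c, h1, h2, h3, g1, g2, g3⟩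
    have := mle a b c z h1 h2 h3
    rw [dz _ _ g1, dz _ _ g2, dz _ _ g3] at this
    simpa using this
  refine ⟨fun c z => max 0 (m z - d c z), fun c => continuous_const.max (mc.sub (dc c)),
    fun c z => le_max_left _ _, ?_, ?_, ?_, ?_, ?_, ?_⟩
  · intro a b c z h1 h2 h3
    have := mle a b c z h1 h2 h3
    simp only [le_max_iff] at this
    rcases this with g | g | g
    · exact Or.inl (max_eq_left (by linarith))
    · exact Or.inr (Or.inl (max_eq_left (by linarith)))
    · exact Or.inr (Or.inr (max_eq_left (by linarith)))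
  · intro a c z h1 h2 h3
    have := mpos z h1
    have := dp _ _ h3
    rw [dz _ _ h2, sub_zero, max_eq_right (mpos z h1).le]
    exact max_lt (mpos z h1) (by linarith)
  · intro c z h1 h2
    rw [dz _ _ h2, sub_zero]
    exact (mpos z h1).trans_le (le_max_right _ _)
  · intro c z hz
    exact max_eq_left (by linarith [mz z hz, d0 c z])
  · intro c z hz
    have h1 : 0 < m z - d c z := by
      rcases lt_max_iff.mp hz with g | g
      · exact absurd g (lt_irrefl _)
      · exact g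
    have h2 : m z ≤ ε := min_le_left _ _
    show d c z < ε
    linarith
  · intro c x hx hxc
    have : m x < d c x := (mz x hx).trans_lt (dp _ _ hxc)
    filter_upwards [mc.continuousAt.eventually_lt (dc c).continuousAt this] with z hz
    exact max_eq_left (by linarith)

/-- the cocycle dual to the edge `uv` -/
noncomputable def om (w : Fin 5 → ℂ → ℝ) (u v : Fin 5) (z : ℂ) : ℂ :=
  exp (2 * Real.pi * I * ((w u z / (w u z + w v z) : ℝ) : ℂ))

/-- barycentric coordinate -/
noncomputable def bary (w : Fin 5 → ℂ → ℝ) (a : Fin 5) (z : ℂ) : ℂ :=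
  2 * Real.pi * I * ((w a z / ∑ c, w c z : ℝ) : ℂ)

theorem om_ne_zero (u v : Fin 5) (z : ℂ) : om w u v z ≠ 0 := exp_ne_zero _

theorem om_one {u v : Fin 5} {z : ℂ} (h : w u z = 0 ∨ w v z = 0) : om w u v z = 1 := by
  unfold om
  by_cases hu : w u z = 0
  · simp [hu]
  · rw [h.resolve_left hu, add_zero, div_self hu]
    simp

theorem om_symm (u v : Fin 5) (z : ℂ) (h : Wt S ε w) : om w u v z * om w v u z = 1 := by
  by_cases hu : w u z = 0
  · rw [om_one (Or.inl hu), om_one (Or.inr hu), one_mul]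
  · have h1 : 0 < w u z + w v z :=
      add_pos_of_pos_of_nonneg (lt_of_le_of_ne (h.nonneg _ _) (Ne.symm hu)) (h.nonneg _ _)
    unfold om
    rw [← exp_add, ← mul_add, ← ofReal_add, add_comm (w v z), ← add_div, div_self h1.ne']
    simp

theorem Wt.others (h : Wt S ε w) {a b : Fin 5} {z : ℂ} (hab : a ≠ b) (ha : w a z ≠ 0)
    (hb : w b z ≠ 0) {c : Fin 5} (h1 : c ≠ a) (h2 : c ≠ b) : w c z = 0 := by
  rcases h.two a b c z hab h1.symm h2.symm with g | g | g
  · exact absurd g ha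
  · exact absurd g hb
  · exact g

theorem Wt.sum_eq (_h : Wt S ε w) {a b : Fin 5} {z : ℂ} (hab : a ≠ b)
    (ho : ∀ c, c ≠ a → c ≠ b → w c z = 0) : ∑ c, w c z = w a z + w b z := by
  rw [← Finset.sum_pair (f := fun c => w c z) hab]
  symm
  refine Finset.sum_subset (Finset.subset_univ _) fun c _ hc => ?_
  simp only [Finset.mem_insert, Finset.mem_singleton, not_or] at hc
  exact ho c hc.1 hc.2

theorem om_contOn (hc : Col S) (h : Wt S ε w) {u v : Fin 5} (huv : u ≠ v) :
    ContinuousOn (om w u v) (X3 S ∩ S u ∩ S v)ᶜ := by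
  intro z hz
  apply ContinuousAt.continuousWithinAt
  have key : (∀ᶠ y in 𝓝 z, w u y = 0 ∨ w v y = 0) → ContinuousAt (om w u v) z := fun g =>
    (continuousAt_const (y := (1 : ℂ))).congr (g.mono fun y hy => (om_one hy).symm)
  by_cases hX : z ∈ X3 S
  · apply key
    by_cases hu : z ∈ S u
    · exact (h.loc v z hX fun hv => hz ⟨⟨hX, hu⟩, hv⟩).mono fun y hy => Or.inr hy
    · exact (h.loc u z hX hu).mono fun y hy => Or.inl hy
  · by_cases hs : w u z + w v z = 0
    · apply key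
      obtain ⟨c, hzc⟩ := hc.cov z
      have hp := h.pos c z hX hzc
      have hu0 : w u z = 0 := by linarith [h.nonneg u z, h.nonneg v z]
      have hv0 : w v z = 0 := by linarith
      have cu : u ≠ c := by rintro rfl; linarith
      have cv : v ≠ c := by rintro rfl; linarith
      filter_upwards [continuousAt_const.eventually_lt (h.cont c).continuousAt hp] with y hy
      rcases h.two u v c y huv cu cv with g | g | g
      · exact Or.inl g
      · exact Or.inr g
      · linarith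
    · have : ContinuousAt (fun y => w u y / (w u y + w v y)) z :=
        (h.cont u).continuousAt.div ((h.cont u).add (h.cont v)).continuousAt hs
      unfold om
      exact (continuousAt_const.mul (continuous_ofReal.continuousAt.comp this)).cexp

theorem exp_two_pi_im (t : ℝ) : (exp (2 * Real.pi * I * (t : ℂ))).im = Real.sin (2 * Real.pi * t) := by
  rw [show 2 * (Real.pi : ℂ) * I * t = ((2 * Real.pi * t : ℝ) : ℂ) * I by push_cast; ring,
    exp_ofReal_mul_I_im]

theorem om_slit (hc : Col S) (h : Wt S ε w) {u v : Fin 5} (huv : u ≠ v) {z : ℂ}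
    (hz : z ∉ S u ∩ S v) : om w u v z ∈ slitPlane := by
  by_cases hu : w u z = 0
  · rw [om_one (Or.inl hu)]; exact one_mem_slitPlane
  by_cases hv : w v z = 0
  · rw [om_one (Or.inr hv)]; exact one_mem_slitPlane
  have u0 : 0 < w u z := lt_of_le_of_ne (h.nonneg _ _) (Ne.symm hu)
  have v0 : 0 < w v z := lt_of_le_of_ne (h.nonneg _ _) (Ne.symm hv)
  have hX : z ∉ X3 S := fun g => hu (h.zero _ _ g)
  have hne : w u z ≠ w v z := by
    intro he
    obtain ⟨c, hzc⟩ := hc.cov z
    have hp := h.pos c z hX hzc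
    by_cases cu : c = u
    · subst cu
      have := h.lt v c z hX hzc fun g => hz ⟨hzc, g⟩
      linarith
    · by_cases cv : c = v
      · subst cv
        have := h.lt u c z hX hzc fun g => hz ⟨g, hzc⟩
        linarith
      · linarith [h.others huv hu hv cu cv]
  right
  unfold om
  rw [exp_two_pi_im]
  have hs : 0 < w u z + w v z := by linarith
  have hpi := Real.pi_pos
  have t0 : 0 < w u z / (w u z + w v z) := by positivity
  have t1 : w u z / (w u z + w v z) < 1 := by rw [div_lt_one hs]; linarith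
  rcases lt_or_gt_of_ne hne with g | g
  · have : w u z / (w u z + w v z) < 1 / 2 := by rw [div_lt_iff₀ hs]; linarith
    exact (Real.sin_pos_of_pos_of_lt_pi (by positivity) (by nlinarith)).ne'
  · have : 1 / 2 < w u z / (w u z + w v z) := by rw [lt_div_iff₀ hs]; linarith
    rw [← Real.sin_sub_two_pi]
    exact (Real.sin_neg_of_neg_of_neg_pi_lt (by nlinarith) (by nlinarith)).ne

theorem om_prod (h : Wt S ε w) (a : Fin 5) (z : ℂ) :
    ∏ v ∈ Finset.univ.erase a, om w a v z = exp (bary w a z) := by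
  unfold bary
  by_cases ha : w a z = 0
  · rw [Finset.prod_eq_one fun v _ => om_one (Or.inl ha)]
    simp [ha]
  by_cases ho : ∀ v, v ≠ a → w v z = 0
  · rw [Finset.prod_eq_one fun v hv => om_one (Or.inr (ho v (Finset.ne_of_mem_erase hv)))]
    rw [Finset.sum_eq_single a (fun v _ hv => ho v hv) (by simp), div_self ha]
    simp
  · push Not at ho
    obtain ⟨b, hba, hb⟩ := ho
    rw [Finset.prod_eq_single_of_mem b (Finset.mem_erase.mpr ⟨hba, Finset.mem_univ _⟩)
      fun v hv hvb => om_one (Or.inr (h.others hba.symm ha hb (Finset.ne_of_mem_erase hv) hvb)),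
      h.sum_eq hba.symm fun c h1 h2 => h.others hba.symm ha hb h1 h2]
    rfl

theorem om_log_sum (hc : Col S) (h : Wt S ε w) {a : Fin 5} {z : ℂ} (hX : z ∉ X3 S) (hz : z ∉ S a) :
    ∑ v ∈ Finset.univ.erase a, log (om w a v z) = bary w a z := by
  unfold bary
  by_cases ha : w a z = 0
  · rw [Finset.sum_eq_zero fun v _ => by rw [om_one (Or.inl ha), log_one]]
    simp [ha]
  obtain ⟨b, hb⟩ := hc.cov z
  have hba : b ≠ a := by rintro rfl; exact hz hb
  have h1 := h.lt a b z hX hb hz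
  have h2 := h.nonneg a z
  have hb0 : w b z ≠ 0 := by linarith
  rw [Finset.sum_eq_single_of_mem b (Finset.mem_erase.mpr ⟨hba, Finset.mem_univ _⟩)
      fun v hv hvb => by
        rw [om_one (Or.inr (h.others hba.symm ha hb0 (Finset.ne_of_mem_erase hv) hvb)), log_one],
      h.sum_eq hba.symm fun c h1 h2 => h.others hba.symm ha hb0 h1 h2]
  have hs : 0 < w a z + w b z := by linarith
  have t0 : 0 ≤ w a z / (w a z + w b z) := by positivity
  have t1 : w a z / (w a z + w b z) < 1 / 2 := by rw [div_lt_iff₀ hs]; linarith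
  have hpi := Real.pi_pos
  unfold om
  have e : (2 * (Real.pi : ℂ) * I * ((w a z / (w a z + w b z) : ℝ) : ℂ)).im =
      2 * Real.pi * (w a z / (w a z + w b z)) := by
    generalize w a z / (w a z + w b z) = t
    simp
  apply log_exp
  · rw [e]; nlinarith
  · rw [e]; nlinarith

theorem bary_contOn (hc : Col S) (h : Wt S ε w) (a : Fin 5) : ContinuousOn (bary w a) (X3 S)ᶜ := by
  unfold bary
  refine continuousOn_const.mul (continuous_ofReal.comp_continuousOn ?_)
  refine (h.cont a).continuousOn.div (continuous_finsetSum _ fun c _ => h.cont c).continuousOn ?_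
  intro z hz
  obtain ⟨c, hzc⟩ := hc.cov z
  exact ((h.pos c z hz hzc).trans_le
    (Finset.single_le_sum (f := fun c => w c z) (fun c _ => h.nonneg c z) (Finset.mem_univ c))).ne'

/-- the edge `uv` is removable at `x` -/
def Rm (S : Fin 5 → Set ℂ) (w : Fin 5 → ℂ → ℝ) (u v : Fin 5) (x : ℂ) : Prop :=
  Rem (X3 S) (om w u v) x

theorem Rm.symm (h : Wt S ε w) {u v : Fin 5} {x : ℂ} (r : Rm S w u v x) : Rm S w v u x := by
  refine ((rem_one (X3 S) x).div r).congr (Eventually.of_forall fun z _ => ?_)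
  rw [div_eq_iff (om_ne_zero _ _ _), om_symm v u z h]

theorem rm_triv (h : Wt S ε w) {u : Fin 5} (v : Fin 5) {x : ℂ} (hx : x ∈ X3 S) (hu : x ∉ S u) :
    Rm S w u v x :=
  (rem_one (X3 S) x).congr ((h.loc u x hx hu).mono fun _ hz _ => (om_one (Or.inl hz)).symm)

theorem rm_vertex (hc : Col S) (h : Wt S ε w) {a b : Fin 5} (hab : a ≠ b) {x : ℂ}
    (r : ∀ v, v ≠ a → v ≠ b → Rm S w a v x) : Rm S w a b x := by
  refine ((rem_exp (bary_contOn hc h a) x).div (rem_prod ((Finset.univ.erase a).erase b)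
    (f := fun v => om w a v) fun v hv => r v (Finset.ne_of_mem_erase (Finset.mem_of_mem_erase hv))
      (Finset.ne_of_mem_erase hv))).congr (Eventually.of_forall fun z _ => ?_)
  rw [div_eq_iff (Finset.prod_ne_zero_iff.mpr fun v _ => om_ne_zero _ _ _), ← om_prod h,
    Finset.mul_prod_erase _ (fun v => om w a v z) (Finset.mem_erase.mpr ⟨hab.symm, Finset.mem_univ _⟩)]

/-- the essential triple points -/
def Ess (S : Fin 5 → Set ℂ) (w : Fin 5 → ℂ → ℝ) : Set ℂ :=
  {x | x ∈ X3 S ∧ ∃ u v, u ≠ v ∧ ¬ Rm S w u v x}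

theorem ess_closed (hc : Col S) : IsClosed (Ess S w) := by
  have : Ess S w = X3 S ∩ ⋃ u, ⋃ v, ⋃ (_ : u ≠ v), {x | Rem (X3 S) (om w u v) x}ᶜ := by
    ext x; simp [Ess, Rm]
  rw [this]
  exact hc.X3_closed.inter (isClosed_iUnion_of_finite fun u => isClosed_iUnion_of_finite fun v =>
    isClosed_iUnion_of_finite fun _ => (Rem.isOpen _ _).isClosed_compl)

theorem rm_of_not_ess {u v : Fin 5} (huv : u ≠ v) {x : ℂ} (hx : x ∈ X3 S) (he : x ∉ Ess S w) :
    Rm S w u v x := by
  by_contra hh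
  exact he ⟨hx, u, v, huv, hh⟩

theorem rm_td (hc : Col S) (h : Wt S ε w) {u v : Fin 5} (huv : u ≠ v) {x : ℂ} {r : ℝ} (hr : 0 < r)
    (ht : IsTotallyDisconnected (S u ∩ S v ∩ closedBall x r)) : Rm S w u v x := by
  have c1 : IsClosed (S u ∩ S v ∩ closedBall x r) :=
    ((hc.good u).closed.inter (hc.good v).closed).inter isClosed_closedBall
  refine ⟨r / 2, by linarith, fun Z hZ hZs => ?_⟩
  refine patch (X := X3 S ∪ S u ∩ S v ∩ closedBall x r) (isCompact_closedBall x (r / 2))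
    (convex_closedBall _ _) (hc.X3_closed.union c1) (td_union hc.X3_closed c1 hc.X3_td ht)
    ((hc.X3_closed.inter (hc.good u).closed).inter (hc.good v).closed)
    (fun z hz => Or.inl hz.1.1.1) (om_contOn hc h huv) (fun z _ => om_ne_zero _ _ _) ?_ hZ
    fun z hz => ⟨(hZs hz).1, fun g => (hZs hz).2 g.1.1⟩
  intro y hy
  refine ⟨r / 2, by linarith, fun Z' _ hZ' => hasLog_slit
    ((om_contOn hc h huv).mono fun z hz g => (hZ' hz).2 (Or.inl g.1.1)) fun z hz => ?_⟩
  refine om_slit hc h huv fun g => (hZ' hz).2 (Or.inr ⟨g, ?_⟩)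
  have a1 := mem_closedBall.mp (hZ' hz).1
  have a2 := mem_closedBall.mp hy.2
  exact mem_closedBall.mpr (by linarith [dist_triangle z y x])

theorem rm_leaf (hc : Col S) (h : Wt S ε w) {u v : Fin 5} (huv : u ≠ v) {x : ℂ} {r : ℝ} (hr : 0 < r)
    (hiso : ∀ y ∈ closedBall x r, y ≠ x → y ∉ Ess S w) (hx : x ∈ X3 S)
    (hl : ¬ Leaf (S u ∩ S v) x) : Rm S w u v x := by
  refine ⟨r, hr, fun Z hZ hZs => ?_⟩
  have c1 : IsClosed (S u ∩ S v) := (hc.good u).closed.inter (hc.good v).closed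
  have hxZ : x ∈ Zᶜ := fun g => (hZs g).2 hx
  obtain ⟨e, he, heZ⟩ := Metric.isOpen_iff.mp hZ.isClosed.isOpen_compl x hxZ
  obtain ⟨U, hU, hxU, hUc, hUf⟩ := sepOpen (c1.union hc.X3_closed) (x := x) (by
    intro C hC hCc hCp hxC
    by_contra hn
    rw [not_subsingleton_iff] at hn
    exact hl ⟨C, absorb hCc.isClosed hCp hn c1 hc.X3_td hC, hCp, hn, hxC⟩) he
  have hcont : ContinuousOn (om w u v) (X3 S)ᶜ := (om_contOn hc h huv).mono fun z hz g => hz g.1.1
  obtain ⟨ω, g1, g2, g3⟩ := fill hcont (fun z _ => om_ne_zero _ _ _) hU (hasLog_slit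
    (hcont.mono fun z hz g => Set.disjoint_left.mp hUf hz (Or.inr g))
    fun z hz => om_slit hc h huv fun g => Set.disjoint_left.mp hUf hz (Or.inl g))
  refine (patch (isCompact_closedBall x r) (convex_closedBall _ _) hc.X3_closed hc.X3_td
    (hc.X3_closed.sdiff hU) (fun z hz => hz.1.1) g1 g2 ?_ hZ
    fun z hz => ⟨(hZs hz).1, fun g => (hZs hz).2 g.1⟩).congr
    fun z hz => g3 z fun g => heZ (hUc (subset_closure g)) hz
  rintro y ⟨⟨y1, y2⟩, y3⟩
  have hy : y ∉ closure U := fun g =>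
    Set.disjoint_left.mp hUf (by rw [hU.frontier_eq]; exact ⟨g, y2⟩) (Or.inr y1)
  refine Rem.congr (rm_of_not_ess huv y1 (hiso y y3 (by rintro rfl; exact y2 hxU))) ?_
  filter_upwards [isClosed_closure.isOpen_compl.mem_nhds hy] with z hz _
  exact (g3 z fun g => hz (subset_closure g)).symm

theorem all5 : ∀ a b c d e : Fin 5, a ≠ b → a ≠ c → a ≠ d → a ≠ e → b ≠ c → b ≠ d → b ≠ e →
    c ≠ d → c ≠ e → d ≠ e → ∀ f, f = a ∨ f = b ∨ f = c ∨ f = d ∨ f = e := by
  intro a b c d e ab ac ad ae bc bd be cd ce de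
  obtain ⟨m, hm⟩ := rest4 a b c d ab ac ad bc bd cd
  have : e = m := by
    rcases hm e with g | g | g | g | g
    · exact absurd g.symm ae
    · exact absurd g.symm be
    · exact g
    · exact absurd g.symm ce
    · exact absurd g.symm de
  subst this
  intro f
  have := hm f
  tauto

theorem no_isolated (hc : Col S) (h : Wt S ε w) {x : ℂ} {r : ℝ} (hr : 0 < r)
    (hiso : ∀ y ∈ closedBall x r, y ≠ x → y ∉ Ess S w) : x ∉ Ess S w := by
  rintro ⟨hx, a0, a1, h01, n01⟩
  have lf : ∀ u v, u ≠ v → ¬ Rm S w u v x → Leaf (S u ∩ S v) x := fun u v huv hn => by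
    by_contra hl
    exact hn (rm_leaf hc h huv hr hiso hx hl)
  have nx : ∀ u v, u ≠ v → ¬ Rm S w u v x → ∃ t, t ≠ v ∧ t ≠ u ∧ ¬ Rm S w v t x := by
    intro u v huv hn
    by_contra hh
    push Not at hh
    exact hn ((rm_vertex hc h huv.symm hh).symm h)
  have t3 : ∀ a b c, a ≠ b → b ≠ c → c ≠ a → ¬ Rm S w a b x → ¬ Rm S w b c x → ¬ Rm S w c a x →
      False := by
    intro a b c ab bc ca n1 n2 n3
    obtain ⟨d, e, hall⟩ := rest3 a b c ab ca.symm bc
    exact (hc.five hall).tame3 (lf _ _ ab n1) (lf _ _ bc n2) (lf _ _ ca n3)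
  have t4 : ∀ a b c d, a ≠ b → a ≠ c → a ≠ d → b ≠ c → b ≠ d → c ≠ d → ¬ Rm S w a b x →
      ¬ Rm S w b c x → ¬ Rm S w c d x → ¬ Rm S w d a x → False := by
    intro a b c d ab ac ad bc bd cd n1 n2 n3 n4
    obtain ⟨m, hm⟩ := rest4 a b c d ab ac ad bc bd cd
    exact hc.tame4 (m := m) ab ac ad bc bd cd (fun f => by have := hm f; tauto)
      (lf _ _ ab n1) (lf _ _ bc n2) (lf _ _ cd n3) (lf _ _ ad.symm n4)
  obtain ⟨a2, h21, h20, n12⟩ := nx a0 a1 h01 n01
  obtain ⟨a3, h32, h31, n23⟩ := nx a1 a2 h21.symm n12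
  by_cases h30 : a3 = a0
  · subst h30; exact t3 _ _ _ h01 h21.symm h20 n01 n12 n23
  obtain ⟨a4, h43, h42, n34⟩ := nx a2 a3 h32.symm n23
  by_cases h40 : a4 = a0
  · subst h40
    exact t4 _ _ _ _ h01 h20.symm (Ne.symm h30) h21.symm h31.symm h32.symm n01 n12 n23 n34
  by_cases h41 : a4 = a1
  · subst h41; exact t3 _ _ _ h21.symm h32.symm h31 n12 n23 n34
  obtain ⟨a5, h54, h53, n45⟩ := nx a3 a4 h43.symm n34
  have hall := all5 a0 a1 a2 a3 a4 h01 h20.symm (Ne.symm h30) (Ne.symm h40) h21.symm h31.symm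
    (Ne.symm h41) h32.symm h42.symm h43.symm
  rcases hall a5 with rfl | rfl | rfl | rfl | rfl
  · exact hc.tame5 h01 h20.symm (Ne.symm h30) (Ne.symm h40) h21.symm h31.symm
      (Ne.symm h41) h32.symm h42.symm h43.symm hall (lf _ _ h01 n01) (lf _ _ h21.symm n12)
      (lf _ _ h32.symm n23) (lf _ _ h43.symm n34) (lf _ _ h40 n45)
  · exact t4 _ _ _ _ h21.symm h31.symm (Ne.symm h41) h32.symm h42.symm h43.symm n12 n23 n34 n45
  · exact t3 _ _ _ h32.symm h43.symm h42 n23 n34 n45
  · exact h53 rfl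
  · exact h54 rfl

end Vale.Agent.P032
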