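import Vale.Agent.P032.Omega1

/-! The gap lemma and removability along a chain of essential points. -/

namespace Vale.Agent.P032

open Set Metric Complex Filter Topology

variable {S : Fin 5 → Set ℂ} {ε : ℝ} {w : Fin 5 → ℂ → ℝ}

/-- the upper left boundary path of a rectangle -/
def g1 (p p' : ℝ × ℝ) (u : ℝ) : ℝ × ℝ := (p.1 + max 0 (u - (p.1 + p'.2)), min (u - p.1) p'.2)

/-- the lower right boundary path of a rectangle -/
def g2 (p p' : ℝ × ℝ) (u : ℝ) : ℝ × ℝ := (min (u - p.2) p'.1, p.2 + max 0 (u - (p'.1 + p.2)))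

theorem g1_spec {p p' : ℝ × ℝ} (h1 : p.1 < p'.1) (h2 : p.2 < p'.2) {u : ℝ}
    (hu : u ∈ Icc (p.1 + p.2) (p'.1 + p'.2)) : g1 p p' u ∈ Icc p p' ∧
      (g1 p p' u).1 + (g1 p p' u).2 = u ∧ ((g1 p p' u).1 = p.1 ∨ (g1 p p' u).2 = p'.2) := by
  obtain ⟨a, b⟩ := hu
  simp only [g1, mem_Icc, Prod.le_def]
  rcases le_total u (p.1 + p'.2) with g | g
  · rw [max_eq_left (by linarith), min_eq_left (by linarith)]
    exact ⟨⟨⟨by linarith, by linarith⟩, by linarith, by linarith⟩, by ring, Or.inl (by ring)⟩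
  · rw [max_eq_right (by linarith), min_eq_right (by linarith)]
    exact ⟨⟨⟨by linarith, by linarith⟩, by linarith, by linarith⟩, by ring, Or.inr rfl⟩

theorem g2_spec {p p' : ℝ × ℝ} (h1 : p.1 < p'.1) (h2 : p.2 < p'.2) {u : ℝ}
    (hu : u ∈ Icc (p.1 + p.2) (p'.1 + p'.2)) : g2 p p' u ∈ Icc p p' ∧
      (g2 p p' u).1 + (g2 p p' u).2 = u ∧ ((g2 p p' u).2 = p.2 ∨ (g2 p p' u).1 = p'.1) := by
  obtain ⟨a, b⟩ := hu
  simp only [g2, mem_Icc, Prod.le_def]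
  rcases le_total u (p'.1 + p.2) with g | g
  · rw [max_eq_left (by linarith), min_eq_left (by linarith)]
    exact ⟨⟨⟨by linarith, by linarith⟩, by linarith, by linarith⟩, by ring, Or.inl (by ring)⟩
  · rw [max_eq_right (by linarith), min_eq_right (by linarith)]
    exact ⟨⟨⟨by linarith, by linarith⟩, by linarith, by linarith⟩, by ring, Or.inr rfl⟩

theorem g1_eq {p p' y : ℝ × ℝ} (hy : y ∈ Icc p p') (h : y.1 = p.1 ∨ y.2 = p'.2) :
    g1 p p' (y.1 + y.2) = y := by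
  obtain ⟨⟨a, b⟩, c, d⟩ := hy
  rcases h with h | h
  · ext
    · simp only [g1]; rw [max_eq_left (by linarith)]; linarith
    · simp only [g1]; rw [min_eq_left (by linarith)]; linarith
  · ext
    · simp only [g1]; rw [max_eq_right (by linarith)]; linarith
    · simp only [g1]; rw [min_eq_right (by linarith)]; linarith

theorem g2_eq {p p' y : ℝ × ℝ} (hy : y ∈ Icc p p') (h : y.2 = p.2 ∨ y.1 = p'.1) :
    g2 p p' (y.1 + y.2) = y := by
  obtain ⟨⟨a, b⟩, c, d⟩ := hy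
  rcases h with h | h
  · ext
    · simp only [g2]; rw [min_eq_left (by linarith)]; linarith
    · simp only [g2]; rw [max_eq_left (by linarith)]; linarith
  · ext
    · simp only [g2]; rw [min_eq_right (by linarith)]; linarith
    · simp only [g2]; rw [max_eq_right (by linarith)]; linarith

/-- closed rectangle in skew coordinates -/
def Rc (e : ℂ ≃L[ℝ] ℝ × ℝ) (q q' : ℂ) : Set ℂ := e ⁻¹' Icc (e q) (e q')

/-- open rectangle in skew coordinates -/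
def Ro (e : ℂ ≃L[ℝ] ℝ × ℝ) (q q' : ℂ) : Set ℂ :=
  e ⁻¹' (Ioo (e q).1 (e q').1 ×ˢ Ioo (e q).2 (e q').2)

theorem Rc_compact (e : ℂ ≃L[ℝ] ℝ × ℝ) (q q' : ℂ) : IsCompact (Rc e q q') :=
  e.toHomeomorph.isCompact_preimage.mpr isCompact_Icc

theorem Rc_convex (e : ℂ ≃L[ℝ] ℝ × ℝ) (q q' : ℂ) : Convex ℝ (Rc e q q') :=
  (convex_Icc _ _).linear_preimage e.toLinearEquiv.toLinearMap

theorem Ro_open (e : ℂ ≃L[ℝ] ℝ × ℝ) (q q' : ℂ) : IsOpen (Ro e q q') :=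
  (isOpen_Ioo.prod isOpen_Ioo).preimage e.continuous

theorem Ro_sub (e : ℂ ≃L[ℝ] ℝ × ℝ) (q q' : ℂ) : Ro e q q' ⊆ Rc e q q' :=
  fun _ hz => ⟨⟨hz.1.1.le, hz.2.1.le⟩, hz.1.2.le, hz.2.2.le⟩

/-- an edge links the corners of a rectangle -/
def Linked (S : Fin 5 → Set ℂ) (e : ℂ ≃L[ℝ] ℝ × ℝ) (a v : Fin 5) (q q' : ℂ) : Prop :=
  ∃ C ⊆ S a ∩ S v ∩ Rc e q q' ∪ {q, q'}, IsCompact C ∧ IsPreconnected C ∧ q ∈ C ∧ q' ∈ C

theorem gap_unlinked (hc : Col S) (h : Wt S ε w) {a v : Fin 5} (hav : a ≠ v) (e : ℂ ≃L[ℝ] ℝ × ℝ)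
    {q q' : ℂ} (h1 : (e q).1 < (e q').1) (h2 : (e q).2 < (e q').2)
    (hess : ∀ y ∈ Rc e q q', y ∈ Ess S w → y = q ∨ y = q')
    (hfree : ∀ z ∈ Rc e q q', z ∉ Ro e q q' → z ≠ q → z ≠ q' → z ∉ S a)
    (hq : q ∈ X3 S) (hq' : q' ∈ X3 S) (hun : ¬ Linked S e a v q q') {Z : Set ℂ} (hZ : IsCompact Z)
    (hZs : Z ⊆ Rc e q q' \ X3 S) :
    ∃ ψ : ℂ → ℂ, ContinuousOn ψ Z ∧ (∀ z ∈ Z, exp (ψ z) = om w a v z) ∧
      ∀ z ∈ Z, z ∉ Ro e q q' → ψ z = log (om w a v z) := by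
  set σ : ℂ → ℝ := fun z => (e z).1 + (e z).2 with hσ
  have σc : Continuous σ := by rw [hσ]; fun_prop
  set γ₁ : ℝ → ℂ := fun u => e.symm (g1 (e q) (e q') u) with hγ₁
  set γ₂ : ℝ → ℂ := fun u => e.symm (g2 (e q) (e q') u) with hγ₂
  have c1 : Continuous γ₁ := by rw [hγ₁]; unfold g1; fun_prop
  have c2 : Continuous γ₂ := by rw [hγ₂]; unfold g2; fun_prop
  have hqR : q ∈ Rc e q q' := ⟨le_rfl, h1.le, h2.le⟩
  have hqR' : q' ∈ Rc e q q' := ⟨⟨h1.le, h2.le⟩, le_rfl⟩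
  have s1 : ∀ u ∈ Icc (σ q) (σ q'), γ₁ u ∈ Rc e q q' ∧ σ (γ₁ u) = u ∧ γ₁ u ∉ Ro e q q' := by
    intro u hu
    obtain ⟨a1, a2, a3⟩ := g1_spec h1 h2 hu
    simp only [hγ₁, hσ, Rc, Ro, mem_preimage, ContinuousLinearEquiv.apply_symm_apply]
    refine ⟨a1, a2, fun g => ?_⟩
    rcases a3 with a3 | a3
    · exact g.1.1.ne' a3
    · exact g.2.2.ne a3
  have s2 : ∀ u ∈ Icc (σ q) (σ q'), γ₂ u ∈ Rc e q q' ∧ σ (γ₂ u) = u ∧ γ₂ u ∉ Ro e q q' := by
    intro u hu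
    obtain ⟨a1, a2, a3⟩ := g2_spec h1 h2 hu
    simp only [hγ₂, hσ, Rc, Ro, mem_preimage, ContinuousLinearEquiv.apply_symm_apply]
    refine ⟨a1, a2, fun g => ?_⟩
    rcases a3 with a3 | a3
    · exact g.2.1.ne' a3
    · exact g.1.2.ne a3
  have bd : ∀ z ∈ Rc e q q', z ∉ Ro e q q' → γ₁ (σ z) = z ∨ γ₂ (σ z) = z := by
    intro z hz hz'
    by_cases g : (e z).1 = (e q).1 ∨ (e z).2 = (e q').2
    · left; simp only [hγ₁, hσ]; rw [g1_eq hz g]; simp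
    · right
      simp only [hγ₂, hσ]
      rw [g2_eq hz ?_]
      · simp
      by_contra g'
      push Not at g g'
      exact hz' ⟨⟨lt_of_le_of_ne hz.1.1 g.1.symm, lt_of_le_of_ne hz.2.1 g'.2⟩,
        lt_of_le_of_ne hz.1.2 g'.1.symm, lt_of_le_of_ne hz.2.2 g.2⟩
  have e1 : γ₁ (σ q) = q := by simp only [hγ₁, hσ]; rw [g1_eq hqR (Or.inl rfl)]; simp
  have e2 : γ₂ (σ q) = q := by simp only [hγ₂, hσ]; rw [g2_eq hqR (Or.inl rfl)]; simp
  have e1' : γ₁ (σ q') = q' := by simp only [hγ₁, hσ]; rw [g1_eq hqR' (Or.inr rfl)]; simp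
  have e2' : γ₂ (σ q') = q' := by simp only [hγ₂, hσ]; rw [g2_eq hqR' (Or.inr rfl)]; simp
  have σlt : σ q < σ q' := by simp only [hσ]; linarith
  have σin : ∀ z ∈ Rc e q q', z ≠ q → z ≠ q' → σ q < σ z ∧ σ z < σ q' := by
    intro z hz n1 n2
    obtain ⟨⟨a1, a2⟩, a3, a4⟩ := hz
    simp only [hσ]
    constructor
    · by_contra g
      exact n1 (e.injective (Prod.ext (by linarith) (by linarith)))
    · by_contra g
      exact n2 (e.injective (Prod.ext (by linarith) (by linarith)))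
  set uu : ℝ → ℝ := fun t => σ q + t * (σ q' - σ q) with huu
  have uin : ∀ t ∈ Icc (0 : ℝ) 1, uu t ∈ Icc (σ q) (σ q') := by
    intro t ht
    simp only [huu]
    constructor <;> nlinarith [ht.1, ht.2]
  set Ψ : ℝ × ℝ → ℂ := fun p => (1 - p.1) • γ₁ (uu p.2) + p.1 • γ₂ (uu p.2) with hΨ
  have hΨc : Continuous Ψ := by rw [hΨ, huu]; fun_prop
  have hΨR : Ψ '' sq ⊆ Rc e q q' := by
    rintro _ ⟨p, hp, rfl⟩
    exact Rc_convex e q q' (s1 _ (uin _ hp.2)).1 (s2 _ (uin _ hp.2)).1 (by linarith [hp.1.2]) hp.1.1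
      (by ring)
  have hM : IsClosed (S a ∩ S v ∩ Rc e q q') :=
    ((hc.good a).closed.inter (hc.good v).closed).inter (Rc_compact e q q').isClosed
  rcases cross (hM.union (toFinite {q, q'}).isClosed) hΨc with
    ⟨κ, hκ, hκc, hp, ⟨s, -, hs⟩, ⟨t, -, ht⟩⟩ | ⟨κ, hκ, hκc, hp, ⟨s, hs', hs⟩, ⟨t, ht', ht⟩⟩
  · exfalso
    refine hun ⟨κ, hκ.trans inter_subset_left, hκc, hp, ?_, ?_⟩
    · have : Ψ (s, 0) = q := by
        simp only [hΨ, huu, zero_mul, add_zero, e1, e2]; rw [← add_smul]; simp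
      rwa [this] at hs
    · have : Ψ (t, 1) = q' := by
        simp only [hΨ, huu, one_mul, add_sub_cancel, e1', e2']; rw [← add_smul]; simp
      rwa [this] at ht
  have hs1 : γ₁ (uu s) ∈ κ := by simpa [hΨ] using hs
  have ht1 : γ₂ (uu t) ∈ κ := by simpa [hΨ] using ht
  have hZκ : ∀ z ∈ Z ∪ κ, z ∈ Rc e q q' ∧ z ≠ q ∧ z ≠ q' := by
    rintro z (hz | hz)
    · exact ⟨(hZs hz).1, by rintro rfl; exact (hZs hz).2 hq, by rintro rfl; exact (hZs hz).2 hq'⟩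
    · exact ⟨hΨR (hκ hz).2, by rintro rfl; exact (hκ hz).1 (Or.inr (Or.inl rfl)),
        by rintro rfl; exact (hκ hz).1 (Or.inr (Or.inr rfl))⟩
  obtain ⟨m, hm, hm'⟩ := (hZ.union hκc).exists_isMinOn ⟨_, Or.inr hs1⟩ σc.continuousOn
  obtain ⟨n, hn, hn'⟩ := (hZ.union hκc).exists_isMaxOn ⟨_, Or.inr hs1⟩ σc.continuousOn
  have m0 : σ q < σ m := (σin m (hZκ m hm).1 (hZκ m hm).2.1 (hZκ m hm).2.2).1
  have n0 : σ n < σ q' := (σin n (hZκ n hn).1 (hZκ n hn).2.1 (hZκ n hn).2.2).2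
  have inI : ∀ z ∈ Z ∪ κ, σ z ∈ Icc (σ m) (σ n) := fun z hz => ⟨hm' hz, hn' hz⟩
  have sub : Icc (σ m) (σ n) ⊆ Icc (σ q) (σ q') := Icc_subset_Icc m0.le n0.le
  set T := (γ₁ '' Icc (σ m) (σ n) ∪ κ) ∪ γ₂ '' Icc (σ m) (σ n) with hT
  have Tp : IsPreconnected T := by
    refine IsPreconnected.union (γ₂ (uu t)) (Or.inr ht1) ⟨_, ?_, rfl⟩
      (IsPreconnected.union (γ₁ (uu s)) ⟨_, ?_, rfl⟩ hs1
        (isPreconnected_Icc.image _ c1.continuousOn) hp) (isPreconnected_Icc.image _ c2.continuousOn)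
    · have := inI _ (Or.inr ht1); rwa [(s2 _ (uin t ht')).2.1] at this
    · have := inI _ (Or.inr hs1); rwa [(s1 _ (uin s hs')).2.1] at this
  have Tc : IsCompact T := ((isCompact_Icc.image c1).union hκc).union (isCompact_Icc.image c2)
  have TD : ∀ z ∈ T, z ∈ Rc e q q' ∧ σ z ∈ Icc (σ m) (σ n) ∧ z ∉ S a ∩ S v := by
    rintro z ((⟨u, hu, rfl⟩ | hz) | ⟨u, hu, rfl⟩)
    · obtain ⟨a1, a2, a3⟩ := s1 u (sub hu)
      refine ⟨a1, by rwa [a2], fun g => hfree _ a1 a3 ?_ ?_ g.1⟩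
      · intro g; rw [g] at a2; linarith [hu.1]
      · intro g; rw [g] at a2; linarith [hu.2]
    · exact ⟨hΨR (hκ hz).2, inI _ (Or.inr hz), fun g => (hκ hz).1 (Or.inl ⟨g, hΨR (hκ hz).2⟩)⟩
    · obtain ⟨a1, a2, a3⟩ := s2 u (sub hu)
      refine ⟨a1, by rwa [a2], fun g => hfree _ a1 a3 ?_ ?_ g.1⟩
      · intro g; rw [g] at a2; linarith [hu.1]
      · intro g; rw [g] at a2; linarith [hu.2]
  have σconv : Convex ℝ (σ ⁻¹' Icc (σ m) (σ n)) :=
    (convex_Icc (σ m) (σ n)).linear_preimage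
      ((LinearMap.fst ℝ ℝ ℝ + LinearMap.snd ℝ ℝ ℝ).comp e.toLinearEquiv.toLinearMap)
  obtain ⟨φ, φc, hφ⟩ := patch (ω := om w a v) (D := Rc e q q' ∩ σ ⁻¹' Icc (σ m) (σ n))
    ((Rc_compact e q q').inter_right (isClosed_Icc.preimage σc)) ((Rc_convex e q q').inter σconv)
    hc.X3_closed hc.X3_td ((hc.X3_closed.inter (hc.good a).closed).inter (hc.good v).closed)
    (fun z hz => hz.1.1.1) (om_contOn hc h hav) (fun z _ => om_ne_zero _ _ _) (by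
      rintro y ⟨y1, y2, y3⟩
      refine rm_of_not_ess hav y1.1.1 fun g => ?_
      rcases hess y y2 g with rfl | rfl
      · linarith [y3.1]
      · linarith [y3.2]) (hZ.union Tc) (by
      rintro z (hz | hz)
      · exact ⟨⟨(hZs hz).1, inI _ (Or.inl hz)⟩, fun g => (hZs hz).2 g.1.1⟩
      · exact ⟨⟨(TD z hz).1, (TD z hz).2.1⟩, fun g => (TD z hz).2.2 ⟨g.1.2, g.2⟩⟩)
  have Tsl : ∀ z ∈ T, om w a v z ∈ slitPlane := fun z hz => om_slit hc h hav (TD z hz).2.2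
  have Tlog : ContinuousOn (fun z => log (om w a v z)) T :=
    ((om_contOn hc h hav).mono fun z hz g => (TD z hz).2.2 ⟨g.1.2, g.2⟩).clog Tsl
  have z0 : γ₁ (uu s) ∈ T := Or.inl (Or.inr hs1)
  refine ⟨fun z => φ z - (φ (γ₁ (uu s)) - log (om w a v (γ₁ (uu s)))),
    (φc.mono subset_union_left).sub continuousOn_const, fun z hz => ?_, fun z hz hz' => ?_⟩
  · rw [exp_sub, exp_sub, hφ _ (Or.inl hz), hφ _ (Or.inr z0), exp_log (om_ne_zero _ _ _),
      div_self (om_ne_zero _ _ _), div_one]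
  · have zT : z ∈ T := by
      rcases bd z (hZs hz).1 hz' with g | g
      · exact Or.inl (Or.inl ⟨_, inI _ (Or.inl hz), g⟩)
      · exact Or.inr ⟨_, inI _ (Or.inl hz), g⟩
    have := const_of_exp_eq Tp (φc.mono subset_union_right) Tlog
      (fun y hy => by rw [hφ y (Or.inr hy), exp_log (om_ne_zero _ _ _)]) zT z0
    simp only
    rw [← this]; ring

theorem gap_all (hc : Col S) (h : Wt S ε w) {a v : Fin 5} (hav : a ≠ v) (e : ℂ ≃L[ℝ] ℝ × ℝ)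
    {q q' : ℂ} (h1 : (e q).1 < (e q').1) (h2 : (e q).2 < (e q').2)
    (hess : ∀ y ∈ Rc e q q', y ∈ Ess S w → y = q ∨ y = q')
    (hfree : ∀ z ∈ Rc e q q', z ∉ Ro e q q' → z ≠ q → z ≠ q' → z ∉ S a)
    (hq : q ∈ X3 S) (hq' : q' ∈ X3 S) {Z : Set ℂ} (hZ : IsCompact Z)
    (hZs : Z ⊆ Rc e q q' \ X3 S) :
    ∃ ψ : ℂ → ℂ, ContinuousOn ψ Z ∧ (∀ z ∈ Z, exp (ψ z) = om w a v z) ∧
      ∀ z ∈ Z, z ∉ Ro e q q' → ψ z = log (om w a v z) := by
  by_cases hl : Linked S e a v q q'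
  swap
  · exact gap_unlinked hc h hav e h1 h2 hess hfree hq hq' hl hZ hZs
  have hne : q ≠ q' := by rintro rfl; exact lt_irrefl _ h1
  have ab : ∀ u, Linked S e a u q q' → ∃ C ⊆ S a ∩ S u, IsPreconnected C ∧ q ∈ C ∧ q' ∈ C := by
    rintro u ⟨C, c1, c2, c3, c4, c5⟩
    exact ⟨C, (absorb c2.isClosed c3 ⟨q, c4, q', c5, hne⟩ (((hc.good a).closed.inter
      (hc.good u).closed).inter (Rc_compact e q q').isClosed)
      (toFinite {q, q'}).countable.isTotallyDisconnected c1).trans inter_subset_left, c3, c4, c5⟩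
  have hu : ∀ u ∈ (Finset.univ.erase a).erase v, ∃ ψ : ℂ → ℂ, ContinuousOn ψ Z ∧
      (∀ z ∈ Z, exp (ψ z) = om w a u z) ∧ ∀ z ∈ Z, z ∉ Ro e q q' → ψ z = log (om w a u z) := by
    intro u hu
    have ua : u ≠ a := Finset.ne_of_mem_erase (Finset.mem_of_mem_erase hu)
    have uv : u ≠ v := Finset.ne_of_mem_erase hu
    refine gap_unlinked hc h ua.symm e h1 h2 hess hfree hq hq' (fun g => hne ?_) hZ hZs
    obtain ⟨C, c1, c2, c3, c4⟩ := ab u g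
    obtain ⟨C', c1', c2', c3', c4'⟩ := ab v hl
    obtain ⟨d, f, hall⟩ := rest3 a u v ua.symm hav uv
    exact (hc.five hall).p2 (c1.trans inter_subset_left) (c1.trans inter_subset_right)
      (c1'.trans inter_subset_right) c2 c2 c2' c3 c3 c3' c4 c4 c4'
  choose! ψ ψ1 ψ2 ψ3 using hu
  have hv : v ∈ Finset.univ.erase a := Finset.mem_erase.mpr ⟨hav.symm, Finset.mem_univ _⟩
  refine ⟨fun z => bary w a z - ∑ u ∈ (Finset.univ.erase a).erase v, ψ u z,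
    ((bary_contOn hc h a).mono fun z hz => (hZs hz).2).sub (continuousOn_finsetSum _ ψ1),
    fun z hz => ?_, fun z hz hz' => ?_⟩
  · rw [exp_sub, exp_sum, ← om_prod h, Finset.prod_congr rfl fun u hu => ψ2 u hu z hz,
      ← Finset.mul_prod_erase _ (fun v => om w a v z) hv,
      mul_div_cancel_right₀ _ (Finset.prod_ne_zero_iff.mpr fun v _ => om_ne_zero _ _ _)]
  · have za : z ∉ S a := hfree z (hZs hz).1 hz' (by rintro rfl; exact (hZs hz).2 hq)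
      (by rintro rfl; exact (hZs hz).2 hq')
    simp only
    rw [← om_log_sum hc h (hZs hz).2 za, Finset.sum_congr rfl fun u hu => ψ3 u hu z hz hz',
      ← Finset.add_sum_erase _ (fun v => log (om w a v z)) hv]
    ring

theorem cone_rm (hc : Col S) (h : Wt S ε w) {a v : Fin 5} (hav : a ≠ v) (e : ℂ ≃L[ℝ] ℝ × ℝ)
    {x x₁ x₂ : ℂ} (hx₁ : x₁ ∈ Ess S w) (hx₂ : x₂ ∈ Ess S w) (hx : x ∈ Ro e x₁ x₂)
    (hcone : ∀ q ∈ Rc e x₁ x₂, q ∈ Ess S w → q ∈ S a ∧ ∀ z ∈ Rc e x₁ x₂, z ≠ q →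
      ((e z).1 - (e q).1) * ((e z).2 - (e q).2) ≤ 0 → z ∉ S a) : Rm S w a v x := by
  classical
  set D := Rc e x₁ x₂ with hD
  have l1 : (e x₁).1 < (e x₂).1 := hx.1.1.trans hx.1.2
  have l2 : (e x₁).2 < (e x₂).2 := hx.2.1.trans hx.2.2
  have x1D : x₁ ∈ D := ⟨le_rfl, l1.le, l2.le⟩
  have x2D : x₂ ∈ D := ⟨⟨l1.le, l2.le⟩, le_rfl⟩
  have cmp : ∀ q ∈ D, q ∈ Ess S w → ∀ z ∈ D, z ∈ S a → z = q ∨
      ((e q).1 < (e z).1 ∧ (e q).2 < (e z).2) ∨ ((e z).1 < (e q).1 ∧ (e z).2 < (e q).2) := by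
    intro q hq hq' z hz za
    by_cases g : z = q
    · exact Or.inl g
    right
    have : 0 < ((e z).1 - (e q).1) * ((e z).2 - (e q).2) := by
      by_contra g'
      exact (hcone q hq hq').2 z hz g (not_lt.mp g') za
    rcases pos_and_pos_or_neg_and_neg_of_mul_pos this with ⟨a1, a2⟩ | ⟨a1, a2⟩
    · exact Or.inl ⟨by linarith, by linarith⟩
    · exact Or.inr ⟨by linarith, by linarith⟩
  let Gap : ℂ × ℂ → Prop := fun g => g.1 ∈ D ∧ g.1 ∈ Ess S w ∧ g.2 ∈ D ∧ g.2 ∈ Ess S w ∧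
    (e g.1).1 < (e g.2).1 ∧ (e g.1).2 < (e g.2).2 ∧
    ∀ y ∈ Rc e g.1 g.2, y ∈ Ess S w → y = g.1 ∨ y = g.2
  have subD : ∀ q ∈ D, ∀ q' ∈ D, Rc e q q' ⊆ D := fun q hq q' hq' z hz =>
    ⟨hq.1.trans hz.1, hz.2.trans hq'.2⟩
  have hP : Continuous fun z => (e z).1 := by fun_prop
  have hE : IsCompact (D ∩ Ess S w) := (Rc_compact e _ _).inter_right (ess_closed hc)
  have gex : ∀ z ∈ D, z ∈ S a → z ∉ Ess S w → ∃ g, Gap g ∧ z ∈ Ro e g.1 g.2 := by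
    intro z hz za ze
    obtain ⟨q, ⟨⟨q1, q2⟩, q3⟩, q4⟩ := (hE.inter_right (isClosed_le hP continuous_const :
      IsClosed {y | (e y).1 ≤ (e z).1})).exists_isMaxOn ⟨x₁, ⟨x1D, hx₁⟩, hz.1.1⟩ hP.continuousOn
    obtain ⟨p, ⟨⟨p1, p2⟩, p3⟩, p4⟩ := (hE.inter_right (isClosed_le continuous_const hP :
      IsClosed {y | (e z).1 ≤ (e y).1})).exists_isMinOn ⟨x₂, ⟨x2D, hx₂⟩, hz.2.1⟩ hP.continuousOn
    simp only [mem_ofPred_eq] at q3 p3
    have a1 : (e q).1 < (e z).1 ∧ (e q).2 < (e z).2 := by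
      rcases cmp q q1 q2 z hz za with g | g | g
      · exact absurd (g ▸ q2) ze
      · exact g
      · linarith [g.1]
    have a2 : (e z).1 < (e p).1 ∧ (e z).2 < (e p).2 := by
      rcases cmp p p1 p2 z hz za with g | g | g
      · exact absurd (g ▸ p2) ze
      · linarith [g.1]
      · exact g
    refine ⟨(q, p), ⟨q1, q2, p1, p2, a1.1.trans a2.1, a1.2.trans a2.2, fun y hy ye => ?_⟩,
      ⟨a1.1, a2.1⟩, a1.2, a2.2⟩
    have yD := subD q q1 p p1 hy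
    have ya := (hcone y yD ye).1
    rcases le_total (e y).1 (e z).1 with g | g
    · have b1 : (e y).1 ≤ (e q).1 := q4 ⟨⟨yD, ye⟩, g⟩
      have b2 : (e q).1 ≤ (e y).1 := hy.1.1
      rcases cmp q q1 q2 y yD ya with g | g | g
      · exact Or.inl g
      · linarith [g.1]
      · linarith [g.1]
    · have b1 : (e p).1 ≤ (e y).1 := p4 ⟨⟨yD, ye⟩, g⟩
      have b2 : (e y).1 ≤ (e p).1 := hy.2.1
      rcases cmp p p1 p2 y yD ya with g | g | g
      · exact Or.inr g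
      · linarith [g.1]
      · linarith [g.1]
  have gdis : ∀ g g', Gap g → Gap g' → ∀ z, z ∈ Ro e g.1 g.2 → z ∈ Rc e g'.1 g'.2 → g = g' := by
    rintro ⟨p, p'⟩ ⟨q, q'⟩ ⟨p1, p2, p3, p4, p5, p6, p7⟩ ⟨q1, q2, q3, q4, q5, q6, q7⟩ z
      ⟨⟨a1, a2⟩, a3, a4⟩ ⟨⟨b1, b2⟩, b3, b4⟩
    simp only at *
    have e1 : p = q := by
      rcases cmp q q1 q2 p p1 (hcone p p1 p2).1 with g | g | g
      · exact g
      · rcases q7 p ⟨⟨g.1.le, g.2.le⟩, by linarith, by linarith⟩ p2 with g' | g'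
        · exact g'
        · rw [g'] at a1; linarith
      · rcases p7 q ⟨⟨g.1.le, g.2.le⟩, by linarith, by linarith⟩ q2 with g' | g'
        · exact g'.symm
        · rw [g'] at b1; linarith
    have e2 : p' = q' := by
      rcases cmp q' q3 q4 p' p3 (hcone p' p3 p4).1 with g | g | g
      · exact g
      · rcases p7 q' ⟨⟨by linarith, by linarith⟩, g.1.le, g.2.le⟩ q4 with g' | g'
        · rw [g'] at b3; linarith
        · exact g'.symm
      · rcases q7 p' ⟨⟨by linarith, by linarith⟩, g.1.le, g.2.le⟩ p4 with g' | g'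
        · rw [g'] at a2; linarith
        · exact g'
    rw [e1, e2]
  have ind : ∀ t : Finset (ℂ × ℂ), (∀ g ∈ t, Gap g) → ∀ Z, IsCompact Z → Z ⊆ D \ X3 S →
      (∀ z ∈ Z, z ∈ S a → ∃ g ∈ t, z ∈ Ro e g.1 g.2) →
      ∃ φ : ℂ → ℂ, ContinuousOn φ Z ∧ (∀ z ∈ Z, exp (φ z) = om w a v z) ∧
        ∀ z ∈ Z, (∀ g ∈ t, z ∉ Ro e g.1 g.2) → φ z = log (om w a v z) := by
    intro t
    induction t using Finset.induction_on with
    | empty =>
      intro _ Z _ hZs hZa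
      refine ⟨fun z => log (om w a v z), ContinuousOn.clog
        ((om_contOn hc h hav).mono fun z hz g => (hZs hz).2 g.1.1) fun z hz =>
          om_slit hc h hav fun g => ?_, fun z _ => exp_log (om_ne_zero _ _ _), fun _ _ _ => rfl⟩
      obtain ⟨_, hg, -⟩ := hZa z hz g.1
      simp at hg
    | insert g t hg ih =>
      intro ht Z hZ hZs hZa
      have Gg := ht g (Finset.mem_insert_self _ _)
      obtain ⟨φ, φ1, φ2, φ3⟩ := ih (fun g' hg' => ht g' (Finset.mem_insert_of_mem hg'))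
        (Z \ Ro e g.1 g.2) (hZ.diff (Ro_open _ _ _)) (sdiff_subset.trans hZs) (by
          intro z hz za
          obtain ⟨g', a1, a2⟩ := hZa z hz.1 za
          rcases Finset.mem_insert.mp a1 with rfl | a1
          · exact absurd a2 hz.2
          · exact ⟨g', a1, a2⟩)
      obtain ⟨p1, p2, p3, p4, p5, p6, p7⟩ := Gg
      obtain ⟨ψ, ψ1, ψ2, ψ3⟩ := gap_all hc h hav e p5 p6 p7 (by
          intro z hz hz' n1 n2 za
          have zD := subD _ p1 _ p3 hz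
          obtain ⟨⟨a1, a2⟩, a3, a4⟩ := hz
          apply hz'
          rcases cmp _ p1 p2 z zD za with g1 | g1 | g1
          · exact absurd g1 n1
          · rcases cmp _ p3 p4 z zD za with g2 | g2 | g2
            · exact absurd g2 n2
            · linarith [g2.1]
            · exact ⟨⟨g1.1, g2.1⟩, g1.2, g2.2⟩
          · linarith [g1.1]) p2.1 p4.1 (Z := Z ∩ Rc e g.1 g.2)
        (hZ.inter_right (Rc_compact _ _ _).isClosed) fun z hz => ⟨hz.2, (hZs hz.1).2⟩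
      have agree : ∀ z ∈ Z, z ∉ Ro e g.1 g.2 → z ∈ Rc e g.1 g.2 → ψ z = φ z := by
        intro z hz n1 n2
        rw [ψ3 z ⟨hz, n2⟩ n1, φ3 z ⟨hz, n1⟩ fun g' hg' n3 => hg ?_]
        rw [← gdis g' g (ht g' (Finset.mem_insert_of_mem hg'))
          (ht g (Finset.mem_insert_self _ _)) z n3 n2]
        exact hg'
      refine ⟨(Rc e g.1 g.2).piecewise ψ φ, ?_, fun z hz => ?_, fun z hz hn => ?_⟩
      · have : Z = (Z ∩ Rc e g.1 g.2) ∪ (Z \ Ro e g.1 g.2) := by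
          ext z
          constructor
          · intro hz
            by_cases g' : z ∈ Ro e g.1 g.2
            · exact Or.inl ⟨hz, Ro_sub _ _ _ g'⟩
            · exact Or.inr ⟨hz, g'⟩
          · rintro (hz | hz) <;> exact hz.1
        rw [this]
        refine ContinuousOn.union_of_isClosed (ψ1.congr fun z hz => piecewise_eq_of_mem _ _ _ hz.2)
          (φ1.congr fun z hz => ?_) (hZ.inter_right (Rc_compact _ _ _).isClosed).isClosed
          (hZ.diff (Ro_open _ _ _)).isClosed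
        by_cases g' : z ∈ Rc e g.1 g.2
        · rw [piecewise_eq_of_mem _ _ _ g', agree z hz.1 hz.2 g']
        · rw [piecewise_eq_of_notMem _ _ _ g']
      · by_cases g' : z ∈ Rc e g.1 g.2
        · rw [piecewise_eq_of_mem _ _ _ g', ψ2 z ⟨hz, g'⟩]
        · rw [piecewise_eq_of_notMem _ _ _ g', φ2 z ⟨hz, fun g'' => g' (Ro_sub _ _ _ g'')⟩]
      · have n1 := hn g (Finset.mem_insert_self _ _)
        by_cases g' : z ∈ Rc e g.1 g.2
        · rw [piecewise_eq_of_mem _ _ _ g', ψ3 z ⟨hz, g'⟩ n1]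
        · rw [piecewise_eq_of_notMem _ _ _ g',
            φ3 z ⟨hz, n1⟩ fun g' hg' => hn g' (Finset.mem_insert_of_mem hg')]
  obtain ⟨r, hr, hb⟩ := Metric.isOpen_iff.mp (Ro_open e x₁ x₂) x hx
  refine ⟨r / 2, by linarith, fun Z hZ hZs => ?_⟩
  have hZD : Z ⊆ D \ X3 S := fun z hz =>
    ⟨Ro_sub _ _ _ (hb (closedBall_subset_ball (by linarith) (hZs hz).1)), (hZs hz).2⟩
  have : ∀ z ∈ Z ∩ S a, ∃ g, Gap g ∧ z ∈ Ro e g.1 g.2 := fun z hz =>
    gex z (hZD hz.1).1 hz.2 fun g => (hZD hz.1).2 g.1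
  choose! G G1 G2 using this
  obtain ⟨t, t1, t2⟩ := (hZ.inter_right (hc.good a).closed).elim_nhds_subcover
    (fun z => Ro e (G z).1 (G z).2) fun z hz => (Ro_open _ _ _).mem_nhds (G2 z hz)
  obtain ⟨φ, φ1, φ2, -⟩ := ind (t.image G) (by
      intro g hg
      obtain ⟨z, hz, rfl⟩ := Finset.mem_image.mp hg
      exact G1 z (t1 z hz)) Z hZ hZD (by
      intro z hz za
      obtain ⟨y, hy, hy'⟩ := mem_iUnion₂.mp (t2 ⟨hz, za⟩)
      exact ⟨G y, Finset.mem_image_of_mem _ hy, hy'⟩)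
  exact ⟨φ, φ1, φ2⟩

end Vale.Agent.P032
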