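import Vale.Agent.P032.Omega2

/-! There are no essential triple points. -/

namespace Vale.Agent.P032

open Set Metric Complex Filter Topology

variable {S : Fin 5 → Set ℂ} {ε : ℝ} {w : Fin 5 → ℂ → ℝ}

theorem local_cone (hc : Col S) (h : Wt S ε w) {a b : Fin 5} {x₀ : ℂ} {θ : ℝ}
    (hev : ∀ᶠ z in 𝓝 (x₀ + ee θ), z ∈ S a ∨ z ∈ S b)
    (hI : ∀ᶠ q in 𝓝 x₀, q ∈ Ess S w → q ∈ S a ∧ q ∈ S b) :
    ∃ N : Set ℂ, N.Finite ∧ ∀ᶠ x in 𝓝 x₀, x ∈ Ess S w → x ∉ N →
      (∀ v, a ≠ v → Rm S w a v x) ∧ ∀ v, b ≠ v → Rm S w b v x := by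
  obtain ⟨e, δ, hδ, hcone⟩ := cones (hc.good a) (hc.good b) hev
  have e1 : ∀ᶠ p in 𝓝 (e x₀), e.symm p ∈ ball x₀ δ ∧
      (e.symm p ∈ Ess S w → e.symm p ∈ S a ∧ e.symm p ∈ S b) := by
    have := e.symm.continuous.tendsto (e x₀)
    rw [e.symm_apply_apply] at this
    exact this.eventually ((show ∀ᶠ z in 𝓝 x₀, z ∈ ball x₀ δ from ball_mem_nhds x₀ hδ).and hI)
  obtain ⟨ρ, hρ, hb⟩ := Metric.eventually_nhds_iff_ball.mp e1
  set Λ := e ⁻¹' ball (e x₀) ρ with hΛ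
  have Λ1 : ∀ z ∈ Λ, z ∈ ball x₀ δ ∧ (z ∈ Ess S w → z ∈ S a ∧ z ∈ S b) := by
    intro z hz
    simpa using hb _ hz
  have Λ2 : ∀ q ∈ Λ, ∀ q' ∈ Λ, Rc e q q' ⊆ Λ := by
    intro q hq q' hq' z ⟨⟨a1, a2⟩, a3, a4⟩
    simp only [hΛ, mem_preimage, mem_ball, Prod.dist_eq, max_lt_iff, Real.dist_eq, abs_lt] at hq hq' ⊢
    exact ⟨⟨by linarith [hq.1.1], by linarith [hq'.1.2]⟩, by linarith [hq.2.1], by linarith [hq'.2.2]⟩
  have cmp : ∀ q ∈ Λ, q ∈ Ess S w → ∀ z ∈ Λ, z ∈ Ess S w → z ≠ q →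
      0 < ((e z).1 - (e q).1) * ((e z).2 - (e q).2) := by
    intro q hq hq' z hz hz' hne
    by_contra g
    exact (hcone q (Λ1 q hq).1 ((Λ1 q hq).2 hq').1 ((Λ1 q hq).2 hq').2 z (Λ1 z hz).1 hne
      (not_lt.mp g)).1 ((Λ1 z hz).2 hz').1
  refine ⟨{x | x ∈ Λ ∧ x ∈ Ess S w ∧ ∀ y ∈ Λ, y ∈ Ess S w → (e x).1 ≤ (e y).1} ∪
    {x | x ∈ Λ ∧ x ∈ Ess S w ∧ ∀ y ∈ Λ, y ∈ Ess S w → (e y).1 ≤ (e x).1},
    (Set.Subsingleton.finite ?_).union (Set.Subsingleton.finite ?_), ?_⟩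
  · rintro x ⟨x1, x2, x3⟩ y ⟨y1, y2, y3⟩
    by_contra hne
    have := cmp y y1 y2 x x1 x2 hne
    rw [le_antisymm (x3 y y1 y2) (y3 x x1 x2)] at this
    simp at this
  · rintro x ⟨x1, x2, x3⟩ y ⟨y1, y2, y3⟩
    by_contra hne
    have := cmp y y1 y2 x x1 x2 hne
    rw [le_antisymm (x3 y y1 y2) (y3 x x1 x2)] at this
    simp at this
  filter_upwards [e.continuous.continuousAt.preimage_mem_nhds (ball_mem_nhds (e x₀) hρ)]
    with x hx xe hN
  simp only [mem_union, mem_ofPred_eq, not_or, not_and, not_forall, not_le] at hN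
  obtain ⟨x₁, a1, a2, a3⟩ := hN.1 hx xe
  obtain ⟨x₂, b1, b2, b3⟩ := hN.2 hx xe
  have c1 := cmp x hx xe x₁ a1 a2 (by rintro rfl; exact lt_irrefl _ a3)
  have c2 := cmp x hx xe x₂ b1 b2 (by rintro rfl; exact lt_irrefl _ b3)
  have hxR : x ∈ Ro e x₁ x₂ := ⟨⟨a3, b3⟩, by nlinarith, by nlinarith⟩
  have sub := Λ2 x₁ a1 x₂ b1
  constructor
  · intro v hv
    refine cone_rm hc h hv e a2 b2 hxR fun q hq qe => ⟨((Λ1 q (sub hq)).2 qe).1, fun z hz hne g => ?_⟩
    exact (hcone q (Λ1 q (sub hq)).1 ((Λ1 q (sub hq)).2 qe).1 ((Λ1 q (sub hq)).2 qe).2 z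
      (Λ1 z (sub hz)).1 hne g).1
  · intro v hv
    refine cone_rm hc h hv e a2 b2 hxR fun q hq qe => ⟨((Λ1 q (sub hq)).2 qe).2, fun z hz hne g => ?_⟩
    exact (hcone q (Λ1 q (sub hq)).1 ((Λ1 q (sub hq)).2 qe).1 ((Λ1 q (sub hq)).2 qe).2 z
      (Λ1 z (sub hz)).1 hne g).2

theorem rm_all3 (hc : Col S) (h : Wt S ε w) {a b c : Fin 5} (ab : a ≠ b) (ac : a ≠ c) (bc : b ≠ c)
    {x : ℂ} (ra : ∀ v, a ≠ v → Rm S w a v x) (rb : ∀ v, b ≠ v → Rm S w b v x)
    (rc : ∀ v, c ≠ v → Rm S w c v x) : x ∉ Ess S w := by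
  rintro ⟨-, u, v, huv, hn⟩
  apply hn
  by_cases ua : u = a
  · subst ua; exact ra v huv
  by_cases ub : u = b
  · subst ub; exact rb v huv
  by_cases uc : u = c
  · subst uc; exact rc v huv
  by_cases va : v = a
  · subst va; exact (ra u huv.symm).symm h
  by_cases vb : v = b
  · subst vb; exact (rb u huv.symm).symm h
  by_cases vc : v = c
  · subst vc; exact (rc u huv.symm).symm h
  refine rm_vertex hc h huv fun t tu tv => ?_
  rcases all5 a b c u v ab ac (Ne.symm ua) (Ne.symm va) bc (Ne.symm ub) (Ne.symm vb) (Ne.symm uc)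
    (Ne.symm vc) huv t with rfl | rfl | rfl | rfl | rfl
  · exact (ra u tu).symm h
  · exact (rb u tu).symm h
  · exact (rc u tu).symm h
  · exact absurd rfl tu
  · exact absurd rfl tv

theorem rest3' : ∀ a b c : Fin 5, a ≠ b → a ≠ c → b ≠ c →
    ∃ d e, d ≠ e ∧ ∀ f, f = a ∨ f = b ∨ f = c ∨ f = d ∨ f = e := by decide

theorem tri_rm (hc : Col S) (h : Wt S ε w) {a b c d e : Fin 5} (ab : a ≠ b) (de : d ≠ e)
    (hall : ∀ f, f = a ∨ f = b ∨ f = c ∨ f = d ∨ f = e) {x : ℂ} (hx : x ∈ X3 S) (xb : x ∈ S b)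
    (xd : x ∉ S d) (xe : x ∉ S e) (r : Rm S w b c x) : x ∉ Ess S w := by
  refine rm_all3 hc h (a := d) (b := e) (c := b) de (by rintro rfl; exact xd xb)
    (by rintro rfl; exact xe xb) (fun v _ => rm_triv h v hx xd) (fun v _ => rm_triv h v hx xe) ?_
  intro v hv
  have key : ∀ t, t ≠ b → t ≠ a → Rm S w b t x := by
    intro t tb ta
    rcases hall t with rfl | rfl | rfl | rfl | rfl
    · exact absurd rfl ta
    · exact absurd rfl tb
    · exact r
    · exact (rm_triv h b hx xd).symm h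
    · exact (rm_triv h b hx xe).symm h
  by_cases va : v = a
  · subst va; exact rm_vertex hc h hv key
  · exact key v hv.symm va

theorem ess_empty (hc : Col S) (h : Wt S ε w) (x : ℂ) : x ∉ Ess S w := by
  classical
  intro hx
  set I : ℂ → Finset (Fin 5) := fun z => Finset.univ.filter fun c => z ∈ S c with hI
  obtain ⟨x₀, hx₀, hmin⟩ := (InvImage.wf (fun z => (I z).card) Nat.lt_wfRel.wf).has_min
    (Ess S w) ⟨x, hx⟩
  have acc : ∀ N : Set ℂ, N.Finite → ∃ᶠ y in 𝓝 x₀, y ∈ Ess S w ∧ y ∉ N := by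
    intro N hN
    have f1 : ∃ᶠ y in 𝓝 x₀, y ≠ x₀ ∧ y ∈ Ess S w := by
      by_contra hh
      rw [not_frequently] at hh
      obtain ⟨r, hr, hb⟩ := Metric.eventually_nhds_iff_ball.mp hh
      exact no_isolated hc h (half_pos hr) (fun y hy hne he =>
        hb y (closedBall_subset_ball (by linarith) hy) ⟨hne, he⟩) hx₀
    have f2 : ∀ᶠ y in 𝓝 x₀, y ∉ N \ {x₀} :=
      (hN.subset sdiff_subset).isClosed.isOpen_compl.mem_nhds fun g => g.2 rfl
    exact (f1.and_eventually f2).mono fun y hy => ⟨hy.1.2, fun g => hy.2 ⟨g, hy.1.1⟩⟩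
  have miss : ∀ᶠ q in 𝓝 x₀, ∀ c, x₀ ∉ S c → q ∉ S c := by
    rw [eventually_all]
    intro c
    by_cases g : x₀ ∈ S c
    · exact Eventually.of_forall fun _ g' => absurd g g'
    · filter_upwards [(hc.good c).closed.isOpen_compl.mem_nhds g] with z hz _ using hz
  have same : ∀ᶠ q in 𝓝 x₀, q ∈ Ess S w → ∀ c, x₀ ∈ S c → q ∈ S c := by
    filter_upwards [miss] with q hq qe c hc'
    have h1 : I q ⊆ I x₀ := by
      intro f hf
      simp only [hI, Finset.mem_filter, Finset.mem_univ, true_and] at hf ⊢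
      by_contra g
      exact hq f g hf
    have h2 : (I x₀).card ≤ (I q).card := not_lt.mp (hmin q qe)
    have h3 := Finset.eq_of_subset_of_card_le h1 h2
    have : c ∈ I q := by rw [h3]; simpa [hI] using hc'
    simpa [hI] using this
  have hf : Continuous fun s => x₀ + ee s := by fun_prop
  have hpi := Real.pi_pos
  obtain ⟨a, b, c, ab, ac, bc, xa, xb, xc⟩ := hx₀.1
  obtain ⟨d, e, de, hall⟩ := rest3' a b c ab ac bc
  by_cases hA : ∀ s, ∃ f, x₀ ∉ S f ∧ x₀ + ee s ∈ S f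
  · by_cases xd : x₀ ∈ S d
    · refine (hc.good e).arc60 (x := x₀) (a := 0) (b := Real.pi) (by linarith) fun s _ => ?_
      obtain ⟨f, f1, f2⟩ := hA s
      rcases hall f with rfl | rfl | rfl | rfl | rfl <;> tauto
    by_cases xe : x₀ ∈ S e
    · refine (hc.good d).arc60 (x := x₀) (a := 0) (b := Real.pi) (by linarith) fun s _ => ?_
      obtain ⟨f, f1, f2⟩ := hA s
      rcases hall f with rfl | rfl | rfl | rfl | rfl <;> tauto
    obtain ⟨r, hr, ht⟩ := (hc.five hall).caseA xa xb xc (by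
        filter_upwards [hc.ev_sub x₀] with z ⟨f, f1, f2⟩
        rcases hall f with rfl | rfl | rfl | rfl | rfl <;> tauto) (by
        intro s
        obtain ⟨f, f1, f2⟩ := hA s
        rcases hall f with rfl | rfl | rfl | rfl | rfl <;> tauto)
    rcases ht with ht | ht | ht
    · exact tri_rm hc h ab de hall hx₀.1 xb xd xe (rm_td hc h bc hr ht) hx₀
    · exact tri_rm hc h ab.symm de (fun f => by have := hall f; tauto) hx₀.1 xa xd xe
        (rm_td hc h ac hr ht) hx₀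
    · exact tri_rm hc h ac.symm de (fun f => by have := hall f; tauto) hx₀.1 xa xd xe
        (rm_td hc h ab hr ht) hx₀
  push Not at hA
  obtain ⟨s, hs⟩ := hA
  have ev1 : ∀ᶠ t in 𝓝 s, ∀ f, x₀ ∉ S f → x₀ + ee t ∉ S f := by
    rw [eventually_all]
    intro f
    by_cases g : x₀ ∈ S f
    · exact Eventually.of_forall fun _ g' => absurd g g'
    · filter_upwards [hf.continuousAt.eventually
        ((hc.good f).closed.isOpen_compl.mem_nhds (hs f g))] with z hz _ using hz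
  obtain ⟨s', -, g1, g2⟩ := exists_not_td' hc.X3_td x₀ (u := s) (v := s + 1) (by linarith)
    ⟨le_rfl, by linarith⟩ ev1
  obtain ⟨p, q, pq, hp, hq, hev⟩ := hc.two_nbhd g2 (Finset.univ.filter fun f => x₀ ∉ S f) (by
      refine (Finset.card_le_card (t := {d, e}) ?_).trans (Finset.card_le_two.trans (by norm_num))
      intro f hf
      have := (Finset.mem_filter.mp hf).2
      rcases hall f with rfl | rfl | rfl | rfl | rfl <;> simp_all)
    fun f hf => g1 f (Finset.mem_filter.mp hf).2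
  have xp : x₀ ∈ S p := by simpa using hp
  have xq : x₀ ∈ S q := by simpa using hq
  obtain ⟨N, hN, hN'⟩ := local_cone hc h hev
    (same.mono fun y hy ye => ⟨hy ye p xp, hy ye q xq⟩)
  by_cases hm : ∃ m, x₀ ∉ S m
  · obtain ⟨m, hm⟩ := hm
    obtain ⟨y, ⟨y1, y2⟩, y3, y4⟩ := ((acc N hN).and_eventually (hN'.and miss)).exists
    exact rm_all3 hc h (c := m) pq (by rintro rfl; exact hm xp) (by rintro rfl; exact hm xq)
      (y3 y1 y2).1 (y3 y1 y2).2 (fun v _ => rm_triv h v y1.1 (y4 m hm)) y1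
  push Not at hm
  have l2 := loc2 (hc.good p) (hc.good q) xp xq hev
  have n1 := ((hc.good p).shift (l2.mono fun t ht => ht.1)).1
  have n2 := ((hc.good q).shift (l2.mono fun t ht => ht.2)).1
  obtain ⟨s'', -, k1, k2⟩ := exists_not_td' hc.X3_td x₀ (u := s' + Real.pi / 3)
    (v := s' + Real.pi / 3 + 1) (by linarith) ⟨le_rfl, by linarith⟩
    ((hf.continuousAt.eventually ((hc.good p).closed.isOpen_compl.mem_nhds n1)).and
      (hf.continuousAt.eventually ((hc.good q).closed.isOpen_compl.mem_nhds n2)))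
  obtain ⟨p', q', -, hp', -, hev'⟩ := hc.two_nbhd k2 {p, q}
    (Finset.card_le_two.trans (by norm_num)) (by
      intro f hf
      simp only [Finset.mem_insert, Finset.mem_singleton] at hf
      rcases hf with rfl | rfl
      · exact k1.1
      · exact k1.2)
  simp only [Finset.mem_insert, Finset.mem_singleton, not_or] at hp'
  obtain ⟨N', hN1, hN1'⟩ := local_cone hc h hev'
    (same.mono fun y hy ye => ⟨hy ye p' (hm _), hy ye q' (hm _)⟩)
  obtain ⟨y, ⟨y1, y2⟩, y3, y4⟩ := ((acc _ (hN.union hN1)).and_eventually (hN'.and hN1')).exists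
  exact rm_all3 hc h (c := p') pq (Ne.symm hp'.1) (Ne.symm hp'.2)
    (y3 y1 fun g => y2 (Or.inl g)).1 (y3 y1 fun g => y2 (Or.inl g)).2
    (y4 y1 fun g => y2 (Or.inr g)).1 y1

end Vale.Agent.P032
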