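import Vale.Agent.P032.OpenAC

/-! From a measurable a.e. proper colouring to an open dense colouring (part Open of P032). -/

namespace Vale.Agent.P032.Op

open MeasureTheory Set Filter Topology

/-- points whose unit circle is almost disjoint from `A` -/
def Zs (A : Set ℂ) : Set ℂ := {y | ∀ᵐ a : ℝ, y + ee a ∉ A}

/-- almost no unit segment goes from `A` to `B` -/
def Ind (A B : Set ℂ) : Prop := ∀ᵐ p : ℂ × ℝ, ¬ (p.1 ∈ A ∧ p.1 + ee p.2 ∈ B)

/-- points at distance one from `O` -/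
def Nb (O : Set ℂ) : Set ℂ := {x | ∃ t, x + ee t ∈ O}

theorem measurable_step : Measurable fun p : ℂ × ℝ => p.1 + ee p.2 :=
  (continuous_fst.add (continuous_ee.comp continuous_snd)).measurable

theorem measurableSet_Zs {A : Set ℂ} (hA : MeasurableSet A) : MeasurableSet (Zs A) := by
  have h1 : MeasurableSet ((fun p : ℂ × ℝ => p.1 + ee p.2) ⁻¹' A) := measurable_step hA
  have h2 := measurable_measure_prodMk_left (ν := (volume : Measure ℝ)) h1
  have h3 : Zs A = (fun x : ℂ => (volume : Measure ℝ)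
      (Prod.mk x ⁻¹' ((fun p : ℂ × ℝ => p.1 + ee p.2) ⁻¹' A))) ⁻¹' {0} := by
    ext y
    simp only [Zs, mem_ofPred_eq, ae_iff, not_not, mem_preimage, mem_singleton_iff]
    rfl
  rw [h3]
  exact h2 (measurableSet_singleton 0)

theorem mp_flip : MeasurePreserving (fun p : ℂ × ℝ => (p.1 + ee p.2, p.2 + Real.pi))
    volume volume := by
  have h1 : MeasurePreserving (fun p : ℝ × ℂ => (p.1 + Real.pi, p.2 + ee p.1))
      ((volume : Measure ℝ).prod (volume : Measure ℂ)) (volume.prod volume) := by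
    refine MeasurePreserving.skew_product (g := fun t x => x + ee t)
      (measurePreserving_add_right volume Real.pi) ?_ ?_
    · exact (continuous_snd.add (continuous_ee.comp continuous_fst)).measurable
    · exact Eventually.of_forall fun t => (measurePreserving_add_right volume (ee t)).map_eq
  have h2 := (Measure.measurePreserving_swap (μ := (volume : Measure ℝ))
    (ν := (volume : Measure ℂ))).comp (h1.comp (Measure.measurePreserving_swap
      (μ := (volume : Measure ℂ)) (ν := (volume : Measure ℝ))))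
  exact h2

theorem Ind.symm {A B : Set ℂ} (h : Ind A B) : Ind B A := by
  filter_upwards [mp_flip.quasiMeasurePreserving.ae h] with p hp
  rintro ⟨h1, h2⟩
  apply hp
  refine ⟨h2, ?_⟩
  simpa [ee_add_pi] using h1

theorem ae_step {Q : ℂ → Prop} (hQ : ∀ᵐ w : ℂ, Q w) : ∀ᵐ p : ℂ × ℝ, Q (p.1 + ee p.2) := by
  have h1 : ∀ᵐ p : ℂ × ℝ, Q p.1 := by
    rw [Measure.volume_eq_prod]
    exact Measure.quasiMeasurePreserving_fst.ae hQ
  exact mp_flip.quasiMeasurePreserving.ae h1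

theorem Ind.ae_Zs {A B : Set ℂ} (h : Ind A B) : ∀ᵐ x : ℂ, x ∈ A → x ∈ Zs B := by
  unfold Ind at h
  rw [Measure.volume_eq_prod] at h
  filter_upwards [Measure.ae_ae_of_ae_prod h] with x hx hxA
  filter_upwards [hx] with a ha hb
  exact ha ⟨hxA, hb⟩

theorem ind_of_forall {A B : Set ℂ} (hA : MeasurableSet A) (hB : MeasurableSet B)
    (h : ∀ x ∈ A, x ∈ Zs B) : Ind A B := by
  unfold Ind
  rw [Measure.volume_eq_prod, Measure.ae_prod_iff_ae_ae]
  · refine Eventually.of_forall fun x => ?_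
    by_cases hx : x ∈ A
    · filter_upwards [h x hx] with a ha hb
      exact ha hb.2
    · exact Eventually.of_forall fun a hb => hx hb.1
  · exact ((measurable_fst hA).inter (measurable_step hB)).compl

theorem isOpen_Nb {O : Set ℂ} (hO : IsOpen O) : IsOpen (Nb O) := by
  have : Nb O = ⋃ t : ℝ, (fun x => x + ee t) ⁻¹' O := by
    ext x
    simp [Nb]
  rw [this]
  exact isOpen_iUnion fun t => hO.preimage (by fun_prop)

theorem not_Nb {A O : Set ℂ} (hO : IsOpen O) (hOA : O ⊆ A) {x : ℂ} (hx : x ∈ Zs A) :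
    x ∉ Nb O := by
  rintro ⟨t, ht⟩
  have h1 : IsOpen {a : ℝ | x + ee a ∈ O} :=
    hO.preimage (continuous_const.add continuous_ee)
  have h2 : (volume : Measure ℝ) {a : ℝ | x + ee a ∈ O} = 0 := by
    apply measure_mono_null _ (ae_iff.1 hx)
    intro a ha
    exact not_not.2 (hOA ha)
  have h3 := (h1.measure_eq_zero_iff volume).1 h2
  have : t ∈ {a : ℝ | x + ee a ∈ O} := ht
  rw [h3] at this
  exact this

theorem tendsto_shift {A : Set ℂ} (hA : MeasurableSet A) (hf : volume A ≠ ⊤) (x : ℂ) :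
    Tendsto (fun y : ℂ => volume (symmDiff ((fun w => y + w) ⁻¹' A) ((fun w => x + w) ⁻¹' A)))
      (𝓝 x) (𝓝 0) := by
  let f : ℂ → C(ℂ, ℂ) := fun y => ContinuousMap.curry ⟨fun p : ℂ × ℂ => p.1 + p.2, by fun_prop⟩ y
  have hc : Continuous f := (ContinuousMap.curry _).continuous
  exact tendsto_measure_symmDiff_preimage_nhds_zero (f := f) (g := f x) (hc.tendsto x)
    (Eventually.of_forall fun y => measurePreserving_add_left volume y)
    (measurePreserving_add_left volume x) hA.nullMeasurableSet hf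

theorem isClosed_W {k : ℕ} (A : Fin k → Set ℂ) (hA : ∀ i, MeasurableSet (A i))
    (J : Fin k → Prop) :
    IsClosed {x : ℂ | ∀ᵐ t : ℝ, ∃ j, J j ∧ x + ee t ∈ Zs (A j)} := by
  set W := {x : ℂ | ∀ᵐ t : ℝ, ∃ j, J j ∧ x + ee t ∈ Zs (A j)} with hW
  rw [← closure_subset_iff_isClosed]
  intro x hx
  let A' : Fin k → Set ℂ := fun j => A j ∩ Metric.ball x 4
  have hA' : ∀ j, MeasurableSet (A' j) := fun j => (hA j).inter Metric.isOpen_ball.measurableSet
  have hA'f : ∀ j, volume (A' j) ≠ ⊤ := fun j =>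
    ne_top_of_le_ne_top measure_ball_lt_top.ne (measure_mono inter_subset_right)
  let D : Fin k → ℂ → Set ℂ := fun j y =>
    symmDiff ((fun w => y + w) ⁻¹' A' j) ((fun w => x + w) ⁻¹' A' j)
  have h1 : ∀ n : ℕ, ∃ y ∈ W, dist y x < 1 ∧ ∀ j, volume (D j y) ≤ (2⁻¹ : ENNReal) ^ n := by
    intro n
    have h2 : ∀ᶠ y in 𝓝 x, dist y x < 1 ∧ ∀ j, volume (D j y) ≤ (2⁻¹ : ENNReal) ^ n := by
      refine Eventually.and (Metric.ball_mem_nhds x one_pos) (eventually_all.2 fun j => ?_)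
      exact ENNReal.tendsto_nhds_zero.1 (tendsto_shift (hA' j) (hA'f j) x) _
        (ENNReal.pow_pos (by simp) n)
    obtain ⟨y, hy1, hy2⟩ := mem_closure_iff_nhds.1 hx _ h2
    exact ⟨y, hy2, hy1⟩
  choose y hyW hyd hyD using h1
  have h3 : ∀ᵐ w : ℂ, ∀ j, ∀ᶠ n in atTop, w ∉ D j (y n) := by
    refine ae_all_iff.2 fun j => ae_eventually_notMem ?_
    refine ne_top_of_le_ne_top ?_ (ENNReal.tsum_le_tsum fun n => hyD n j)
    rw [ENNReal.tsum_geometric]
    simp
  have h4 := ae_twoStep h3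
  have h5 : ∀ᵐ t : ℝ, ∀ n, ∃ j, J j ∧ y n + ee t ∈ Zs (A j) := ae_all_iff.2 hyW
  filter_upwards [h4, h5] with t ht1 ht2
  have h6 : ∃ j, ∃ᶠ n in atTop, J j ∧ y n + ee t ∈ Zs (A j) := by
    by_contra hcon
    push Not at hcon
    obtain ⟨n, hn⟩ := (eventually_all.2 hcon).exists
    obtain ⟨j, hj⟩ := ht2 n
    exact hn j hj.1 hj.2
  obtain ⟨j, hj⟩ := h6
  refine ⟨j, hj.exists.choose_spec.1, ?_⟩
  have h7 : ∀ᵐ a : ℝ, ∀ n, y n + ee t ∈ Zs (A j) → y n + ee t + ee a ∉ A j := by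
    refine ae_all_iff.2 fun n => ?_
    by_cases hn : y n + ee t ∈ Zs (A j)
    · filter_upwards [hn] with a ha _
      exact ha
    · exact Eventually.of_forall fun a h => absurd h hn
  filter_upwards [ht1, h7] with a ha1 ha2 ha3
  obtain ⟨n, hn1, hn2⟩ := (hj.and_eventually (ha1 j)).exists
  apply hn2
  right
  have hw : ‖ee t + ee a‖ ≤ 2 := by
    have := norm_add_le (ee t) (ee a)
    rw [norm_ee, norm_ee] at this
    linarith
  refine ⟨⟨by simpa [add_assoc] using ha3, ?_⟩, fun h => ha2 n hn1.2 ?_⟩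
  · show x + (ee t + ee a) ∈ Metric.ball x 4
    rw [Metric.mem_ball, dist_eq_norm, add_sub_cancel_left]
    linarith
  · rw [add_assoc]
    exact h.1

/-- a measurable a.e. proper colouring -/
structure St {k : ℕ} (A : Fin k → Set ℂ) : Prop where
  meas : ∀ i, MeasurableSet (A i)
  cov : ∀ᵐ x : ℂ, ∃ i, x ∈ A i
  prop : ∀ i, Ind (A i) (A i)

theorem step {k : ℕ} {A : Fin k → Set ℂ} (hA : St A) {B : Set ℂ} (hB : IsOpen B)
    (hne : B.Nonempty) :
    ∃ A' : Fin k → Set ℂ, St A' ∧ (∀ i, interior (A i) ⊆ interior (A' i)) ∧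
      ∃ i, (B ∩ interior (A' i)).Nonempty := by
  classical
  let W : Fin k → Set ℂ := fun i =>
    {x : ℂ | ∀ᵐ t : ℝ, ∃ j, j ≠ i ∧ x + ee t ∈ Zs (A j)} \ Nb (interior (A i))
  have hWc : ∀ i, IsClosed (W i) := fun i =>
    (isClosed_W A hA.meas (fun j => j ≠ i)).sdiff (isOpen_Nb isOpen_interior)
  have hZ : ∀ᵐ x : ℂ, ∀ i, x ∈ A i → x ∈ Zs (A i) := ae_all_iff.2 fun i => (hA.prop i).ae_Zs
  have hWae : ∀ᵐ x : ℂ, x ∈ ⋃ i, W i := by
    have h1 : ∀ᵐ p : ℂ × ℝ, ∀ i, p.1 ∈ A i → ∃ j, j ≠ i ∧ p.1 + ee p.2 ∈ Zs (A j) := by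
      filter_upwards [ae_step hZ, ae_step hA.cov, ae_all_iff.2 hA.prop] with p h1 h2 h3 i hi
      obtain ⟨j, hj⟩ := h2
      refine ⟨j, ?_, h1 j hj⟩
      rintro rfl
      exact h3 j ⟨hi, hj⟩
    rw [Measure.volume_eq_prod] at h1
    filter_upwards [Measure.ae_ae_of_ae_prod h1, hZ, hA.cov] with x h2 h3 h4
    obtain ⟨i, hi⟩ := h4
    refine mem_iUnion.2 ⟨i, ?_, not_Nb isOpen_interior interior_subset (h3 i hi)⟩
    filter_upwards [h2] with t ht
    exact ht i hi
  have hWu : ⋃ i, W i = univ := by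
    have h1 : Dense (⋃ i, W i) := Measure.dense_of_ae hWae
    rw [← (isClosed_iUnion_of_finite hWc).closure_eq]
    exact h1.closure_eq
  obtain ⟨z, hzB, hz⟩ := (dense_iUnion_interior_of_closed hWc hWu).inter_open_nonempty B hB hne
  obtain ⟨i, hi⟩ := mem_iUnion.1 hz
  obtain ⟨r, hr, hrW⟩ := Metric.isOpen_iff.1 isOpen_interior z hi
  set U := Metric.ball z (min r (1 / 3)) with hU
  have hUo : IsOpen U := Metric.isOpen_ball
  have hUW : U ⊆ W i := (Metric.ball_subset_ball (min_le_left _ _)).trans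
    (hrW.trans interior_subset)
  have hzU : z ∈ U := Metric.mem_ball_self (lt_min hr (by norm_num))
  have hUN : ∀ x ∈ U, x ∉ Nb U := by
    rintro x hx ⟨t, ht⟩
    have h1 := dist_triangle_right x (x + ee t) z
    have h2 : dist x (x + ee t) = 1 := by
      rw [dist_eq_norm]
      simp [norm_ee]
    have h3 : dist x z < 1 / 3 := lt_of_lt_of_le hx (min_le_right _ _)
    have h4 : dist (x + ee t) z < 1 / 3 := lt_of_lt_of_le ht (min_le_right _ _)
    linarith
  have hG : ∀ᵐ y : ℂ, y ∈ Nb U → ∃ j, j ≠ i ∧ y ∈ Zs (A j) := by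
    set G := ⋃ j : {j // j ≠ i}, Zs (A j) with hG
    have hGm : MeasurableSet G := MeasurableSet.iUnion fun j => measurableSet_Zs (hA.meas j)
    have h1 : Ind U Gᶜ := by
      refine ind_of_forall hUo.measurableSet hGm.compl fun x hx => ?_
      show ∀ᵐ t : ℝ, x + ee t ∉ Gᶜ
      filter_upwards [(hUW hx).1] with t ht
      obtain ⟨j, hj1, hj2⟩ := ht
      exact not_not.2 (mem_iUnion.2 ⟨⟨j, hj1⟩, hj2⟩)
    filter_upwards [h1.symm.ae_Zs] with y hy hyN
    by_cases hyG : y ∈ G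
    · obtain ⟨j, hj⟩ := mem_iUnion.1 hyG
      exact ⟨j, j.2, hj⟩
    · exact absurd hyN (not_Nb hUo subset_rfl (hy hyG))
  let A' : Fin k → Set ℂ := fun j =>
    if j = i then U ∪ (A i \ Nb U) else A j ∪ (A i ∩ Zs (A j))
  have hAi : A' i = U ∪ (A i \ Nb U) := by simp [A']
  have hAj : ∀ j, j ≠ i → A' j = A j ∪ (A i ∩ Zs (A j)) := fun j hj => by simp [A', hj]
  refine ⟨A', ⟨fun j => ?_, ?_, fun j => ?_⟩, fun j => ?_, i, z, hzB, ?_⟩
  · by_cases hj : j = i
    · rw [hj, hAi]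
      exact hUo.measurableSet.union ((hA.meas i).diff (isOpen_Nb hUo).measurableSet)
    · rw [hAj j hj]
      exact (hA.meas j).union ((hA.meas i).inter (measurableSet_Zs (hA.meas j)))
  · filter_upwards [hA.cov, hG] with y hy1 hy2
    obtain ⟨j, hj⟩ := hy1
    by_cases hji : j = i
    · rw [hji] at hj
      by_cases hyN : y ∈ Nb U
      · obtain ⟨l, hl1, hl2⟩ := hy2 hyN
        exact ⟨l, by rw [hAj l hl1]; exact Or.inr ⟨hj, hl2⟩⟩
      · exact ⟨i, by rw [hAi]; exact Or.inr ⟨hj, hyN⟩⟩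
    · exact ⟨j, by rw [hAj j hji]; exact Or.inl hj⟩
  · by_cases hj : j = i
    · rw [hj, hAi]
      filter_upwards [hA.prop i] with p hp
      rintro ⟨h1 | h1, h2 | h2⟩
      · exact hUN _ h1 ⟨p.2, h2⟩
      · exact h2.2 ⟨p.2 + Real.pi, by simpa [ee_add_pi] using h1⟩
      · exact h1.2 ⟨p.2, h2⟩
      · exact hp ⟨h1.1, h2.1⟩
    · rw [hAj j hj]
      have h0 : Ind (Zs (A j)) (A j) :=
        ind_of_forall (measurableSet_Zs (hA.meas j)) (hA.meas j) fun x hx => hx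
      filter_upwards [hA.prop i, hA.prop j, h0, h0.symm] with p hp1 hp2 hp3 hp4
      rintro ⟨h1 | h1, h2 | h2⟩
      · exact hp2 ⟨h1, h2⟩
      · exact hp4 ⟨h1, h2.2⟩
      · exact hp3 ⟨h1.2, h2⟩
      · exact hp1 ⟨h1.1, h2.1⟩
  · by_cases hj : j = i
    · rw [hj, hAi]
      refine interior_maximal (fun x hx => Or.inr ⟨interior_subset hx, ?_⟩) isOpen_interior
      rintro ⟨t, ht⟩
      exact (hUW ht).2 ⟨t + Real.pi, by simpa [ee_add_pi] using hx⟩
    · rw [hAj j hj]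
      exact interior_mono subset_union_left
  · rw [hAi]
    exact interior_maximal subset_union_left hUo hzU

theorem no_unit {A O : Set ℂ} (hA : Ind A A) (hO : IsOpen O) (hOA : O ⊆ A) {x y : ℂ}
    (hx : x ∈ O) (hy : y ∈ O) : dist x y ≠ 1 := by
  intro hd
  obtain ⟨t, ht⟩ := exists_ee (z := y - x) (by rw [← dist_eq_norm, dist_comm, hd])
  have h1 : IsOpen {p : ℂ × ℝ | p.1 ∈ O ∧ p.1 + ee p.2 ∈ O} :=
    (hO.preimage continuous_fst).inter
      (hO.preimage (continuous_fst.add (continuous_ee.comp continuous_snd)))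
  have h2 : (volume : Measure (ℂ × ℝ)) {p : ℂ × ℝ | p.1 ∈ O ∧ p.1 + ee p.2 ∈ O} = 0 := by
    apply measure_mono_null _ (ae_iff.1 hA)
    intro p hp
    exact not_not.2 ⟨hOA hp.1, hOA hp.2⟩
  have h3 := (h1.measure_eq_zero_iff volume).1 h2
  have : (x, t) ∈ {p : ℂ × ℝ | p.1 ∈ O ∧ p.1 + ee p.2 ∈ O} := ⟨hx, by simpa [ht] using hy⟩
  rw [h3] at this
  exact this

end Vale.Agent.P032.Op

namespace Vale.Agent.P032

open MeasureTheory Set

/-- a measurable a.e. proper colouring gives open unit-distance-free sets with dense union -/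
theorem exists_open {k : ℕ} (A : Fin k → Set ℂ) (hA : ∀ i, MeasurableSet (A i))
    (hcov : ∀ᵐ x : ℂ, ∃ i, x ∈ A i)
    (hprop : ∀ i, ∀ᵐ p : ℂ × ℝ, ¬ (p.1 ∈ A i ∧ p.1 + ee p.2 ∈ A i)) :
    ∃ O : Fin k → Set ℂ, (∀ i, IsOpen (O i)) ∧ Dense (⋃ i, O i) ∧
      ∀ i, ∀ x ∈ O i, ∀ y ∈ O i, dist x y ≠ 1 := by
  let B : ℕ → Set ℂ := fun n =>
    Metric.ball (TopologicalSpace.denseSeq ℂ n.unpair.1) (1 / ((n.unpair.2 : ℝ) + 1))
  have hstep : ∀ (n : ℕ) (s : {A : Fin k → Set ℂ // Op.St A}),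
      ∃ s' : {A : Fin k → Set ℂ // Op.St A}, (∀ i, interior (s.1 i) ⊆ interior (s'.1 i)) ∧
        ∃ i, (B n ∩ interior (s'.1 i)).Nonempty := by
    intro n s
    obtain ⟨A', h1, h2⟩ := Op.step s.2 (B := B n) Metric.isOpen_ball
      (Metric.nonempty_ball.2 (by positivity))
    exact ⟨⟨A', h1⟩, h2⟩
  choose F hF1 hF2 using hstep
  let s : ℕ → {A : Fin k → Set ℂ // Op.St A} := fun n =>
    Nat.rec ⟨A, hA, hcov, hprop⟩ (fun n s => F n s) n
  have hs : ∀ n, s (n + 1) = F n (s n) := fun n => rfl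
  have hmono : ∀ i, Monotone fun n => interior ((s n).1 i) := fun i =>
    monotone_nat_of_le_succ fun n => by rw [hs]; exact hF1 n (s n) i
  refine ⟨fun i => ⋃ n, interior ((s n).1 i), fun i => isOpen_iUnion fun n => isOpen_interior,
    ?_, ?_⟩
  · rw [Metric.dense_iff]
    intro x r hr
    obtain ⟨m, hm⟩ := exists_nat_one_div_lt (half_pos hr)
    obtain ⟨a, ha⟩ := (TopologicalSpace.denseRange_denseSeq ℂ).exists_dist_lt x (half_pos hr)
    obtain ⟨i, z, hz1, hz2⟩ := hF2 (Nat.pair a m) (s (Nat.pair a m))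
    refine ⟨z, ?_, mem_iUnion.2 ⟨i, mem_iUnion.2 ⟨Nat.pair a m + 1, by rw [hs]; exact hz2⟩⟩⟩
    simp only [B, Nat.unpair_pair, Metric.mem_ball] at hz1
    rw [Metric.mem_ball]
    have := dist_triangle_right z x (TopologicalSpace.denseSeq ℂ a)
    linarith
  · intro i x hx y hy
    obtain ⟨n, hn⟩ := mem_iUnion.1 hx
    obtain ⟨m, hm⟩ := mem_iUnion.1 hy
    exact Op.no_unit ((s (max n m)).2.prop i) isOpen_interior interior_subset
      (hmono i (le_max_left n m) hn) (hmono i (le_max_right n m) hm)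

end Vale.Agent.P032
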