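import Vale.Agent.P032.Defs

/-! Absolute continuity of the two-step law on the unit circle (part Open of P032). -/

namespace Vale.Agent.P032.Op

open MeasureTheory Set Filter Topology

theorem null_preimage {E : Type*} [NormedAddCommGroup E] [NormedSpace ℝ E]
    [FiniteDimensional ℝ E] [MeasurableSpace E] [BorelSpace E] (μ : Measure E)
    [μ.IsAddHaarMeasure] (f : E → E) (hfm : Measurable f) (f' : E → E →L[ℝ] E) (S : Set E)
    (hS : MeasurableSet S) (hf : ∀ x ∈ S, HasStrictFDerivAt f (f' x) x)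
    (hdet : ∀ x ∈ S, (f' x).det ≠ 0) (N : Set E) (hNm : MeasurableSet N) (hN : μ N = 0) :
    μ (S ∩ f ⁻¹' N) = 0 := by
  have : CompleteSpace E := FiniteDimensional.complete ℝ E
  apply measure_null_of_locally_null
  intro x hx
  have h1 : HasStrictFDerivAt f
      (((f' x).toContinuousLinearEquivOfDetNeZero (hdet x hx.1) : E ≃L[ℝ] E) : E →L[ℝ] E) x := by
    simpa using hf x hx.1
  have h2 := h1.eventually_left_inverse
  obtain ⟨U, hU, hUo, hxU⟩ := eventually_nhds_iff.1 h2
  have hinj : InjOn f U := by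
    intro a ha b hb hab
    rw [← hU a ha, ← hU b hb, hab]
  refine ⟨(S ∩ f ⁻¹' N) ∩ U, inter_mem_nhdsWithin _ (hUo.mem_nhds hxU), ?_⟩
  set s := (S ∩ f ⁻¹' N) ∩ U with hs
  have hsm : MeasurableSet s := (hS.inter (hfm hNm)).inter hUo.measurableSet
  have hd : ∀ y ∈ s, HasFDerivWithinAt f (f' y) s y := fun y hy =>
    (hf y hy.1.1).hasFDerivAt.hasFDerivWithinAt
  have h3 := lintegral_abs_det_fderiv_le_addHaar_image μ hsm hd (hinj.mono inter_subset_right)
  have h4 : μ (f '' s) = 0 := by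
    apply measure_mono_null _ hN
    rintro _ ⟨y, hy, rfl⟩
    exact hy.1.2
  rw [h4, nonpos_iff_eq_zero,
    lintegral_eq_zero_iff' (aemeasurable_ofReal_abs_det_fderivWithin μ hsm hd)] at h3
  have h5 : ∀ᵐ y ∂(μ.restrict s), False := by
    filter_upwards [h3, ae_restrict_mem hsm] with y hy hys
    have := hdet y hys.1.1
    simp only [Pi.zero_apply, ENNReal.ofReal_eq_zero] at hy
    exact this (abs_nonpos_iff.1 hy)
  rw [ae_iff] at h5
  simpa using h5

theorem ee_eq (t : ℝ) : ee t = ⟨Real.cos t, Real.sin t⟩ := by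
  unfold ee
  rw [Complex.exp_mul_I]
  apply Complex.ext <;> simp [← Complex.ofReal_cos, ← Complex.ofReal_sin]

theorem continuous_ee : Continuous ee := by
  unfold ee
  fun_prop

theorem norm_ee (t : ℝ) : ‖ee t‖ = 1 := by
  unfold ee
  exact Complex.norm_exp_ofReal_mul_I t

theorem ee_add_pi (t : ℝ) : ee (t + Real.pi) = -ee t := by
  rw [ee_eq, ee_eq]
  apply Complex.ext <;> simp

theorem exists_ee {z : ℂ} (hz : ‖z‖ = 1) : ∃ t, ee t = z := by
  refine ⟨Complex.arg z, ?_⟩
  have := Complex.norm_mul_exp_arg_mul_I z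
  rw [hz] at this
  simpa [ee] using this

/-- the two-step map in real coordinates -/
noncomputable def twoStep (p : ℝ × ℝ) : ℝ × ℝ :=
  (Real.cos p.1 + Real.cos p.2, Real.sin p.1 + Real.sin p.2)

noncomputable def twoStep' (p : ℝ × ℝ) : ℝ × ℝ →L[ℝ] ℝ × ℝ :=
  (Matrix.toLin (.finTwoProd ℝ) (.finTwoProd ℝ)
    !![-Real.sin p.1, -Real.sin p.2; Real.cos p.1, Real.cos p.2]).toContinuousLinearMap

theorem hasStrict_twoStep (p : ℝ × ℝ) : HasStrictFDerivAt twoStep (twoStep' p) p := by
  unfold twoStep twoStep'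
  rw [Matrix.toLin_finTwoProd_toContinuousLinearMap]
  have h1 := (Real.hasStrictDerivAt_cos p.1).comp_hasStrictFDerivAt p
    (hasStrictFDerivAt_fst (𝕜 := ℝ) (E := ℝ) (F := ℝ) (p := p))
  have h2 := (Real.hasStrictDerivAt_cos p.2).comp_hasStrictFDerivAt p
    (hasStrictFDerivAt_snd (𝕜 := ℝ) (E := ℝ) (F := ℝ) (p := p))
  have h3 := (Real.hasStrictDerivAt_sin p.1).comp_hasStrictFDerivAt p
    (hasStrictFDerivAt_fst (𝕜 := ℝ) (E := ℝ) (F := ℝ) (p := p))
  have h4 := (Real.hasStrictDerivAt_sin p.2).comp_hasStrictFDerivAt p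
    (hasStrictFDerivAt_snd (𝕜 := ℝ) (E := ℝ) (F := ℝ) (p := p))
  exact (h1.add h2).prodMk (h3.add h4)

theorem det_twoStep' (p : ℝ × ℝ) : (twoStep' p).det = Real.sin (p.2 - p.1) := by
  unfold twoStep'
  simp only [LinearMap.det_toContinuousLinearMap, LinearMap.det_toLin, Matrix.det_fin_two_of]
  rw [Real.sin_sub]
  ring

theorem null_sin : (volume : Measure (ℝ × ℝ)) {p | Real.sin (p.2 - p.1) = 0} = 0 := by
  have hm : MeasurableSet {p : ℝ × ℝ | Real.sin (p.2 - p.1) = 0} :=
    (isClosed_eq (by fun_prop) continuous_const).measurableSet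
  rw [Measure.volume_eq_prod, Measure.measure_prod_null hm]
  refine Eventually.of_forall fun t => ?_
  apply Set.Countable.measure_zero
  refine (Set.countable_range (fun n : ℤ => t + n * Real.pi)).mono ?_
  intro a ha
  simp only [mem_preimage, mem_ofPred_eq] at ha
  obtain ⟨n, hn⟩ := Real.sin_eq_zero_iff.1 ha
  exact ⟨n, by simp only; linarith⟩

theorem ae_twoStep {Q : ℂ → Prop} (hQ : ∀ᵐ w : ℂ, Q w) :
    ∀ᵐ t : ℝ, ∀ᵐ a : ℝ, Q (ee t + ee a) := by
  obtain ⟨N, hQN, hNm, hN⟩ := exists_measurable_superset_of_null (ae_iff.1 hQ)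
  set N' := Complex.measurableEquivRealProd.symm ⁻¹' N with hN'
  have hN'm : MeasurableSet N' := Complex.measurableEquivRealProd.symm.measurable hNm
  have hN'0 : volume N' = 0 := by
    rw [hN', Complex.volume_preserving_equiv_real_prod.symm.measure_preimage
      hNm.nullMeasurableSet, hN]
  have hS : MeasurableSet {p : ℝ × ℝ | Real.sin (p.2 - p.1) ≠ 0} :=
    (isOpen_ne_fun (by fun_prop) continuous_const).measurableSet
  have hc : Continuous twoStep := by
    unfold twoStep
    fun_prop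
  have h1 := null_preimage volume twoStep hc.measurable twoStep' _ hS
    (fun p _ => hasStrict_twoStep p) (fun p hp => by rw [det_twoStep']; exact hp) N' hN'm hN'0
  have h2 : ∀ᵐ p : ℝ × ℝ, Q (ee p.1 + ee p.2) := by
    rw [ae_iff]
    apply measure_mono_null _ (measure_union_null h1 null_sin)
    intro p hp
    by_cases hs : Real.sin (p.2 - p.1) = 0
    · exact Or.inr hs
    · refine Or.inl ⟨hs, ?_⟩
      have h3 : ee p.1 + ee p.2 ∈ N := hQN hp
      have h4 : Complex.measurableEquivRealProd.symm (twoStep p) = ee p.1 + ee p.2 := by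
        rw [ee_eq, ee_eq]
        apply Complex.ext <;> simp [twoStep]
      show Complex.measurableEquivRealProd.symm (twoStep p) ∈ N
      rw [h4]
      exact h3
  rw [Measure.volume_eq_prod] at h2
  exact Measure.ae_ae_of_ae_prod h2

end Vale.Agent.P032.Op
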