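import Vale.Agent.P032.Cross

/-! Continuous logarithms: filling and patching over totally disconnected sets. -/

namespace Vale.Agent.P032

open Set Metric Complex

theorem HasLog.mono {f : ℂ → ℂ} {Z Z' : Set ℂ} (h : HasLog f Z) (hZ : Z' ⊆ Z) : HasLog f Z' := by
  obtain ⟨φ, h1, h2⟩ := h
  exact ⟨φ, h1.mono hZ, fun z hz => h2 z (hZ hz)⟩

theorem HasLog.congr {f g : ℂ → ℂ} {Z : Set ℂ} (h : HasLog f Z) (hfg : ∀ z ∈ Z, f z = g z) :
    HasLog g Z := by
  obtain ⟨φ, h1, h2⟩ := h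
  exact ⟨φ, h1, fun z hz => by rw [h2 z hz, hfg z hz]⟩

theorem HasLog.mul {f g : ℂ → ℂ} {Z : Set ℂ} (hf : HasLog f Z) (hg : HasLog g Z) :
    HasLog (fun z => f z * g z) Z := by
  obtain ⟨φ, h1, h2⟩ := hf
  obtain ⟨ψ, h3, h4⟩ := hg
  exact ⟨fun z => φ z + ψ z, h1.add h3, fun z hz => by rw [exp_add, h2 z hz, h4 z hz]⟩

theorem HasLog.div {f g : ℂ → ℂ} {Z : Set ℂ} (hf : HasLog f Z) (hg : HasLog g Z) :
    HasLog (fun z => f z / g z) Z := by
  obtain ⟨φ, h1, h2⟩ := hf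
  obtain ⟨ψ, h3, h4⟩ := hg
  exact ⟨fun z => φ z - ψ z, h1.sub h3, fun z hz => by rw [exp_sub, h2 z hz, h4 z hz]⟩

theorem hasLog_one (Z : Set ℂ) : HasLog (fun _ => 1) Z :=
  ⟨fun _ => 0, continuousOn_const, fun _ _ => exp_zero⟩

theorem hasLog_prod {ι : Type*} (s : Finset ι) {f : ι → ℂ → ℂ} {Z : Set ℂ}
    (h : ∀ i ∈ s, HasLog (f i) Z) : HasLog (fun z => ∏ i ∈ s, f i z) Z := by
  classical
  induction s using Finset.induction_on with
  | empty => simpa using hasLog_one Z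
  | insert a s ha ih =>
    have := (h a (Finset.mem_insert_self _ _)).mul (ih fun i hi => h i (Finset.mem_insert_of_mem hi))
    exact this.congr fun z _ => by rw [Finset.prod_insert ha]

theorem hasLog_slit {f : ℂ → ℂ} {Z : Set ℂ} (hf : ContinuousOn f Z)
    (h : ∀ z ∈ Z, f z ∈ slitPlane) : HasLog f Z :=
  ⟨fun z => log (f z), hf.clog h, fun z hz => exp_log (slitPlane_ne_zero (h z hz))⟩

theorem fill {ω : ℂ → ℂ} {X U : Set ℂ} (hc : ContinuousOn ω Xᶜ) (h0 : ∀ z ∉ X, ω z ≠ 0)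
    (hU : IsOpen U) (hl : HasLog ω (frontier U)) :
    ∃ ω' : ℂ → ℂ, ContinuousOn ω' (X \ U)ᶜ ∧ (∀ z ∉ X \ U, ω' z ≠ 0) ∧ ∀ z ∉ U, ω' z = ω z := by
  classical
  obtain ⟨φ, hφc, hφ⟩ := hl
  obtain ⟨g, hg⟩ := ContinuousMap.exists_restrict_eq (s := frontier U) isClosed_frontier
    ⟨(frontier U).domRestrict φ, continuousOn_iff_continuous_domRestrict.mp hφc⟩
  have hg' : ∀ z ∈ frontier U, g z = φ z := fun z hz => congr($hg ⟨z, hz⟩)
  refine ⟨U.piecewise (fun z => exp (g z)) ω, ?_, ?_, ?_⟩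
  · refine ContinuousOn.piecewise ?_ ?_ ?_
    · intro a ha
      rw [hg' a ha.2, hφ a ha.2]
    · exact Continuous.continuousOn (by fun_prop)
    · refine hc.mono ?_
      rw [hU.isClosed_compl.closure_eq]
      rintro z ⟨h1, h2⟩ h3
      exact h1 ⟨h3, h2⟩
  · intro z hz
    by_cases hzU : z ∈ U
    · rw [piecewise_eq_of_mem _ _ _ hzU]; exact exp_ne_zero _
    · rw [piecewise_eq_of_notMem _ _ _ hzU]; exact h0 z fun h => hz ⟨h, hzU⟩
  · intro z hz
    rw [piecewise_eq_of_notMem _ _ _ hz]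

/-- removable singularity: logarithms exist on all compact sets near `x` which avoid `X` -/
def Rem (X : Set ℂ) (f : ℂ → ℂ) (x : ℂ) : Prop :=
  ∃ r : ℝ, 0 < r ∧ ∀ Z : Set ℂ, IsCompact Z → Z ⊆ closedBall x r \ X → HasLog f Z

theorem patch {ω : ℂ → ℂ} {X X' D : Set ℂ} (hD : IsCompact D) (hDc : Convex ℝ D)
    (hX : IsClosed X) (hXt : IsTotallyDisconnected X) (hX' : IsClosed X') (hsub : X' ∩ D ⊆ X)
    (hc : ContinuousOn ω X'ᶜ) (h0 : ∀ z ∉ X', ω z ≠ 0) (hrem : ∀ x ∈ X' ∩ D, Rem X ω x)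
    {Z : Set ℂ} (hZ : IsCompact Z) (hZD : Z ⊆ D \ X') : HasLog ω Z := by
  classical
  have key : ∀ x ∈ X' ∩ D, ∃ U : Set ℂ, IsOpen U ∧ x ∈ U ∧ Disjoint U Z ∧
      Disjoint (frontier U) X ∧ IsCompact (closure U) ∧
      ∀ Z' : Set ℂ, IsCompact Z' → Z' ⊆ closure U \ X → HasLog ω Z' := by
    intro x hx
    obtain ⟨r, hr, hlog⟩ := hrem x hx
    have hxZ : x ∈ Zᶜ := fun h => (hZD h).2 hx.1
    obtain ⟨e, he, heZ⟩ := Metric.isOpen_iff.mp hZ.isClosed.isOpen_compl x hxZ
    obtain ⟨U, hU, hxU, hUc, hUf⟩ := sepOpen hX (x := x)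
      (fun C hC _ hp _ => hXt C hC hp) (lt_min hr he)
    have hb : closure U ⊆ closedBall x r :=
      hUc.trans ((ball_subset_ball (min_le_left _ _)).trans ball_subset_closedBall)
    refine ⟨U, hU, hxU, ?_, hUf, (isCompact_closedBall x r).of_isClosed_subset isClosed_closure hb,
      fun Z' h1 h2 => hlog Z' h1 (h2.trans (sdiff_subset_sdiff_left hb))⟩
    rw [Set.disjoint_left]
    intro y hy hyZ
    exact heZ (ball_subset_ball (min_le_right _ _) (hUc (subset_closure hy))) hyZ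
  choose! U hU1 hU2 hU3 hU4 hU5 hU6 using key
  obtain ⟨t, ht1, ht2⟩ := (hD.inter_left hX').elim_nhds_subcover U
    (fun a ha => (hU1 a ha).mem_nhds (hU2 a ha))
  have ind : ∀ s : Finset ℂ, (∀ x ∈ s, x ∈ X' ∩ D) → ∃ W : Set ℂ, IsOpen W ∧
      (∀ x ∈ s, U x ∩ X ⊆ W) ∧ Disjoint (frontier W) X ∧ Disjoint W Z ∧
      ∃ ω' : ℂ → ℂ, ContinuousOn ω' (X' \ W)ᶜ ∧ (∀ z ∉ X' \ W, ω' z ≠ 0) ∧
        ∀ z ∉ W, ω' z = ω z := by
    intro s
    induction s using Finset.induction_on with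
    | empty =>
      intro _
      exact ⟨∅, isOpen_empty, by simp, by simp, by simp, ω, by simpa using hc, by simpa using h0,
        fun _ _ => rfl⟩
    | insert a s ha ih =>
      intro hs
      obtain ⟨W, hW1, hW2, hW3, hW4, ω', hω1, hω2, hω3⟩ :=
        ih fun x hx => hs x (Finset.mem_insert_of_mem hx)
      have haX := hs a (Finset.mem_insert_self _ _)
      set V := U a ∩ (closure W)ᶜ with hV
      have hVo : IsOpen V := (hU1 a haX).inter isClosed_closure.isOpen_compl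
      have hVf : Disjoint (frontier V) X := by
        rw [Set.disjoint_left]
        intro y hy hyX
        rcases frontier_inter_subset _ _ hy with h | h
        · exact Set.disjoint_left.mp (hU4 a haX) h.1 hyX
        · rw [frontier_compl] at h
          exact Set.disjoint_left.mp hW3 (frontier_closure_subset h.2) hyX
      have hVU : frontier V ⊆ closure (U a) :=
        frontier_subset_closure.trans (closure_mono inter_subset_left)
      have hVW : ∀ y ∈ frontier V, y ∉ W := by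
        intro y hy
        have : closure V ⊆ Wᶜ :=
          closure_minimal (fun z hz hzW => hz.2 (subset_closure hzW)) hW1.isClosed_compl
        exact this (frontier_subset_closure hy)
      have hVl : HasLog ω' (frontier V) :=
        (hU6 a haX _ ((hU5 a haX).of_isClosed_subset isClosed_frontier hVU)
          (fun y hy => ⟨hVU hy, Set.disjoint_left.mp hVf hy⟩)).congr
          fun y hy => (hω3 y (hVW y hy)).symm
      obtain ⟨ω'', g1, g2, g3⟩ := fill hω1 hω2 hVo hVl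
      have he : (X' \ W) \ V = X' \ (W ∪ V) := sdiff_sdiff
      refine ⟨W ∪ V, hW1.union hVo, ?_, ?_, ?_, ω'', he ▸ g1, he ▸ g2, ?_⟩
      · intro x hx
        rcases Finset.mem_insert.mp hx with rfl | hx
        · intro y hy
          by_cases hyW : y ∈ closure W
          · left
            by_contra hh
            exact Set.disjoint_left.mp hW3 (by rw [hW1.frontier_eq]; exact ⟨hyW, hh⟩) hy.2
          · exact Or.inr ⟨hy.1, hyW⟩
        · exact (hW2 x hx).trans subset_union_left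
      · rw [Set.disjoint_left]
        intro y hy hyX
        rcases frontier_union_subset _ _ hy with h | h
        · exact Set.disjoint_left.mp hW3 h.1 hyX
        · exact Set.disjoint_left.mp hVf h.2 hyX
      · exact Disjoint.union_left hW4 ((hU3 a haX).mono_left inter_subset_left)
      · intro z hz
        rw [g3 z fun h => hz (Or.inr h), hω3 z fun h => hz (Or.inl h)]
  obtain ⟨W, -, hW2, -, hW4, ω', hω1, hω2, hω3⟩ := ind t ht1
  have hDW : D ⊆ (X' \ W)ᶜ := by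
    rintro z hz ⟨h1, h2⟩
    obtain ⟨x, hx, hzx⟩ := mem_iUnion₂.mp (ht2 ⟨h1, hz⟩)
    exact h2 (hW2 x hx ⟨hzx, hsub ⟨h1, hz⟩⟩)
  obtain ⟨φ, hφ1, hφ2⟩ := exists_log_convex hDc (hω1.mono hDW) fun z hz => hω2 z (hDW hz)
  have : HasLog ω' D := ⟨φ, hφ1, hφ2⟩
  exact (this.mono (hZD.trans sdiff_subset)).congr
    fun z hz => hω3 z (Set.disjoint_right.mp hW4 hz)

theorem Rem.isOpen (X : Set ℂ) (f : ℂ → ℂ) : IsOpen {x | Rem X f x} := by
  rw [Metric.isOpen_iff]
  rintro x ⟨r, hr, h⟩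
  refine ⟨r / 2, by linarith, fun y hy => ⟨r / 2, by linarith, fun Z h1 h2 => h Z h1 ?_⟩⟩
  refine h2.trans (sdiff_subset_sdiff_left (closedBall_subset_closedBall' ?_))
  have := mem_ball.mp hy
  linarith

theorem Rem.mono {X Y : Set ℂ} {f : ℂ → ℂ} {x : ℂ} (h : Rem X f x) (hXY : X ⊆ Y) : Rem Y f x := by
  obtain ⟨r, hr, h⟩ := h
  exact ⟨r, hr, fun Z h1 h2 => h Z h1 (h2.trans (sdiff_subset_sdiff_right hXY))⟩

theorem Rem.congr {X : Set ℂ} {f g : ℂ → ℂ} {x : ℂ} (h : Rem X f x)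
    (hfg : ∀ᶠ z in nhds x, z ∉ X → f z = g z) : Rem X g x := by
  obtain ⟨r, hr, h⟩ := h
  obtain ⟨e, he, h2⟩ := Metric.eventually_nhds_iff_ball.mp hfg
  refine ⟨min r (e / 2), lt_min hr (by linarith), fun Z h3 h4 => (h Z h3 (h4.trans
    (sdiff_subset_sdiff_left (closedBall_subset_closedBall (min_le_left _ _))))).congr ?_⟩
  intro z hz
  refine h2 z ?_ (h4 hz).2
  have := mem_closedBall.mp (h4 hz).1
  have := min_le_right r (e / 2)
  exact mem_ball.mpr (by linarith)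

theorem Rem.mul {X : Set ℂ} {f g : ℂ → ℂ} {x : ℂ} (hf : Rem X f x) (hg : Rem X g x) :
    Rem X (fun z => f z * g z) x := by
  obtain ⟨r, hr, h⟩ := hf
  obtain ⟨r', hr', h'⟩ := hg
  exact ⟨min r r', lt_min hr hr', fun Z h3 h4 => (h Z h3 (h4.trans
    (sdiff_subset_sdiff_left (closedBall_subset_closedBall (min_le_left _ _))))).mul
    (h' Z h3 (h4.trans
    (sdiff_subset_sdiff_left (closedBall_subset_closedBall (min_le_right _ _)))))⟩

theorem Rem.div {X : Set ℂ} {f g : ℂ → ℂ} {x : ℂ} (hf : Rem X f x) (hg : Rem X g x) :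
    Rem X (fun z => f z / g z) x := by
  obtain ⟨r, hr, h⟩ := hf
  obtain ⟨r', hr', h'⟩ := hg
  exact ⟨min r r', lt_min hr hr', fun Z h3 h4 => (h Z h3 (h4.trans
    (sdiff_subset_sdiff_left (closedBall_subset_closedBall (min_le_left _ _))))).div
    (h' Z h3 (h4.trans
    (sdiff_subset_sdiff_left (closedBall_subset_closedBall (min_le_right _ _)))))⟩

theorem rem_one (X : Set ℂ) (x : ℂ) : Rem X (fun _ => 1) x :=
  ⟨1, one_pos, fun Z _ _ => hasLog_one Z⟩

theorem rem_prod {ι : Type*} (s : Finset ι) {f : ι → ℂ → ℂ} {X : Set ℂ} {x : ℂ}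
    (h : ∀ i ∈ s, Rem X (f i) x) : Rem X (fun z => ∏ i ∈ s, f i z) x := by
  classical
  induction s using Finset.induction_on with
  | empty => simpa using rem_one X x
  | insert a s ha ih =>
    have := (h a (Finset.mem_insert_self _ _)).mul (ih fun i hi => h i (Finset.mem_insert_of_mem hi))
    exact this.congr (Filter.Eventually.of_forall fun z _ => by rw [Finset.prod_insert ha])

/-- a function of the form `exp g` with `g` continuous off `X` is removable -/
theorem rem_exp {X : Set ℂ} {g : ℂ → ℂ} (hg : ContinuousOn g Xᶜ) (x : ℂ) :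
    Rem X (fun z => exp (g z)) x :=
  ⟨1, one_pos, fun _ _ h => ⟨g, hg.mono fun _ hz => (h hz).2, fun _ _ => rfl⟩⟩

end Vale.Agent.P032
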