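import Vale.Agent.P032.Mean

/-! Tools for the rigidity theorem: means, Kolmogorov decomposition, van der Corput. -/

namespace Vale.Agent.P032

open scoped InnerProductSpace

section means
variable {G : Type*} {M : (G → ℝ) →ₗ[ℝ] ℝ}

lemma map_add'' (M : (G → ℝ) →ₗ[ℝ] ℝ) (f g : G → ℝ) : M (fun x => f x + g x) = M f + M g :=
  M.map_add f g

lemma map_sub'' (M : (G → ℝ) →ₗ[ℝ] ℝ) (f g : G → ℝ) : M (fun x => f x - g x) = M f - M g :=
  M.map_sub f g

lemma map_mul'' (M : (G → ℝ) →ₗ[ℝ] ℝ) (c : ℝ) (f : G → ℝ) : M (fun x => c * f x) = c * M f :=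
  M.map_smul c f

lemma map_sum'' (M : (G → ℝ) →ₗ[ℝ] ℝ) {ι : Type*} (s : Finset ι) (f : ι → G → ℝ) :
    M (fun x => ∑ i ∈ s, f i x) = ∑ i ∈ s, M (f i) := by
  rw [← map_sum]; congr 1; funext x; simp

lemma IsMean.const (hM : IsMean M) (c : ℝ) : M (fun _ => c) = c := by
  have := map_mul'' M c (fun _ => 1)
  simpa [hM.one] using this

lemma IsMean.mono (hM : IsMean M) {f g : G → ℝ} {C D : ℝ} (hf : ∀ x, |f x| ≤ C)
    (hg : ∀ x, |g x| ≤ D) (h : ∀ x, f x ≤ g x) : M f ≤ M g := by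
  have := hM.nonneg (fun x => g x - f x) (D + C)
    (fun x => (abs_sub _ _).trans (add_le_add (hg x) (hf x))) (fun x => sub_nonneg.2 (h x))
  rwa [map_sub'', sub_nonneg] at this

lemma IsMean.le_const (hM : IsMean M) {f : G → ℝ} {C t : ℝ} (hf : ∀ x, |f x| ≤ C)
    (h : ∀ x, f x ≤ t) : M f ≤ t :=
  (hM.mono hf (fun _ => le_refl |t|) h).trans (hM.const t).le

lemma IsMean.abs_le (hM : IsMean M) {f : G → ℝ} {C : ℝ} (hf : ∀ x, |f x| ≤ C) : |M f| ≤ C :=
  _root_.abs_le.2 ⟨(hM.const (-C)).ge.trans (hM.mono (fun _ => le_refl |-C|) hf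
    fun x => (_root_.abs_le.1 (hf x)).1), hM.le_const hf fun x => (_root_.abs_le.1 (hf x)).2⟩

lemma IsMean.sq_le (hM : IsMean M) {f : G → ℝ} {C : ℝ} (hf : ∀ x, |f x| ≤ C) :
    (M f) ^ 2 ≤ M (fun x => f x ^ 2) := by
  have h := hM.mono (f := fun x => 2 * M f * f x - (M f) ^ 2) (g := fun x => f x ^ 2)
    (C := |2 * M f| * C + |(M f) ^ 2|) (D := C ^ 2) (fun x => (abs_sub _ _).trans (by
      rw [abs_mul (2 * M f)]; gcongr; exact hf x))
    (fun x => by rw [abs_pow]; gcongr; exact hf x) (fun x => by nlinarith [sq_nonneg (f x - M f)])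
  rw [map_sub'', map_mul'', hM.const] at h
  linarith

lemma IsMean.pow_le (hM : IsMean M) {f : G → ℝ} (hf : ∀ x, |f x| ≤ 1) (k : ℕ) :
    (M f) ^ (2 ^ (k + 1)) ≤ M (fun x => f x ^ (2 ^ (k + 1))) := by
  induction k with
  | zero => simpa using hM.sq_le hf
  | succ k ih =>
    have h1 := hM.sq_le (f := fun x => f x ^ (2 ^ (k + 1))) (C := 1) fun x => by
      rw [abs_pow]; exact pow_le_one₀ (abs_nonneg _) (hf x)
    have h0 : 0 ≤ (M f) ^ (2 ^ (k + 1)) := by rw [pow_succ, pow_mul]; positivity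
    simp only [← pow_mul, ← pow_succ] at h1
    rw [pow_succ 2 (k + 1), pow_mul]
    exact (pow_le_pow_left₀ h0 ih 2).trans h1

end means

/-- positive definite kernel -/
def PK {I : Type} (k : I → I → ℝ) : Prop :=
  ∀ (ι : Type) [Fintype ι] (c : ι → ℝ) (v : ι → I), 0 ≤ ∑ i, ∑ j, c i * c j * k (v i) (v j)

lemma PD.pk {φ : ℂ → ℝ} (h : PD φ) : PK (fun v w => φ (v - w)) := by
  intro ι _ c v
  have e := Fintype.equivFin ι
  have := h _ (fun i => c (e.symm i)) (fun i => v (e.symm i))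
  rw [← e.symm.sum_comp]
  simpa only [← e.symm.sum_comp (fun j => c _ * c j * φ (v _ - v j))] using this

theorem exists_hilb {I : Type} (k : I → I → ℝ) (hs : ∀ a b, k a b = k b a) (hk : PK k) :
    ∃ (H : Type) (_ : NormedAddCommGroup H) (_ : InnerProductSpace ℝ H) (_ : CompleteSpace H)
      (e : I → H), ∀ a b, ⟪e a, e b⟫_ℝ = k a b := by
  let B : (I →₀ ℝ) →ₗ[ℝ] (I →₀ ℝ) →ₗ[ℝ] ℝ :=
    Finsupp.linearCombination ℝ fun a => Finsupp.linearCombination ℝ fun b => k a b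
  have hB : ∀ f g : I →₀ ℝ, B f g = ∑ a ∈ f.support, ∑ b ∈ g.support, f a * g b * k a b := by
    intro f g
    simp only [B, Finsupp.linearCombination_apply, Finsupp.sum, LinearMap.sum_apply,
      LinearMap.smul_apply, smul_eq_mul, Finset.mul_sum, mul_assoc]
  let c : PreInnerProductSpace.Core ℝ (I →₀ ℝ) :=
    { inner := fun f g => B f g
      conj_inner_symm := fun f g => by
        simp only [conj_trivial]
        rw [hB, hB, Finset.sum_comm]
        exact Finset.sum_congr rfl fun a _ => Finset.sum_congr rfl fun b _ => by rw [hs b a]; ring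
      re_inner_nonneg := fun f => by
        simp only [RCLike.re_to_real]
        rw [hB]
        have := hk f.support (fun a => f a.1) (fun a => a.1)
        rw [← Finset.sum_coe_sort]
        simpa only [← Finset.sum_coe_sort f.support] using this
      add_left := fun f g h => by rw [map_add]; rfl
      smul_left := fun f g r => by rw [map_smul]; rfl }
  let _ : SeminormedAddCommGroup (I →₀ ℝ) :=
    InnerProductSpace.Core.toSeminormedAddCommGroup (𝕜 := ℝ)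
  let _ : InnerProductSpace ℝ (I →₀ ℝ) := InnerProductSpace.ofCore c
  refine ⟨UniformSpace.Completion (I →₀ ℝ), inferInstance, inferInstance, inferInstance,
    fun a => ((Finsupp.single a 1 : I →₀ ℝ) : UniformSpace.Completion (I →₀ ℝ)),
    fun a b => ?_⟩
  rw [UniformSpace.Completion.inner_coe]
  change B (Finsupp.single a 1) (Finsupp.single b 1) = _
  simp [B]

section hilb
variable {H : Type} [NormedAddCommGroup H] [InnerProductSpace ℝ H]

lemma abs_inner_le {x y : H} {A B : ℝ} (hx : ‖x‖ ≤ A) (hy : ‖y‖ ≤ B) : |⟪x, y⟫_ℝ| ≤ A * B :=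
  (abs_real_inner_le_norm x y).trans
    (mul_le_mul hx hy (norm_nonneg _) ((norm_nonneg _).trans hx))

lemma inner_sum_sum {ι κ : Type} [Fintype ι] [Fintype κ] (c : ι → ℝ) (d : κ → ℝ) (x : ι → H)
    (y : κ → H) : ⟪∑ i, c i • x i, ∑ j, d j • y j⟫_ℝ = ∑ i, ∑ j, c i * d j * ⟪x i, y j⟫_ℝ := by
  simp only [sum_inner]
  simp only [inner_sum, real_inner_smul_left, real_inner_smul_right, mul_assoc, mul_left_comm (d _)]

theorem exists_wmean [CompleteSpace H] {J : Type*} {M : (J → ℝ) →ₗ[ℝ] ℝ} (hM : IsMean M)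
    (a : J → H) {C : ℝ} (ha : ∀ u, ‖a u‖ ≤ C) :
    ∃ b : H, ‖b‖ ≤ |C| ∧ ∀ x, ⟪b, x⟫_ℝ = M fun u => ⟪a u, x⟫_ℝ := by
  let L : H →ₗ[ℝ] ℝ :=
    { toFun := fun x => M fun u => ⟪a u, x⟫_ℝ
      map_add' := fun x y => by simp only [inner_add_right, map_add'']
      map_smul' := fun r x => by simp [inner_smul_right, map_mul''] }
  have hL : ∀ x, ‖L x‖ ≤ |C| * ‖x‖ := fun x =>
    hM.abs_le fun u => abs_inner_le ((ha u).trans (le_abs_self C)) le_rfl
  refine ⟨(InnerProductSpace.toDual ℝ H).symm (L.mkContinuous |C| hL), ?_, fun x => ?_⟩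
  · rw [LinearIsometryEquiv.norm_map]
    exact L.mkContinuous_norm_le (abs_nonneg C) hL
  · rw [InnerProductSpace.toDual_symm_apply]; rfl

theorem exists_hilb_mean {I : Type} {J : Type*} {M : (J → ℝ) →ₗ[ℝ] ℝ} (hM : IsMean M)
    (c : I → J → H) {C : ℝ} (hc : ∀ o u, ‖c o u‖ ≤ C) :
    ∃ (H' : Type) (_ : NormedAddCommGroup H') (_ : InnerProductSpace ℝ H') (_ : CompleteSpace H')
      (e : I → H'), (∀ a, ‖e a‖ ≤ |C|) ∧ ∀ a b, ⟪e a, e b⟫_ℝ = M fun u => ⟪c a u, c b u⟫_ℝ := by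
  obtain ⟨H', _, _, _, e, he⟩ := exists_hilb (fun a b => M fun u => ⟪c a u, c b u⟫_ℝ)
    (fun a b => by simp only [real_inner_comm]) (by
      intro ι _ r v
      simp only [← map_mul'', ← map_sum'', ← inner_sum_sum]
      refine hM.nonneg _ ((∑ i, |r i| * C) * ∑ i, |r i| * C) (fun u => ?_)
        fun u => real_inner_self_nonneg
      have : ‖∑ i, r i • c (v i) u‖ ≤ ∑ i, |r i| * C :=
        (norm_sum_le _ _).trans (Finset.sum_le_sum fun i _ => by
          rw [norm_smul, Real.norm_eq_abs]; gcongr; exact hc _ _)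
      exact abs_inner_le this this)
  refine ⟨H', inferInstance, inferInstance, inferInstance, e, fun a => ?_, he⟩
  have h1 : ‖e a‖ ^ 2 ≤ C ^ 2 := by
    rw [← real_inner_self_eq_norm_sq, he, sq]
    exact (le_abs_self _).trans (hM.abs_le fun u => abs_inner_le (hc a u) (hc a u))
  exact abs_le_abs_iff_sq h1
where abs_le_abs_iff_sq {x y : ℝ} (h : x ^ 2 ≤ y ^ 2) : x ≤ |y| :=
  (le_abs_self x).trans (sq_le_sq.1 h)

theorem vdC {G : Type} [CommGroup G] {M : (G → ℝ) →ₗ[ℝ] ℝ} (hM : IsMean M) (hI : Invariant M)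
    (a : H) (b : G → H) {C : ℝ} (ha : ‖a‖ ≤ 1) (hb : ∀ u, ‖b u‖ ≤ C) :
    (M fun u => ⟪a, b u⟫_ℝ) ^ 2 ≤ M fun h => M fun u => ⟪b u, b (u * h)⟫_ℝ := by
  have hC : 0 ≤ C := (norm_nonneg _).trans (hb 1)
  obtain ⟨H', _, _, _, e, he1, he⟩ := exists_hilb_mean (I := Option G) hM
    (fun o u => o.elim a fun h => b (h * u)) (C := C + 1) (by
      rintro (_ | h) u
      · simp only [Option.elim]; linarith
      · simp only [Option.elim]; linarith [hb (h * u)])
  simp only [Option.elim] at he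
  obtain ⟨η, -, hη⟩ := exists_wmean hM (fun h => e (some h)) fun h => he1 _
  have h1 : ⟪η, e none⟫_ℝ = M fun u => ⟪a, b u⟫_ℝ := by
    rw [hη, ← hM.const (M fun u => ⟪a, b u⟫_ℝ)]
    congr 1; funext h
    rw [he]
    simp only [real_inner_comm a]
    exact hI (fun u => ⟪a, b u⟫_ℝ) _ (fun u => abs_inner_le ha (hb u)) h
  have h2 : ⟪η, η⟫_ℝ = M fun h => M fun u => ⟪b u, b (u * h)⟫_ℝ := by
    rw [hη, ← hM.const (M fun h => M fun u => ⟪b u, b (u * h)⟫_ℝ)]
    congr 1; funext h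
    rw [real_inner_comm, hη, ← hI (fun h => M fun u => ⟪b u, b (u * h)⟫_ℝ) _
      (fun h => hM.abs_le fun u => abs_inner_le (hb _) (hb _)) h⁻¹]
    congr 1; funext h'
    rw [he, ← hI (fun u => ⟪b u, b (u * (h⁻¹ * h'))⟫_ℝ) _
      (fun u => abs_inner_le (hb _) (hb _)) h]
    congr 1; funext u
    rw [real_inner_comm]
    congr 2
    simp [mul_comm, mul_left_comm]
  have h3 : ‖e none‖ ^ 2 ≤ 1 := by
    rw [← real_inner_self_eq_norm_sq, he]
    simp only []
    rw [hM.const, real_inner_self_eq_norm_sq]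
    exact pow_le_one₀ (norm_nonneg _) ha
  rw [← h1, ← h2, real_inner_self_eq_norm_sq]
  have h4 := abs_real_inner_le_norm η (e none)
  calc ⟪η, e none⟫_ℝ ^ 2 = |⟪η, e none⟫_ℝ| ^ 2 := (sq_abs _).symm
    _ ≤ (‖η‖ * ‖e none‖) ^ 2 := by gcongr
    _ = ‖η‖ ^ 2 * ‖e none‖ ^ 2 := by ring
    _ ≤ _ := mul_le_of_le_one_right (by positivity) h3

end hilb

/-- invariant mean on the circle -/
structure IM (M : (Circle → ℝ) →ₗ[ℝ] ℝ) : Prop where
  mean : IsMean M
  inv : Invariant M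

lemma exists_root (t : Circle) {n : ℕ} (hn : n ≠ 0) : ∃ w : Circle, w ^ n = t := by
  obtain ⟨x, rfl⟩ := Circle.exp_surjective t
  refine ⟨Circle.exp (x / n), ?_⟩
  have : (n : ℝ) ≠ 0 := by exact_mod_cast hn
  rw [← Circle.exp_natCast_mul, mul_div_cancel₀ _ this]

/-- the mean transported along `h ↦ h ^ n` -/
noncomputable def Mp (M : (Circle → ℝ) →ₗ[ℝ] ℝ) (n : ℕ) : (Circle → ℝ) →ₗ[ℝ] ℝ :=
  M.comp (LinearMap.funLeft ℝ ℝ fun h => h ^ n)

lemma Mp_apply (M : (Circle → ℝ) →ₗ[ℝ] ℝ) (n : ℕ) (f : Circle → ℝ) :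
    Mp M n f = M fun h => f (h ^ n) := rfl

lemma IM.mp {M : (Circle → ℝ) →ₗ[ℝ] ℝ} (h : IM M) {n : ℕ} (hn : n ≠ 0) : IM (Mp M n) := by
  refine ⟨⟨h.mean.one, fun f C hC h0 => h.mean.nonneg _ C (fun x => hC _) fun x => h0 _⟩,
    fun f C hC g => ?_⟩
  obtain ⟨w, rfl⟩ := exists_root g hn
  rw [Mp_apply, Mp_apply, ← h.inv (fun h => f (h ^ n)) C (fun x => hC _) w]
  simp only [mul_pow]

end Vale.Agent.P032
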