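import Vale.Agent.P032.RigA

/-! The averaging operator on radial positive definite functions. -/

namespace Vale.Agent.P032

open scoped InnerProductSpace

/-- normalised radial positive definite functions -/
structure PR (φ : ℂ → ℝ) : Prop where
  pd : PD φ
  rad : Radial φ
  one : φ 0 = 1

variable {φ : ℂ → ℝ} {M M' : (Circle → ℝ) →ₗ[ℝ] ℝ}

lemma Radial.neg (h : Radial φ) (v : ℂ) : φ (-v) = φ v := by
  simpa using h (-1) v (by simp)

lemma Radial.circ (h : Radial φ) (u : Circle) (v : ℂ) : φ (u * v) = φ v := h u v (Circle.norm_coe u)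

lemma Radial.congr_circ (h : Radial φ) (u : Circle) {v w : ℂ} (e : u * v = w) : φ v = φ w := by
  rw [← e, h.circ]

lemma Radial.of_norm (h : Radial φ) {v w : ℂ} (e : ‖v‖ = ‖w‖) : φ v = φ w := by
  by_cases hw : w = 0
  · subst hw; rw [norm_zero, norm_eq_zero] at e; rw [e]
  · rw [← h (v / w) w (by rw [norm_div, e, div_self (norm_ne_zero_iff.2 hw)]), div_mul_cancel₀ _ hw]

lemma PR.emb (h : PR φ) : ∃ (H : Type) (_ : NormedAddCommGroup H) (_ : InnerProductSpace ℝ H)
    (_ : CompleteSpace H) (i : ℂ → H), (∀ v, ‖i v‖ ≤ 1) ∧ ∀ v w, ⟪i v, i w⟫_ℝ = φ (v - w) := by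
  obtain ⟨H, _, _, _, i, hi⟩ := exists_hilb (fun v w => φ (v - w))
    (fun a b => by rw [← h.rad.neg, neg_sub]) h.pd.pk
  refine ⟨H, inferInstance, inferInstance, inferInstance, i, fun v => ?_, hi⟩
  have : ‖i v‖ ^ 2 = 1 := by rw [← real_inner_self_eq_norm_sq, hi, sub_self, h.one]
  nlinarith [norm_nonneg (i v)]

lemma PR.abs_le (h : PR φ) (v : ℂ) : |φ v| ≤ 1 := by
  obtain ⟨H, _, _, _, i, h1, hi⟩ := h.emb
  simpa [hi] using abs_inner_le (h1 v) (h1 0)

/-- the averaging operator -/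
noncomputable def DD (M : (Circle → ℝ) →ₗ[ℝ] ℝ) (φ : ℂ → ℝ) (p : ℂ) : ℝ :=
  M fun h => φ (p - h * p)

lemma uniq (h : PR φ) (hM : IM M) (hM' : IM M') (p : ℂ) : DD M φ p = DD M' φ p := by
  obtain ⟨H, _, _, _, i, h1, hi⟩ := h.emb
  have key : ∀ {M M' : (Circle → ℝ) →ₗ[ℝ] ℝ}, IM M → IM M' → ∀ η η' : H,
      (∀ x, ⟪η, x⟫_ℝ = M fun u => ⟪i (u * p), x⟫_ℝ) →
      (∀ x, ⟪η', x⟫_ℝ = M' fun u => ⟪i (u * p), x⟫_ℝ) → ⟪η, η'⟫_ℝ = DD M' φ p := by
    intro M M' hM hM' η η' hη hη'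
    rw [hη, ← hM.mean.const (DD M' φ p)]
    congr 1; funext u
    rw [real_inner_comm, hη', DD, ← hM'.inv (fun h => φ (p - h * p)) 1 (fun _ => h.abs_le _) u⁻¹]
    congr 1; funext u'
    rw [real_inner_comm, hi]
    refine (h.rad.congr_circ u ?_).symm
    push_cast; field_simp
  obtain ⟨η, -, hη⟩ := exists_wmean hM.mean (fun u => i (u * p)) fun u => h1 _
  obtain ⟨η', -, hη'⟩ := exists_wmean hM'.mean (fun u => i (u * p)) fun u => h1 _
  rw [← key hM hM' η η' hη hη', ← key hM' hM η' η hη' hη, real_inner_comm]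

lemma PR.dd (h : PR φ) (hM : IM M) : PR (DD M φ) := by
  refine ⟨fun n c v => ?_, fun u v hu => ?_, by simp [DD, h.one, hM.mean.const]⟩
  · simp only [DD, ← map_mul'', ← map_sum'']
    refine hM.mean.nonneg _ (∑ i, ∑ j, |c i * c j|) (fun u => ?_) fun u => ?_
    · refine (Finset.abs_sum_le_sum_abs _ _).trans (Finset.sum_le_sum fun i _ =>
        (Finset.abs_sum_le_sum_abs _ _).trans (Finset.sum_le_sum fun j _ => ?_))
      rw [abs_mul]
      exact mul_le_of_le_one_right (abs_nonneg _) (h.abs_le _)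
    · refine (h.pd n c (fun i => v i - u * v i)).trans (le_of_eq ?_)
      refine Finset.sum_congr rfl fun i _ => Finset.sum_congr rfl fun j _ => ?_
      congr 2; ring
  · unfold DD
    congr 1; funext w
    rw [← h.rad u (v - w * v) hu]; congr 1; ring

lemma PR.iter (h : PR φ) (hM : IM M) (k : ℕ) : PR ((DD M)^[k] φ) := by
  induction k with
  | zero => exact h
  | succ k ih => rw [Function.iterate_succ_apply']; exact ih.dd hM

/-- energy of a weighted family -/
def En (φ : ℂ → ℝ) {ι : Type} [Fintype ι] (w : ι → ℝ) (v : ι → ℂ) : ℝ :=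
  ∑ i, ∑ j, w i * w j * φ (v i - v j)

/-- `Wild` with arbitrary finite index types -/
def WildT (φ : ℂ → ℝ) : Prop :=
  ∀ ε : ℝ, 0 < ε → ∃ (ι : Type) (_ : Fintype ι) (w : ι → ℝ) (v : ι → ℂ),
    (∀ i, 0 ≤ w i) ∧ ∑ i, w i = 1 ∧ (∀ i, ‖v i‖ ≤ ε) ∧ En φ w v ≤ ε

section
variable {H : Type} [NormedAddCommGroup H] [InnerProductSpace ℝ H] {i : ℂ → H}

lemma norm_sq_En (hi : ∀ v w, ⟪i v, i w⟫_ℝ = φ (v - w)) {ι : Type} [Fintype ι] (w : ι → ℝ)
    (x : ι → ℂ) (y : ℂ) : ‖∑ a, w a • i (x a + y)‖ ^ 2 = En φ w x := by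
  rw [← real_inner_self_eq_norm_sq, inner_sum_sum]
  simp only [hi, En, add_sub_add_right_eq_sub]

lemma norm_conv_le {ι : Type} [Fintype ι] {w : ι → ℝ} (h0 : ∀ a, 0 ≤ w a) (h1 : ∑ a, w a = 1)
    {x : ι → H} {C : ℝ} (hx : ∀ a, ‖x a‖ ≤ C) : ‖∑ a, w a • x a‖ ≤ C := by
  refine (norm_sum_le _ _).trans ?_
  calc ∑ a, ‖w a • x a‖ ≤ ∑ a, w a * C := Finset.sum_le_sum fun a _ => by
        rw [norm_smul, Real.norm_of_nonneg (h0 a)]; exact mul_le_mul_of_nonneg_left (hx a) (h0 a)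
    _ = C := by rw [← Finset.sum_mul, h1, one_mul]

end

lemma En_conv (h : PR φ) {ι κ : Type} [Fintype ι] [Fintype κ] (w : ι → ℝ) {w' : κ → ℝ}
    (h0 : ∀ a, 0 ≤ w' a) (h1 : ∑ a, w' a = 1) (x : ι → ℂ) (y : κ → ℂ) :
    En φ (fun p : ι × κ => w p.1 * w' p.2) (fun p => x p.1 + y p.2) ≤ En φ w x := by
  obtain ⟨H, _, _, _, i, -, hi⟩ := h.emb
  rw [← norm_sq_En hi _ _ 0, ← norm_sq_En hi w x 0]
  refine pow_le_pow_left₀ (norm_nonneg _) ?_ 2
  have : ∑ p : ι × κ, (w p.1 * w' p.2) • i (x p.1 + y p.2 + 0) =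
      ∑ b, w' b • ∑ a, w a • i (x a + y b) := by
    rw [Fintype.sum_prod_type_right]
    simp only [Finset.smul_sum, smul_smul, add_zero, mul_comm]
  rw [this]
  refine norm_conv_le h0 h1 fun b => le_of_eq ?_
  rw [← sq_eq_sq₀ (norm_nonneg _) (norm_nonneg _), norm_sq_En hi, norm_sq_En hi]

lemma En_swap {ι κ : Type} [Fintype ι] [Fintype κ] (w : ι → ℝ) (w' : κ → ℝ) (x : ι → ℂ)
    (y : κ → ℂ) : En φ (fun p : ι × κ => w p.1 * w' p.2) (fun p => x p.1 + y p.2) =
      En φ (fun p : κ × ι => w' p.1 * w p.2) (fun p => y p.1 + x p.2) := by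
  unfold En
  rw [← (Equiv.prodComm ι κ).sum_comp]
  refine Finset.sum_congr rfl fun p _ => ?_
  rw [← (Equiv.prodComm ι κ).sum_comp]
  simp [mul_comm, add_comm]

lemma WildT.common (hw : WildT φ) (h : PR φ) (Λ : Finset ℂ) (hΛ : ∀ l ∈ Λ, l ≠ 0) :
    ∀ ε : ℝ, 0 < ε → ∃ (ι : Type) (_ : Fintype ι) (w : ι → ℝ) (v : ι → ℂ),
    (∀ i, 0 ≤ w i) ∧ ∑ i, w i = 1 ∧ (∀ i, ‖v i‖ ≤ ε) ∧
      ∀ l ∈ Λ, En φ w (fun a => l * v a) ≤ ε := by
  classical
  induction Λ using Finset.induction_on with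
  | empty => exact fun ε hε => ⟨Unit, inferInstance, fun _ => 1, fun _ => 0, by simp, by simp,
      by simp [hε.le], by simp⟩
  | insert l Λ _ ih =>
    intro ε hε
    have hl : l ≠ 0 := hΛ l (by simp)
    have hl' : 0 < ‖l‖ := norm_pos_iff.2 hl
    obtain ⟨ι, _, w, v, h0, h1, h2, h3⟩ := ih (fun l hl => hΛ l (by simp [hl])) (ε / 2)
      (by positivity)
    obtain ⟨κ, _, w', v', h0', h1', h2', h3'⟩ := hw (min ε (ε / 2 * ‖l‖)) (by positivity)
    refine ⟨ι × κ, inferInstance, fun p => w p.1 * w' p.2, fun p => v p.1 + v' p.2 / l,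
      fun p => mul_nonneg (h0 _) (h0' _), ?_, fun p => ?_, fun m hm => ?_⟩
    · rw [Fintype.sum_prod_type]; simp [← Finset.mul_sum, h1, h1']
    · refine (norm_add_le _ _).trans ?_
      have : ‖v' p.2 / l‖ ≤ ε / 2 := by
        rw [norm_div, div_le_iff₀ hl']; exact (h2' _).trans (min_le_right _ _)
      linarith [h2 p.1]
    · simp only [mul_add]
      rcases Finset.mem_insert.1 hm with rfl | hm
      · rw [En_swap w w' (fun a => m * v a) (fun b => m * (v' b / m))]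
        refine (En_conv h w' h0 h1 (fun b => m * (v' b / m)) (fun a => m * v a)).trans ?_
        simp only [mul_div_cancel₀ _ hl]
        exact h3'.trans (min_le_left _ _)
      · exact (En_conv h w h0' h1' (fun a => m * v a) (fun b => m * (v' b / l))).trans
          ((h3 m hm).trans (by linarith))

lemma sum_En_le (h : PR φ) {N : ℕ} (u : Fin N → ℂ) {ι : Type} [Fintype ι] {w : ι → ℝ}
    (h0 : ∀ a, 0 ≤ w a) (h1 : ∑ a, w a = 1) (v : ι → ℂ) {δ : ℝ} (hδ : 0 ≤ δ)
    (hE : ∀ j k, j ≠ k → En φ w (fun a => (u j - u k) * v a) ≤ δ ^ 4) (t : ℂ) :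
    ∑ j, En φ w (fun a => (u j - t) * v a) ≤ 1 + N * δ := by
  classical
  obtain ⟨H, _, _, _, i, hi1, hi⟩ := h.emb
  set S := ∑ j, En φ w (fun a => (u j - t) * v a) with hS
  set y : Fin N → ι → H := fun j a => ∑ b, w b • i ((u j - t) * v b - u j * v a) with hy
  have e1 : S = ∑ a, w a * ⟪i (-(t * v a)), ∑ j, y j a⟫_ℝ := by
    simp only [hS, En, hy, inner_sum, real_inner_smul_right, hi, Finset.mul_sum]
    rw [Finset.sum_comm]
    refine Finset.sum_congr rfl fun a _ => Finset.sum_congr rfl fun j _ =>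
      Finset.sum_congr rfl fun b _ => ?_
    rw [mul_assoc]; congr 3; ring
  have e2 : S ≤ ∑ a, w a * ‖∑ j, y j a‖ := by
    rw [e1]
    refine Finset.sum_le_sum fun a _ => mul_le_mul_of_nonneg_left ?_ (h0 a)
    simpa using (le_abs_self _).trans (abs_inner_le (hi1 (-(t * v a))) (le_refl ‖∑ j, y j a‖))
  have e3 : (∑ a, w a * ‖∑ j, y j a‖) ^ 2 ≤ ∑ a, w a * ‖∑ j, y j a‖ ^ 2 := by
    have := Finset.sum_sq_le_sum_mul_sum_of_sq_le_mul Finset.univ (r := fun a => w a * ‖∑ j, y j a‖)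
      (f := w) (g := fun a => w a * ‖∑ j, y j a‖ ^ 2) (fun a _ => h0 a)
      (fun a _ => mul_nonneg (h0 a) (sq_nonneg _)) (fun a _ => le_of_eq (by ring))
    rwa [h1, one_mul] at this
  have e4 : ∀ j k, ∑ a, w a * ⟪y j a, y k a⟫_ℝ ≤
      (if j = k then En φ w (fun a => (u j - t) * v a) else 0) + δ ^ 2 := by
    intro j k
    split_ifs with hjk
    · subst hjk
      have : ∀ a, ⟪y j a, y j a⟫_ℝ = En φ w (fun a => (u j - t) * v a) := fun a => by
        rw [real_inner_self_eq_norm_sq, ← norm_sq_En hi w _ (-(u j * v a))]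
        simp only [hy, sub_eq_add_neg]
      simp only [this, ← Finset.sum_mul, h1]
      nlinarith [sq_nonneg δ]
    · have hz : ‖∑ a, w a • i ((u j - u k) * v a + 0)‖ ≤ δ ^ 2 := by
        refine (abs_le_of_sq_le_sq' ?_ (by positivity)).2
        rw [norm_sq_En hi, ← pow_mul]; exact hE j k hjk
      have hx : ‖∑ p : ι × ι, (w p.1 * w p.2) • i ((u j - t) * v p.1 - (u k - t) * v p.2)‖ ≤ 1 :=
        norm_conv_le (fun p => mul_nonneg (h0 _) (h0 _))
          (by rw [Fintype.sum_prod_type]; simp [← Finset.mul_sum, h1]) fun _ => hi1 _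
      have := (le_abs_self _).trans (abs_inner_le hz hx)
      rw [inner_sum_sum, mul_one] at this
      rw [zero_add]
      refine le_trans (le_of_eq ?_) this
      refine Finset.sum_congr rfl fun a _ => ?_
      simp only [hy, inner_sum_sum, hi, Finset.mul_sum, Fintype.sum_prod_type]
      refine Finset.sum_congr rfl fun b _ => Finset.sum_congr rfl fun c _ => ?_
      rw [← h.rad.neg, mul_assoc (w a)]; congr 3; ring
  have e5 : ∑ a, w a * ‖∑ j, y j a‖ ^ 2 ≤ S + (N * δ) ^ 2 := by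
    simp only [← real_inner_self_eq_norm_sq, sum_inner]
    simp only [inner_sum, Finset.mul_sum]
    rw [Finset.sum_comm]
    calc ∑ j, ∑ a, ∑ k, w a * ⟪y j a, y k a⟫_ℝ = ∑ j, ∑ k, ∑ a, w a * ⟪y j a, y k a⟫_ℝ :=
          Finset.sum_congr rfl fun j _ => Finset.sum_comm
      _ ≤ ∑ j, ∑ k, ((if j = k then En φ w (fun a => (u j - t) * v a) else 0) + δ ^ 2) :=
          Finset.sum_le_sum fun j _ => Finset.sum_le_sum fun k _ => e4 j k
      _ = _ := by simp [Finset.sum_add_distrib, hS]; ring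
  by_contra hc
  rw [not_le] at hc
  have hN : 0 ≤ N * δ := by positivity
  have e6 : S ^ 2 ≤ S + (N * δ) ^ 2 := ((pow_le_pow_left₀ (by linarith) e2 2).trans e3).trans e5
  nlinarith

lemma exists_inj (N : ℕ) : ∃ u : Fin N → Circle, Function.Injective u := by
  refine ⟨fun j => Circle.exp (1 / (j + 1)), fun j k hjk => ?_⟩
  have hm : ∀ j : Fin N, 1 / ((j : ℝ) + 1) ∈ Set.Ioc 0 Real.pi := fun j =>
    ⟨by positivity, le_trans (by rw [div_le_one (by positivity)]; linarith [j.1.cast_nonneg (α := ℝ)])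
      (by linarith [Real.two_le_pi] : (1 : ℝ) ≤ Real.pi)⟩
  have := Circle.exp_injOn_Ioc (a := 0) (b := Real.pi) (by linarith [Real.pi_pos]) (hm j) (hm k) hjk
  rw [one_div, one_div, inv_inj, add_left_inj] at this
  exact Fin.ext (by exact_mod_cast this)

lemma WildT.dd (hw : WildT φ) (h : PR φ) (hM : IM M) : WildT (DD M φ) := by
  classical
  intro ε hε
  obtain ⟨N, hN⟩ := exists_nat_gt (2 / ε)
  have hN0 : (0 : ℝ) < N := lt_trans (by positivity) hN
  obtain ⟨u, hu⟩ := exists_inj N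
  obtain ⟨ι, _, w, v, h0, h1, h2, h3⟩ := hw.common h
    ((Finset.univ.filter fun p : Fin N × Fin N => p.1 ≠ p.2).image fun p => (u p.1 : ℂ) - u p.2)
    (by
      intro l hl
      obtain ⟨p, hp, rfl⟩ := Finset.mem_image.1 hl
      exact sub_ne_zero.2 fun e => (Finset.mem_filter.1 hp).2 (hu (Circle.ext e)))
    (min ε ((ε / 2) ^ 4)) (by positivity)
  refine ⟨ι, inferInstance, w, v, h0, h1, fun a => (h2 a).trans (min_le_left _ _), ?_⟩
  have hb : ∀ x : ι → ℂ, |En φ w x| ≤ ∑ a, ∑ b, |w a * w b| := fun x =>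
    (Finset.abs_sum_le_sum_abs _ _).trans (Finset.sum_le_sum fun i _ =>
      (Finset.abs_sum_le_sum_abs _ _).trans (Finset.sum_le_sum fun j _ => by
        rw [abs_mul]; exact mul_le_of_le_one_right (abs_nonneg _) (h.abs_le _)))
  have e1 : ∀ j, M (fun t => En φ w (fun a => (u j - t) * v a)) = En (DD M φ) w v := fun j => by
    simp only [En, map_sum'', map_mul'', DD]
    refine Finset.sum_congr rfl fun a _ => Finset.sum_congr rfl fun b _ => ?_
    congr 1
    rw [← hM.inv (fun t => φ ((u j - t) * v a - (u j - t) * v b)) 1 (fun _ => h.abs_le _) (u j)]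
    congr 1; funext t
    refine (h.rad.congr_circ (u j) ?_).symm
    push_cast; ring
  have e2 := hM.mean.le_const (f := fun t : Circle => ∑ j, En φ w (fun a => (u j - t) * v a))
    (C := ∑ _j : Fin N, ∑ a, ∑ b, |w a * w b|) (t := 1 + N * (ε / 2))
    (fun t => (Finset.abs_sum_le_sum_abs _ _).trans (Finset.sum_le_sum fun j _ => hb _))
    (fun t => sum_En_le h (fun j => u j) h0 h1 v (by positivity) (fun j k hjk =>
      (h3 _ (Finset.mem_image.2 ⟨(j, k), by simpa using hjk, rfl⟩)).trans (min_le_right _ _)) t)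
  rw [map_sum''] at e2
  simp only [e1, Finset.sum_const, Finset.card_univ, Fintype.card_fin, nsmul_eq_mul] at e2
  rw [div_lt_iff₀ hε] at hN
  refine le_of_mul_le_mul_left (e2.trans ?_) hN0
  linarith

lemma WildT.iter (hw : WildT φ) (h : PR φ) (hM : IM M) (k : ℕ) : WildT ((DD M)^[k] φ) := by
  induction k with
  | zero => exact hw
  | succ k ih => rw [Function.iterate_succ_apply']; exact ih.dd (h.iter hM k) hM

lemma poly_vdC (h : PR φ) (hM : IM M) (k : ℕ) : ∀ p : ℕ → ℂ,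
    (M fun u => φ (∑ j ∈ Finset.range (k + 1), p j * (u : ℂ) ^ j)) ^ (2 ^ (k + 1)) ≤
      (DD M)^[k + 1] φ (p k) := by
  obtain ⟨H, _, _, _, i, h1, hi⟩ := h.emb
  induction k with
  | zero =>
    intro p
    have := vdC hM.mean hM.inv (i 0) (fun u => i (u * p 0)) (h1 _) fun _ => h1 _
    simp only [hi, zero_sub, h.rad.neg, h.rad.circ] at this
    simp only [zero_add, Finset.range_one, Finset.sum_singleton, pow_zero, mul_one, pow_one,
      Function.iterate_one, DD]
    convert this using 3 with t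
    rw [← hM.mean.const (φ _)]
    congr 1; funext u
    refine h.rad.congr_circ u ?_
    push_cast; ring
  | succ k ih =>
    intro p
    have h2 := vdC hM.mean hM.inv (i (-p 0))
      (fun u => i (∑ j ∈ Finset.range (k + 1), p (j + 1) * (u : ℂ) ^ (j + 1))) (h1 _) fun _ => h1 _
    simp only [hi] at h2
    have e1 : (fun u : Circle => φ (-p 0 - ∑ j ∈ Finset.range (k + 1), p (j + 1) * (u : ℂ) ^ (j + 1)))
        = fun u : Circle => φ (∑ j ∈ Finset.range (k + 1 + 1), p j * (u : ℂ) ^ j) := by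
      funext u
      rw [← h.rad.neg, Finset.sum_range_succ' _ (k + 1)]; congr 1; ring
    set y : Circle → ℝ := fun t => M fun u => φ (∑ j ∈ Finset.range (k + 1),
      (p (j + 1) * (1 - (t : ℂ) ^ (j + 1))) * (u : ℂ) ^ j) with hy
    have e2 : (fun t : Circle => M fun u : Circle =>
        φ (∑ j ∈ Finset.range (k + 1), p (j + 1) * (u : ℂ) ^ (j + 1) -
          ∑ j ∈ Finset.range (k + 1), p (j + 1) * ((u * t : Circle) : ℂ) ^ (j + 1))) = y := by
      funext t
      simp only [hy]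
      congr 1; funext u
      refine (h.rad.congr_circ u ?_).symm
      rw [← Finset.sum_sub_distrib, Finset.mul_sum]
      refine Finset.sum_congr rfl fun j _ => ?_
      push_cast; ring
    rw [e1, e2] at h2
    have hy1 : ∀ t, |y t| ≤ 1 := fun t => hM.mean.abs_le fun _ => h.abs_le _
    rw [pow_succ' 2 (k + 1), pow_mul]
    refine (pow_le_pow_left₀ (sq_nonneg _) h2 _).trans ((hM.mean.pow_le hy1 k).trans ?_)
    rw [Function.iterate_succ_apply' (DD M) (k + 1),
      uniq (h.iter hM (k + 1)) hM (hM.mp (Nat.succ_ne_zero k)), DD, Mp_apply]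
    refine hM.mean.mono (C := 1) (D := 1) (fun t => ?_) (fun t => (h.iter hM _).abs_le _)
      fun t => (ih _).trans (le_of_eq ?_)
    · rw [abs_pow]; exact pow_le_one₀ (abs_nonneg _) (hy1 t)
    · rw [Nat.succ_eq_add_one]; push_cast; ring_nf

end Vale.Agent.P032
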