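import Vale.Agent.P032.RigB

/-! Extreme points and the spherical equation. -/

namespace Vale.Agent.P032

open scoped InnerProductSpace
open Set

variable {φ ψ : ℂ → ℝ} {M : (Circle → ℝ) →ₗ[ℝ] ℝ}

lemma isClosed_PR : IsClosed {χ : ℂ → ℝ | PR χ} := by
  have : {χ : ℂ → ℝ | PR χ} = ((⋂ (n : ℕ) (c : Fin n → ℝ) (v : Fin n → ℂ),
      {χ | 0 ≤ ∑ i, ∑ j, c i * c j * χ (v i - v j)}) ∩
      ⋂ (u : ℂ) (v : ℂ) (_ : ‖u‖ = 1), {χ | χ (u * v) = χ v}) ∩ {χ | χ 0 = 1} := by
    ext χ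
    simp only [mem_ofPred_eq, mem_inter_iff, mem_iInter]
    exact ⟨fun h => ⟨⟨h.pd, h.rad⟩, h.one⟩, fun h => ⟨h.1.1, h.1.2, h.2⟩⟩
  rw [this]
  refine ((isClosed_iInter fun n => isClosed_iInter fun c => isClosed_iInter fun v => ?_).inter
    (isClosed_iInter fun u => isClosed_iInter fun v => isClosed_iInter fun _ => ?_)).inter ?_
  · exact isClosed_le continuous_const (by fun_prop)
  · exact isClosed_eq (by fun_prop) (by fun_prop)
  · exact isClosed_eq (by fun_prop) continuous_const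

lemma isCompact_PR : IsCompact {χ : ℂ → ℝ | PR χ} :=
  (isCompact_univ_pi fun _ : ℂ => isCompact_Icc (a := (-1 : ℝ)) (b := 1)).of_isClosed_subset
    isClosed_PR fun _ h v _ => abs_le.1 (PR.abs_le h v)

lemma exists_extreme (h : PR φ) (hw : WildT φ) {s : ℂ} (hs : φ s ≠ 0) :
    ∃ ψ, PR ψ ∧ WildT ψ ∧ ψ s ≠ 0 ∧ ψ ∈ extremePoints ℝ {χ : ℂ → ℝ | PR χ} := by
  choose ι inst w v h0 h1 h2 h3 using fun j : ℕ => hw ((1 / 4) ^ j) (by positivity)
  set d := φ s ^ 2 / 4 with hd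
  have hd0 : 0 < d := by positivity
  set G : ℕ → (ℂ → ℝ) → ℝ := fun N χ =>
    φ s * χ s - d * ∑ j ∈ Finset.range N, 2 ^ j * En χ (w j) (v j) with hG
  have hE : ∀ χ, PR χ → ∀ j, 0 ≤ En χ (w j) (v j) := fun χ hχ j => hχ.pd.pk _ _ _
  have hGc : ∀ N, Continuous (G N) := fun N => by simp only [hG, En]; fun_prop
  have hGa : ∀ χ, PR χ → Antitone fun N => G N χ := fun χ hχ => antitone_nat_of_succ_le fun N => by
    simp only [hG, Finset.sum_range_succ]
    have := hE χ hχ N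
    nlinarith [mul_nonneg hd0.le (mul_nonneg (pow_pos two_pos N).le this)]
  have hG1 : ∀ χ, PR χ → φ s * χ s ≤ 1 := fun χ hχ => (le_abs_self _).trans (by
    rw [abs_mul]; exact mul_le_one₀ (h.abs_le s) (abs_nonneg _) (hχ.abs_le s))
  have hlin : ∀ N (a b : ℝ) χ χ', G N (a • χ + b • χ') = a * G N χ + b * G N χ' := by
    intro N a b χ χ'
    have : ∀ j, En (a • χ + b • χ') (w j) (v j) = a * En χ (w j) (v j) + b * En χ' (w j) (v j) :=
      fun j => by
        simp only [En, Finset.mul_sum, ← Finset.sum_add_distrib, Pi.add_apply, Pi.smul_apply,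
          smul_eq_mul]
        exact Finset.sum_congr rfl fun _ _ => Finset.sum_congr rfl fun _ _ => by ring
    simp only [hG, this, mul_add, Finset.sum_add_distrib, mul_left_comm _ a, mul_left_comm _ b,
      ← Finset.mul_sum, Pi.add_apply, Pi.smul_apply, smul_eq_mul]
    ring
  set T := {t | ∃ χ, PR χ ∧ ∀ N, t ≤ G N χ} with hT
  have hTb : BddAbove T := ⟨1, fun t ⟨χ, hχ, ht⟩ => (ht 0).trans (by simpa [hG] using hG1 χ hχ)⟩
  have hT0 : 2 * d ∈ T := ⟨φ, h, fun N => by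
    have : ∑ j ∈ Finset.range N, 2 ^ j * En φ (w j) (v j) ≤ 2 :=
      le_trans (Finset.sum_le_sum fun j _ => by
        have := mul_le_mul_of_nonneg_left (h3 j) (pow_pos two_pos j).le
        rwa [← mul_pow, show (2 : ℝ) * (1 / 4) = 1 / 2 by norm_num] at this)
        (sum_geometric_two_le N)
    simp only [hG]
    nlinarith⟩
  set g := sSup T with hg
  have hg0 : 2 * d ≤ g := le_csSup hTb hT0
  have hKc : ∀ t, IsClosed {χ | PR χ ∧ ∀ N, t ≤ G N χ} := fun t =>
    by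
      rw [show {χ | PR χ ∧ ∀ N, t ≤ G N χ} = {χ | PR χ} ∩ ⋂ N, {χ | t ≤ G N χ} from by ext; simp]
      exact isClosed_PR.inter (isClosed_iInter fun N => isClosed_le continuous_const (hGc N))
  have hKk : ∀ t, IsCompact {χ | PR χ ∧ ∀ N, t ≤ G N χ} := fun t =>
    isCompact_PR.of_isClosed_subset (hKc t) fun _ h => h.1
  have hne : {χ | PR χ ∧ ∀ N, g ≤ G N χ}.Nonempty := by
    obtain ⟨χ, hχ⟩ := IsCompact.nonempty_iInter_of_sequence_nonempty_isCompact_isClosed
      (fun n : ℕ => {χ | PR χ ∧ ∀ N, g - 1 / (n + 1) ≤ G N χ})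
      (fun n χ hχ => ⟨hχ.1, fun N => le_trans (by
        have := Nat.one_div_le_one_div (α := ℝ) (Nat.le_succ n)
        linarith) (hχ.2 N)⟩)
      (fun n => by
        obtain ⟨t, ⟨χ, hχ, ht⟩, hlt⟩ := exists_lt_of_lt_csSup ⟨_, hT0⟩
          (show g - 1 / (n + 1) < sSup T from sub_lt_self _ (by positivity))
        exact ⟨χ, hχ, fun N => hlt.le.trans (ht N)⟩) (hKk _) fun n => hKc _
    simp only [mem_iInter, mem_ofPred_eq] at hχ
    refine ⟨χ, (hχ 0).1, fun N => le_of_forall_pos_le_add fun ε hε => ?_⟩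
    obtain ⟨n, hn⟩ := exists_nat_one_div_lt hε
    linarith [(hχ n).2 N]
  obtain ⟨ψ, ⟨hψ, hψg⟩, hext⟩ := (hKk g).extremePoints_nonempty hne
  have face : ∀ χ χ' (a b : ℝ), PR χ → PR χ' → 0 < a → 0 < b → a + b = 1 → a • χ + b • χ' = ψ →
      ∀ N, g ≤ G N χ := by
    intro χ χ' a b hχ hχ' ha hb hab e
    by_contra hc
    obtain ⟨N0, hN0⟩ := not_forall.1 hc
    rw [not_le] at hN0
    have : g + a * (g - G N0 χ) / b ∈ T := ⟨χ', hχ', fun N => by
      refine le_trans ?_ (hGa χ' hχ' (le_max_left N N0))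
      have e1 := hψg (max N N0)
      rw [← e, hlin] at e1
      have e2 := mul_le_mul_of_nonneg_left (hGa χ hχ (le_max_right N N0)) ha.le
      rw [← le_sub_iff_add_le', div_le_iff₀ hb]
      have hb' : b = 1 - a := by linarith
      simp only [] at e2 ⊢
      have : g * b = g - a * g := by rw [hb']; ring
      nlinarith⟩
    have h5 := le_csSup hTb this
    have : 0 < a * (g - G N0 χ) / b := div_pos (mul_pos ha (by linarith)) hb
    linarith
  refine ⟨ψ, hψ, fun ε hε => ?_, fun h0 => ?_, hψ, ?_⟩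
  · obtain ⟨j, hj⟩ := exists_pow_lt_of_lt_one (lt_min hε (mul_pos hε hd0))
      (show (1 : ℝ) / 2 < 1 by norm_num)
    refine ⟨ι j, inst j, w j, v j, h0 j, h1 j, fun a => (h2 j a).trans ?_, ?_⟩
    · refine le_trans ?_ (hj.le.trans (min_le_left _ _))
      gcongr; norm_num
    · have e1 := hψg (j + 1)
      have e2 : 0 ≤ ∑ k ∈ Finset.range j, 2 ^ k * En ψ (w k) (v k) :=
        Finset.sum_nonneg fun k _ => mul_nonneg (by positivity) (hE ψ hψ k)
      simp only [hG, Finset.sum_range_succ] at e1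
      have e3 : d * (2 ^ j * En ψ (w j) (v j)) ≤ 1 := by
        nlinarith [hG1 ψ hψ, mul_nonneg hd0.le e2]
      have e4 : (1 / 2 : ℝ) ^ j ≤ ε * d := hj.le.trans (min_le_right _ _)
      have e5 : (1 / 2 : ℝ) ^ j * 2 ^ j = 1 := by rw [← mul_pow]; norm_num
      have e6 : 1 ≤ ε * d * 2 ^ j := by rw [← e5]; gcongr
      refine le_of_mul_le_mul_left (a := d * 2 ^ j) ?_ (by positivity)
      nlinarith
  · have := hψg 0
    simp [hG, h0] at this
    linarith
  · rintro χ hχ χ' hχ' ⟨a, b, ha, hb, hab, e⟩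
    exact hext ⟨hχ, face χ χ' a b hχ hχ' ha hb hab e⟩
      ⟨hχ', face χ' χ b a hχ' hχ hb ha (by linarith) (by rw [add_comm]; exact e)⟩
      ⟨a, b, ha, hb, hab, e⟩

lemma spherical (h : PR ψ) (hext : ψ ∈ extremePoints ℝ {χ : ℂ → ℝ | PR χ}) (hM : IM M)
    (p v : ℂ) : M (fun u => ψ (v - u * p)) = ψ p * ψ v := by
  obtain ⟨H, _, _, _, i, h1, hi⟩ := h.emb
  have hp := abs_le.1 (h.abs_le p)
  have key : ∀ σ : ℝ, |σ| ≤ 1 / 2 →
      PR (fun v => (1 + σ * ψ p)⁻¹ * (ψ v + σ * M (fun u => ψ (v - u * p)))) := by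
    intro σ hσ
    have hpos : 0 < 1 + σ * ψ p := by
      have : |σ * ψ p| ≤ 1 / 2 * 1 := by
        rw [abs_mul]; exact mul_le_mul hσ (h.abs_le p) (abs_nonneg _) (by norm_num)
      linarith [(abs_le.1 this).1]
    refine ⟨fun n c v => ?_, fun u v hu => ?_, ?_⟩
    · have e : ∑ i, ∑ j, c i * c j * ((1 + σ * ψ p)⁻¹ * (ψ (v i - v j) +
          σ * M (fun u => ψ (v i - v j - u * p)))) = (1 + σ * ψ p)⁻¹ * (En ψ c v + σ *
          M (fun u => ⟪∑ a, c a • i (v a + 0), ∑ a, c a • i (v a + u * p)⟫_ℝ)) := by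
        simp only [inner_sum_sum, hi, map_sum'', map_mul'', En, Finset.mul_sum,
          ← Finset.sum_add_distrib, add_zero, sub_add_eq_sub_sub]
        exact Finset.sum_congr rfl fun _ _ => Finset.sum_congr rfl fun _ _ => by ring
      rw [e]
      refine mul_nonneg (inv_nonneg.2 hpos.le) ?_
      have hn : ∀ y, ‖∑ a, c a • i (v a + y)‖ ≤ √(En ψ c v) := fun y =>
        Real.le_sqrt_of_sq_le (norm_sq_En hi c v y).le
      have h0 : 0 ≤ En ψ c v := h.pd.pk _ _ _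
      have h2 := hM.mean.abs_le fun u : Circle => abs_inner_le (hn 0) (hn (u * p))
      rw [Real.mul_self_sqrt h0] at h2
      have h3 := mul_le_mul hσ h2 (abs_nonneg _) (by norm_num)
      rw [← abs_mul] at h3
      linarith [(abs_le.1 h3).1]
    · rw [h.rad u v hu]
      congr 3
      obtain ⟨U, rfl⟩ : ∃ U : Circle, (U : ℂ) = u := ⟨⟨u, mem_sphere_zero_iff_norm.2 hu⟩, rfl⟩
      rw [← hM.inv (fun t => ψ (U * v - t * p)) 1 (fun _ => h.abs_le _) U]
      congr 1; funext t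
      refine (h.rad.congr_circ U ?_).symm
      push_cast; ring
    · simp only [zero_sub, h.rad.neg, h.rad.circ, hM.mean.const, h.one]
      exact inv_mul_cancel₀ hpos.ne'
  have e := hext.2 (key (1 / 2) (by norm_num)) (key (-(1 / 2)) (by norm_num))
    ⟨(1 + 1 / 2 * ψ p) / 2, (1 + -(1 / 2) * ψ p) / 2, by linarith, by linarith, by ring, by
      funext v
      have a1 : 1 + 1 / 2 * ψ p ≠ 0 := by linarith
      have a2 : 1 + -(1 / 2) * ψ p ≠ 0 := by linarith
      simp only [Pi.add_apply, Pi.smul_apply, smul_eq_mul]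
      rw [div_mul_eq_mul_div (1 + 1 / 2 * ψ p), div_mul_eq_mul_div (1 + -(1 / 2) * ψ p),
        mul_inv_cancel_left₀ a1, mul_inv_cancel_left₀ a2]
      ring⟩
  have e1 := congrFun e v
  have a1 : 1 + 1 / 2 * ψ p ≠ 0 := by linarith
  rw [inv_mul_eq_iff_eq_mul₀ a1] at e1
  linarith

end Vale.Agent.P032
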