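import Vale.Agent.P032.RigC

/-! Decoupling, flipping a root, and the rigidity theorem. -/

namespace Vale.Agent.P032

open scoped InnerProductSpace
open Filter Topology

variable {ψ : ℂ → ℝ} {M : (Circle → ℝ) →ₗ[ℝ] ℝ}

/-- the spherical functional equation for all power means -/
def Sph (M : (Circle → ℝ) →ₗ[ℝ] ℝ) (ψ : ℂ → ℝ) : Prop :=
  ∀ n : ℕ, n ≠ 0 → ∀ A B : ℂ, M (fun u => ψ (A + B * (u : ℂ) ^ n)) = ψ A * ψ B

lemma sph_of_extreme (h : PR ψ) (hext : ψ ∈ Set.extremePoints ℝ {χ : ℂ → ℝ | PR χ}) (hM : IM M) :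
    Sph M ψ := by
  intro n hn A B
  have := spherical h hext (hM.mp hn) (-B) A
  rw [Mp_apply, h.rad.neg, mul_comm] at this
  rw [← this]
  congr 1; funext u; congr 1; push_cast; ring

section
variable {H : Type} [NormedAddCommGroup H] [InnerProductSpace ℝ H] {i : ℂ → H}

lemma norm_B_le (h1 : ∀ v, ‖i v‖ ≤ 1) {c : ℝ} (hc : |c| ≤ 1) (x y : ℂ) : ‖i x - c • i y‖ ≤ 2 := by
  refine (norm_sub_le _ _).trans ?_
  rw [norm_smul, Real.norm_eq_abs]
  linarith [h1 x, mul_le_one₀ hc (norm_nonneg _) (h1 y)]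

lemma inner_B (hi : ∀ v w, ⟪i v, i w⟫_ℝ = ψ (v - w)) (c : ℝ) (x y x' y' : ℂ) :
    ⟪i x - c • i y, i x' - c • i y'⟫_ℝ =
      ψ (x - x') - c * ψ (x - y') - c * ψ (y - x') + c ^ 2 * ψ (y - y') := by
  simp only [inner_sub_left, inner_sub_right, real_inner_smul_left, real_inner_smul_right, hi]
  ring

lemma mean_B (h : PR ψ) (hS : Sph M ψ) (hi : ∀ v w, ⟪i v, i w⟫_ℝ = ψ (v - w)) {n : ℕ}
    (hn : n ≠ 0) {c : ℝ} {A A' : ℂ} (B B' : ℂ) (hA : ψ A = c) (hA' : ψ A' = c)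
    (r : Circle → Circle) :
    M (fun u => ⟪i (r u * (A + B * (u : ℂ) ^ n)) - c • i (r u * (B * (u : ℂ) ^ n)),
      i (r u * (A' + B' * (u : ℂ) ^ n)) - c • i (r u * (B' * (u : ℂ) ^ n))⟫_ℝ) =
      (ψ (A - A') - c ^ 2) * ψ (B - B') := by
  simp only [inner_B hi, ← mul_sub, h.rad.circ]
  have e : (fun u : Circle => ψ (A + B * (u : ℂ) ^ n - (A' + B' * (u : ℂ) ^ n)) -
      c * ψ (A + B * (u : ℂ) ^ n - B' * (u : ℂ) ^ n) -
      c * ψ (B * (u : ℂ) ^ n - (A' + B' * (u : ℂ) ^ n)) +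
      c ^ 2 * ψ (B * (u : ℂ) ^ n - B' * (u : ℂ) ^ n)) = fun u : Circle =>
      ψ (A - A' + (B - B') * (u : ℂ) ^ n) - c * ψ (A + (B - B') * (u : ℂ) ^ n) -
      c * ψ (-A' + (B - B') * (u : ℂ) ^ n) + c ^ 2 * ψ (0 + (B - B') * (u : ℂ) ^ n) := by
    funext u
    ring_nf
  rw [e, map_add'', map_sub'', map_sub'', map_mul'', map_mul'', map_mul'', hS n hn, hS n hn,
    hS n hn, hS n hn, h.rad.neg, hA, hA', h.one]
  ring

end

/-- the decoupling defect -/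
noncomputable def del (M : (Circle → ℝ) →ₗ[ℝ] ℝ) (ψ : ℂ → ℝ) (s : ℂ) (n : ℕ) : ℝ :=
  M fun t => (ψ (s - s * t) - ψ s ^ 2) * ψ (s - s * (t : ℂ) ^ n)

lemma decouple_le (h : PR ψ) (hM : IM M) (hS : Sph M ψ) {s q0 q1 q2 : ℂ} (h0 : ‖q0‖ = ‖s‖)
    (h1 : ‖q1‖ = ‖s‖) (h2 : ‖q2‖ = ‖s‖) (m : ℕ) :
    (M (fun u => ψ (q0 + q1 * u + q2 * (u : ℂ) ^ (m + 2))) - ψ s ^ 3) ^ 2 ≤ del M ψ s (m + 2) := by
  obtain ⟨H, _, _, _, i, hi1, hi⟩ := h.emb
  have := vdC hM.mean hM.inv (i (-q0)) (fun u : Circle => i (u * (q1 + q2 * (u : ℂ) ^ (m + 1))) -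
    ψ s • i (u * (q2 * (u : ℂ) ^ (m + 1)))) (hi1 _) fun u => norm_B_le hi1 (h.abs_le s) _ _
  convert this using 2
  · simp only [inner_sub_right, real_inner_smul_right, hi]
    rw [map_sub'', map_mul'']
    have e := hS (m + 2) (by omega) q0 q2
    rw [h.rad.of_norm h0, h.rad.of_norm h2] at e
    congr 1
    · congr 1; funext u; rw [← h.rad.neg]; congr 1; ring
    · rw [show ψ s ^ 3 = ψ s * (ψ s * ψ s) by ring, ← e]
      congr 2; funext u; rw [← h.rad.neg]; congr 1; ring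
  · unfold del
    congr 1; funext t
    have e := mean_B h hS hi (n := m + 1) (by omega) (c := ψ s) (A := q1) (A' := q1 * t) q2
      (q2 * (t : ℂ) ^ (m + 2)) (h.rad.of_norm h1)
      (h.rad.of_norm (by rw [norm_mul, Circle.norm_coe, mul_one, h1])) id
    have a1 : ψ (s - s * t) = ψ (q1 - q1 * t) := h.rad.of_norm (by
      rw [← mul_one_sub, ← mul_one_sub, norm_mul, norm_mul, h1])
    have a2 : ψ (s - s * (t : ℂ) ^ (m + 2)) = ψ (q2 - q2 * (t : ℂ) ^ (m + 2)) := h.rad.of_norm (by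
      rw [← mul_one_sub, ← mul_one_sub, norm_mul, norm_mul, h2])
    rw [a1, a2, ← e]
    congr 1; funext u
    simp only [id]
    congr 3
    · push_cast; ring
    · congr 1; push_cast; ring

lemma mean_zero (h : PR ψ) (hM : IM M) (hS : Sph M ψ) (s : ℂ) (x : Circle) {g : Circle → ℝ}
    (hg : ∀ t, |g t| ≤ 1) :
    M (fun t => M fun u => (ψ (s * (t * u : Circle) - s * x) - ψ s ^ 2) * g u) = 0 := by
  obtain ⟨H, _, _, _, i, hi1, hi⟩ := h.emb
  set A : Circle → H := fun t => i (s * t) - ψ s • i 0 with hA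
  have hA2 : ∀ t, ‖A t‖ ≤ 2 := fun t => norm_B_le hi1 (h.abs_le s) _ _
  have hAA : ∀ t t', ⟪A t, A t'⟫_ℝ = ψ (s * t - s * t') - ψ s ^ 2 := fun t t' => by
    simp only [hA, inner_B hi, sub_zero, zero_sub, h.rad.neg, mul_comm s, h.rad.circ, h.one]
    ring
  obtain ⟨a, -, ha⟩ := exists_wmean hM.mean A hA2
  obtain ⟨z, -, hz⟩ := exists_wmean hM.mean (fun u => g u • A (x * u⁻¹)) (C := 2) fun u => by
    rw [norm_smul, Real.norm_eq_abs]
    exact (mul_le_of_le_one_left (norm_nonneg _) (hg u)).trans (hA2 _)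
  have ha0 : a = 0 := by
    rw [← inner_self_eq_zero (𝕜 := ℝ), ha, ← hM.mean.const 0]
    congr 1; funext t
    rw [real_inner_comm, ha]
    simp only [hAA]
    have e := hS 1 one_ne_zero (-(s * t)) s
    rw [h.rad.neg, mul_comm s, h.rad.circ] at e
    rw [map_sub'', hM.mean.const, sq, ← e, sub_eq_zero]
    congr 1; funext u; congr 1; ring
  have := ha z
  rw [ha0, inner_zero_left] at this
  rw [this]
  congr 1; funext t
  rw [real_inner_comm, hz]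
  congr 1; funext u
  rw [real_inner_smul_left, real_inner_comm, hAA, mul_comm]
  congr 2
  refine (h.rad.congr_circ u ?_).symm
  push_cast; field_simp

lemma exists_del (h : PR ψ) (hM : IM M) (hS : Sph M ψ) (s : ℂ) {ε : ℝ} (hε : 0 < ε) :
    ∃ m, del M ψ s (m + 2) ≤ ε := by
  obtain ⟨H, _, _, _, i, hi1, hi⟩ := h.emb
  obtain ⟨H', _, _, _, F, hF2, hF⟩ := exists_hilb_mean (I := Circle × Circle) hM.mean
    (fun p (u : Circle) => i ((1 : Circle) * (s * p.1 + s * p.2 * (u : ℂ) ^ 1)) -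
      ψ s • i ((1 : Circle) * (s * p.2 * (u : ℂ) ^ 1))) (C := 2)
    fun p u => norm_B_le hi1 (h.abs_le s) _ _
  have hs : ∀ x : Circle, ψ (s * x) = ψ s := fun x => by rw [mul_comm, h.rad.circ]
  replace hF : ∀ p q : Circle × Circle, ⟪F p, F q⟫_ℝ =
      (ψ (s * p.1 - s * q.1) - ψ s ^ 2) * ψ (s * p.2 - s * q.2) := fun p q => by
    rw [hF, mean_B h hS hi one_ne_zero _ _ (hs _) (hs _) fun _ => 1]
  have hFb : ∀ p q, |⟪F p, F q⟫_ℝ| ≤ |2| * |2| := fun p q => abs_inner_le (hF2 p) (hF2 q)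
  have hFs : ∀ (w w' : Circle) (p q : Circle × Circle),
      ⟪F (w * p.1, w' * p.2), F (w * q.1, w' * q.2)⟫_ℝ = ⟪F p, F q⟫_ℝ := fun w w' p q => by
    rw [hF, hF]
    congr 1
    · congr 1; refine (h.rad.congr_circ w ?_).symm; push_cast; ring
    · refine (h.rad.congr_circ w' ?_).symm; push_cast; ring
  choose η hη2 hη using fun n : ℕ => exists_wmean hM.mean (fun t => F (t, t ^ n)) fun _ => hF2 _
  have e1 : ∀ n, ⟪η n, F (1, 1)⟫_ℝ = del M ψ s n := fun n => by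
    rw [hη, del]
    congr 1; funext t
    rw [real_inner_comm, hF]; simp
  have e2 : ∀ n, ⟪η n, η n⟫_ℝ = del M ψ s n := fun n => by
    rw [hη, ← hM.mean.const (del M ψ s n)]
    congr 1; funext t
    rw [real_inner_comm, ← e1, hη, hη,
      ← hM.inv (fun u => ⟪F (u, u ^ n), F (t, t ^ n)⟫_ℝ) _ (fun _ => hFb _ _) t]
    congr 1; funext u
    simpa [mul_pow] using hFs t (t ^ n) (u, u ^ n) (1, 1)
  have e3 : ∀ n k, k ≠ 0 → ⟪η (n + k), η n⟫_ℝ = 0 := fun n k hk => by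
    choose V hV2 hV using fun t : Circle =>
      exists_wmean hM.mean (fun u => F (t * u, u ^ n)) fun _ => hF2 _
    obtain ⟨W, -, hW⟩ := exists_wmean hM.mean V hV2
    have a1 : ∀ t, ⟪V t, η (n + k)⟫_ℝ = ⟪η n, η (n + k)⟫_ℝ := fun t => by
      obtain ⟨w, rfl⟩ := exists_root t hk
      rw [hV, hη, ← hM.inv (fun u => ⟪F (u, u ^ n), η (n + k)⟫_ℝ) _
        (fun _ => abs_inner_le (hF2 _) (hη2 _)) (w ^ (n + k))]
      congr 1; funext u
      rw [real_inner_comm, hη, real_inner_comm, hη, ← hM.inv (fun x => ⟪F (x, x ^ (n + k)),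
        F (w ^ (n + k) * u, (w ^ (n + k) * u) ^ n)⟫_ℝ) _ (fun _ => hFb _ _) (w ^ n)]
      congr 1; funext x
      rw [← hFs (w ^ n) (w ^ (n * (n + k))) (x, x ^ (n + k)) (w ^ k * u, u ^ n)]
      simp only [mul_pow, ← pow_mul, ← mul_assoc, ← pow_add, mul_comm n (n + k)]
    have a2 : ⟪η (n + k), W⟫_ℝ = 0 := by
      rw [hη, ← hM.mean.const 0]
      congr 1; funext x
      rw [real_inner_comm, hW]
      simp only [hV, hF]
      exact mean_zero h hM hS s x fun _ => h.abs_le _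
    rw [real_inner_comm, hW] at a2
    simp only [a1, hM.mean.const] at a2
    rw [real_inner_comm, a2]
  have e4 : ∀ n k, n ≠ k → ⟪η n, η k⟫_ℝ = 0 := fun n k hnk => by
    rcases lt_or_gt_of_ne hnk with hl | hl
    · obtain ⟨j, rfl⟩ := Nat.exists_eq_add_of_lt hl
      rw [real_inner_comm, add_assoc]; exact e3 _ _ (by omega)
    · obtain ⟨j, rfl⟩ := Nat.exists_eq_add_of_lt hl
      rw [add_assoc]; exact e3 _ _ (by omega)
  by_contra hc
  simp only [not_exists, not_le] at hc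
  obtain ⟨N, hN⟩ := exists_nat_gt (1 / ε)
  have b0 : 0 ≤ ⟪F (1, 1) - ∑ m ∈ Finset.range N, η (m + 2),
      F (1, 1) - ∑ m ∈ Finset.range N, η (m + 2)⟫_ℝ := real_inner_self_nonneg
  have b1 : ⟪∑ m ∈ Finset.range N, η (m + 2), F (1, 1)⟫_ℝ =
      ∑ m ∈ Finset.range N, del M ψ s (m + 2) := by simp only [sum_inner, e1]
  have b2 : ⟪∑ m ∈ Finset.range N, η (m + 2), ∑ m ∈ Finset.range N, η (m + 2)⟫_ℝ =
      ∑ m ∈ Finset.range N, del M ψ s (m + 2) := by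
    rw [sum_inner]
    refine Finset.sum_congr rfl fun m hm => ?_
    rw [inner_sum, Finset.sum_eq_single m, e2]
    · exact fun k _ hk => e4 _ _ (by omega)
    · exact fun h => absurd hm h
  rw [inner_sub_left, inner_sub_right, inner_sub_right, b1, b2, hF, real_inner_comm, b1] at b0
  simp only [sub_self, h.one] at b0
  have b3 : ∑ _m ∈ Finset.range N, ε ≤ ∑ m ∈ Finset.range N, del M ψ s (m + 2) :=
    Finset.sum_le_sum fun m _ => (hc m).le
  simp only [Finset.sum_const, Finset.card_range, nsmul_eq_mul] at b3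
  rw [div_lt_iff₀ hε] at hN
  nlinarith [sq_nonneg (ψ s)]

lemma exists_triangle {a b : ℝ} (ha : |a - 1| < 1 / 10) (hb : |b - 1| < 1 / 10) :
    ∃ t1 t2 : ℂ, ‖t1‖ = 1 ∧ ‖t2‖ = 1 ∧ 1 + t1 * a + t2 * b = 0 := by
  obtain ⟨a1, a2⟩ := abs_lt.1 ha
  obtain ⟨b1, b2⟩ := abs_lt.1 hb
  have ha0 : 0 < a := by linarith
  have hb0 : 0 < b := by linarith
  set x := (b ^ 2 - a ^ 2 - 1) / 2 with hx
  have hx2 : 0 ≤ a ^ 2 - x ^ 2 := by
    have c1 : -a ≤ x := by rw [hx]; nlinarith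
    have c2 : x ≤ a := by rw [hx]; nlinarith
    nlinarith
  set z : ℂ := ⟨x, √(a ^ 2 - x ^ 2)⟩ with hz
  have n1 : ‖z‖ = a := by
    rw [← sq_eq_sq₀ (norm_nonneg _) ha0.le, Complex.sq_norm, hz, Complex.normSq_mk,
      Real.mul_self_sqrt hx2]; ring
  have n2 : ‖1 + z‖ = b := by
    rw [← sq_eq_sq₀ (norm_nonneg _) hb0.le, Complex.sq_norm, Complex.normSq_apply]
    simp only [hz, Complex.add_re, Complex.one_re, Complex.add_im, Complex.one_im, zero_add]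
    rw [Real.mul_self_sqrt hx2, hx]; ring
  have ha' : (a : ℂ) ≠ 0 := by exact_mod_cast ha0.ne'
  have hb' : (b : ℂ) ≠ 0 := by exact_mod_cast hb0.ne'
  refine ⟨z / a, -(1 + z) / b, ?_, ?_, by field_simp; ring⟩
  · rw [norm_div, n1, Complex.norm_real, Real.norm_of_nonneg ha0.le, div_self ha0.ne']
  · rw [norm_div, norm_neg, n2, Complex.norm_real, Real.norm_of_nonneg hb0.le, div_self hb0.ne']

lemma flip (s : ℂ) (m : ℕ) {ρ : ℝ} {t1 t2 : ℂ} (ht : 1 + t1 * ρ + t2 * (ρ : ℂ) ^ (m + 2) = 0) :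
    ∃ p : ℕ → ℂ, p (m + 2) = -(ρ * (s * t2)) ∧ ∀ u : Circle,
      ‖∑ j ∈ Finset.range (m + 2 + 1), p j * (u : ℂ) ^ j‖ =
        ‖s + s * t1 * u + s * t2 * (u : ℂ) ^ (m + 2)‖ := by
  refine ⟨fun j => if j = m + 2 then -(ρ * (s * t2)) else
    (1 - ρ ^ 2) * s * t2 * (ρ : ℂ) ^ (m + 2 - 1 - j) +
      (if j = 0 then (1 - ρ ^ 2) * s * t1 - ρ * s else 0) - (if j = 1 then ρ * s * t1 else 0),
    by simp, fun u => ?_⟩
  set g := ∑ j ∈ Finset.range (m + 2), (u : ℂ) ^ j * (ρ : ℂ) ^ (m + 2 - 1 - j) with hg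
  have hgs : g * (u - ρ) = (u : ℂ) ^ (m + 2) - (ρ : ℂ) ^ (m + 2) := geom_sum₂_mul _ _ _
  have e1 : s + s * t1 * u + s * t2 * (u : ℂ) ^ (m + 2) = (u - ρ) * (s * (t1 + t2 * g)) := by
    linear_combination s * ht - s * t2 * hgs
  have e2 : ∑ j ∈ Finset.range (m + 2), (if j = m + 2 then -(ρ * (s * t2)) else
      (1 - ρ ^ 2) * s * t2 * (ρ : ℂ) ^ (m + 2 - 1 - j) +
      (if j = 0 then (1 - ρ ^ 2) * s * t1 - ρ * s else 0) - (if j = 1 then ρ * s * t1 else 0)) *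
      (u : ℂ) ^ j = (1 - ρ ^ 2) * s * t2 * g + ((1 - ρ ^ 2) * s * t1 - ρ * s) - ρ * s * t1 * u := by
    rw [Finset.sum_congr rfl fun j hj => by rw [if_neg (Finset.mem_range.1 hj).ne]]
    simp only [sub_mul, add_mul, ite_mul, zero_mul, Finset.sum_sub_distrib, Finset.sum_add_distrib,
      Finset.sum_ite_eq', Finset.mem_range, hg, Finset.mul_sum]
    simp only [show 0 < m + 2 by omega, show 1 < m + 2 by omega, if_true, pow_zero, pow_one, mul_one]
    rw [← Finset.sum_sub_distrib, ← Finset.sum_sub_distrib]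
    congr 2
    exact Finset.sum_congr rfl fun j _ => by ring
  rw [Finset.sum_range_succ, e2, e1]
  simp only [if_true]
  have e3 : (1 - ρ ^ 2) * s * t2 * g + ((1 - ρ ^ 2) * s * t1 - ρ * s) - ρ * s * t1 * u +
      -(ρ * (s * t2)) * (u : ℂ) ^ (m + 2) = (1 - ρ * u) * (s * (t1 + t2 * g)) := by
    linear_combination (-(ρ : ℂ)) * e1
  rw [e3, norm_mul, norm_mul (_ - _)]
  congr 1
  have : (1 - ρ * u : ℂ) = u * (starRingEnd ℂ) (u - ρ) := by
    rw [map_sub, Complex.conj_ofReal, mul_sub, Complex.mul_conj, Circle.normSq_coe]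
    push_cast; ring
  rw [this, norm_mul, Circle.norm_coe, one_mul, Complex.norm_conj]

lemma rigid_PR {φ : ℂ → ℝ} (h : PR φ) (hw : WildT φ) {s : ℂ} (hs0 : s ≠ 0) : φ s = 0 := by
  by_contra hs
  obtain ⟨ψ, hψ, hwψ, hc, hext⟩ := exists_extreme h hw hs
  obtain ⟨M, hM1, hM2⟩ := exists_mean Circle
  have hM : IM M := ⟨hM1, hM2⟩
  have hS := sph_of_extreme hψ hext hM
  obtain ⟨m, hm⟩ := exists_del hψ hM hS s (ε := (ψ s ^ 3) ^ 2 / 4) (by positivity)
  set κ := ((ψ s ^ 3) ^ 2 / 4) ^ (2 ^ (m + 2)) with hκ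
  have hκ0 : 0 < κ := by positivity
  have hΦ := hψ.iter hM (m + 2 + 1)
  have hev : ∀ᶠ ρ : ℝ in 𝓝 1, |ρ - 1| < 1 / 10 ∧ |ρ ^ (m + 2) - 1| < 1 / 10 := by
    have c1 : ContinuousAt (fun ρ : ℝ => |ρ - 1|) 1 := by fun_prop
    have c2 : ContinuousAt (fun ρ : ℝ => |ρ ^ (m + 2) - 1|) 1 := by fun_prop
    exact (c1.eventually (gt_mem_nhds (by simp))).and (c2.eventually (gt_mem_nhds (by simp)))
  obtain ⟨τ, hτ, hball⟩ := Metric.eventually_nhds_iff.1 hev
  have hsn : 0 < ‖s‖ := norm_pos_iff.2 hs0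
  have key : ∀ q : ℂ, ‖q - s‖ < τ * ‖s‖ → κ ≤ (DD M)^[m + 2 + 1] ψ q := by
    intro q hq
    obtain ⟨r1, r2⟩ := hball (y := ‖q‖ / ‖s‖) (by
      rw [Real.dist_eq, div_sub_one hsn.ne', abs_div, abs_of_pos hsn, div_lt_iff₀ hsn]
      exact (abs_norm_sub_norm_le q s).trans_lt hq)
    obtain ⟨t1, t2, n1, n2, ht⟩ := exists_triangle r1 r2
    rw [Complex.ofReal_pow] at ht
    obtain ⟨p, hp1, hp2⟩ := flip s m ht
    have a1 := poly_vdC hψ hM (m + 2) p
    have a2 := (decouple_le hψ hM hS (s := s) (q0 := s) (q1 := s * t1) (q2 := s * t2) rfl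
      (by rw [norm_mul, n1, mul_one]) (by rw [norm_mul, n2, mul_one]) m).trans hm
    simp only [fun u => hψ.rad.of_norm (hp2 u)] at a1
    rw [hΦ.rad.of_norm (w := q) (by
      rw [hp1, norm_neg, norm_mul, norm_mul, n2, mul_one, Complex.norm_real,
        Real.norm_of_nonneg (by positivity), div_mul_cancel₀ _ hsn.ne'])] at a1
    refine le_trans ?_ a1
    rw [pow_succ' 2 (m + 2), pow_mul, hκ]
    refine pow_le_pow_left₀ (by positivity) ?_ _
    set x := M fun u : Circle => ψ (s + s * t1 * u + s * t2 * (u : ℂ) ^ (m + 2))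
    nlinarith [sq_nonneg (2 * x - ψ s ^ 3)]
  obtain ⟨ι, _, w, v, h0, h1, h2, h3⟩ := hwψ.iter hψ hM (m + 2 + 1)
    (min (τ * ‖s‖ / 2) ((κ / 2) ^ 2)) (by positivity)
  obtain ⟨H, _, _, _, i, hi1, hi⟩ := hΦ.emb
  have b1 : ‖∑ a, w a • i (v a + 0)‖ ≤ κ / 2 := by
    refine (abs_le_of_sq_le_sq' ?_ (by positivity)).2
    rw [norm_sq_En hi]; exact h3.trans (min_le_right _ _)
  have b2 := (le_abs_self _).trans (abs_inner_le (hi1 s) b1)
  simp only [inner_sum, real_inner_smul_right, hi, add_zero] at b2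
  have b3 : ∑ a, w a * κ ≤ ∑ a, w a * (DD M)^[m + 2 + 1] ψ (s - v a) :=
    Finset.sum_le_sum fun a _ => mul_le_mul_of_nonneg_left (key _ (by
      rw [sub_sub_cancel_left, norm_neg]
      have := (h2 a).trans (min_le_left _ _)
      have : 0 < τ * ‖s‖ := by positivity
      linarith)) (h0 a)
  rw [← Finset.sum_mul, h1] at b3
  linarith

/-- rigidity: a radial positive definite function without continuous part is a nugget -/
theorem rigid {φ : ℂ → ℝ} (hp : PD φ) (hr : Radial φ) (hw : Wild φ) :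
    ∀ v : ℂ, v ≠ 0 → φ v = 0 := by
  intro s hs
  have hb : ∀ σ : ℝ, σ ^ 2 = 1 → 0 ≤ φ 0 + σ * φ s := fun σ hσ => by
    have := hp 2 ![1, σ] ![s, 0]
    simp only [Fin.sum_univ_two, Matrix.cons_val_zero, Matrix.cons_val_one, sub_self, sub_zero,
      zero_sub, hr.neg] at this
    rw [← sq σ, hσ] at this
    linarith
  have b1 := hb 1 (by norm_num)
  have b2 := hb (-1) (by norm_num)
  rcases (show 0 ≤ φ 0 by linarith).eq_or_lt with h0 | h0
  · linarith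
  have h := rigid_PR (φ := fun v => (φ 0)⁻¹ * φ v) ⟨fun n c v => ?_, fun u v hu => by rw [hr u v hu],
    inv_mul_cancel₀ h0.ne'⟩ (fun ε hε => ?_) hs
  · simpa [h0.ne'] using h
  · simp only [mul_left_comm _ (φ 0)⁻¹, ← Finset.mul_sum]
    exact mul_nonneg (inv_nonneg.2 h0.le) (hp n c v)
  · obtain ⟨n, w, v, a0, a1, a2, a3⟩ := hw (min ε (φ 0 * ε)) (by positivity)
    refine ⟨Fin n, inferInstance, w, v, a0, a1, fun i => (a2 i).trans (min_le_left _ _), ?_⟩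
    simp only [En, mul_left_comm _ (φ 0)⁻¹, ← Finset.mul_sum]
    rw [inv_mul_le_iff₀ h0]
    exact a3.trans (min_le_right _ _)

end Vale.Agent.P032
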