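import Vale.Agent.P032.Defs

/-! Separation lemmas in compact sets (cut wire theorem and consequences). -/

namespace Vale.Agent.P032

open Set Metric

/-- cut wire theorem -/
theorem sep {X : Type*} [TopologicalSpace X] [T2Space X] {M A B : Set X} (hM : IsCompact M)
    (hA : IsClosed A) (hB : IsClosed B)
    (h : ∀ C ⊆ M, IsCompact C → IsPreconnected C → (C ∩ A).Nonempty → (C ∩ B).Nonempty → False) :
    ∃ M₁ M₂ : Set X, IsCompact M₁ ∧ IsCompact M₂ ∧ Disjoint M₁ M₂ ∧ M₁ ∪ M₂ = M ∧
      Disjoint M₁ B ∧ Disjoint M₂ A := by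
  classical
  have : CompactSpace M := isCompact_iff_compactSpace.mp hM
  set A' : Set M := Subtype.val ⁻¹' A with hA'
  set B' : Set M := Subtype.val ⁻¹' B with hB'
  have hA'c : IsCompact A' := (hA.preimage continuous_subtype_val).isCompact
  have hB'c : IsCompact B' := (hB.preimage continuous_subtype_val).isCompact
  have key : ∀ a ∈ A', ∃ U : Set M, IsClopen U ∧ a ∈ U ∧ Disjoint U B' := by
    intro a ha
    have hdis : B' ∩ ⋂ s : { s : Set M // IsClopen s ∧ a ∈ s }, (s : Set M) = ∅ := by
      rw [← connectedComponent_eq_iInter_isClopen]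
      by_contra hne
      obtain ⟨b, hb1, hb2⟩ := nonempty_iff_ne_empty.mpr hne
      refine h (Subtype.val '' connectedComponent a) ?_ ?_ ?_ ⟨a, ⟨a, mem_connectedComponent, rfl⟩, ha⟩
        ⟨b, ⟨b, hb2, rfl⟩, hb1⟩
      · rintro _ ⟨x, -, rfl⟩; exact x.2
      · exact (isClosed_connectedComponent.isCompact).image continuous_subtype_val
      · exact isPreconnected_connectedComponent.image _ continuous_subtype_val.continuousOn
    obtain ⟨t, ht⟩ := hB'c.elim_finite_subfamily_closed _ (fun s => s.2.1.isClosed) hdis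
    refine ⟨⋂ s ∈ t, (s : Set M), ?_, ?_, ?_⟩
    · exact t.finite_toSet.isClopen_biInter (fun s _ => s.2.1)
    · exact mem_iInter₂.mpr fun s _ => s.2.2
    · rw [disjoint_iff_inter_eq_empty, inter_comm]; exact ht
  choose! U hU1 hU2 hU3 using key
  obtain ⟨t, ht1, ht2⟩ := hA'c.elim_nhds_subcover U
    (fun a ha => (hU1 a ha).isOpen.mem_nhds (hU2 a ha))
  set V : Set M := ⋃ a ∈ t, U a with hV
  have hVc : IsClopen V := t.finite_toSet.isClopen_biUnion (fun a ha => hU1 a (ht1 a ha))
  refine ⟨Subtype.val '' V, Subtype.val '' Vᶜ, hVc.isClosed.isCompact.image continuous_subtype_val,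
    hVc.compl.isClosed.isCompact.image continuous_subtype_val, ?_, ?_, ?_, ?_⟩
  · exact (disjoint_image_iff Subtype.val_injective).mpr disjoint_compl_right
  · rw [← image_union, union_compl_self, image_univ, Subtype.range_coe]
  · rw [Set.disjoint_left]
    rintro _ ⟨x, hx, rfl⟩ hxB
    obtain ⟨a, ha, hxa⟩ := mem_iUnion₂.mp hx
    exact Set.disjoint_left.mp (hU3 a (ht1 a ha)) hxa hxB
  · rw [Set.disjoint_left]
    rintro _ ⟨x, hx, rfl⟩ hxA
    exact hx (ht2 hxA)

/-- boundary bumping: a closed connected set containing `z` and leaving the closed ball contains a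
continuum inside the ball from `z` to the sphere -/
theorem bump {C : Set ℂ} (hC : IsClosed C) (hc : IsPreconnected C) {z u : ℂ} {r : ℝ} (hr : 0 < r)
    (hz : z ∈ C) (hu : u ∈ C) (hur : r ≤ dist u z) :
    ∃ K ⊆ C ∩ closedBall z r, IsCompact K ∧ IsPreconnected K ∧ z ∈ K ∧
      ∃ v ∈ K, dist v z = r := by
  by_contra hcon
  push Not at hcon
  have hM : IsCompact (C ∩ closedBall z r) := (isCompact_closedBall z r).inter_left hC
  obtain ⟨M₁, M₂, h1, h2, hd, hun, hB, hA⟩ := sep (A := {z}) (B := sphere z r) hM isClosed_singleton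
    isClosed_sphere (by
      rintro K hK hKc hKp ⟨a, ha, ha'⟩ ⟨b, hb, hb'⟩
      rw [mem_singleton_iff] at ha'
      subst ha'
      exact hcon K hK hKc hKp ha b hb (mem_sphere.mp hb'))
  have hzM : z ∈ M₁ := by
    have : z ∈ M₁ ∪ M₂ := by rw [hun]; exact ⟨hz, mem_closedBall_self hr.le⟩
    rcases this with h | h
    · exact h
    · exact absurd rfl (Set.disjoint_left.mp hA h)
  have hsub : ∀ y ∈ M₁, y ∈ C ∧ dist y z < r := by
    intro y hy
    have : y ∈ C ∩ closedBall z r := by rw [← hun]; exact Or.inl hy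
    refine ⟨this.1, lt_of_le_of_ne (mem_closedBall.mp this.2) ?_⟩
    intro h
    exact Set.disjoint_left.mp hB hy (mem_sphere.mpr h)
  have hcl : IsClosed (M₂ ∪ (ball z r)ᶜ) := h2.isClosed.union isOpen_ball.isClosed_compl
  have := (isPreconnected_closed_iff.mp hc) M₁ (M₂ ∪ (ball z r)ᶜ) h1.isClosed hcl (by
      intro y hy
      by_cases hyb : y ∈ ball z r
      · have : y ∈ M₁ ∪ M₂ := by rw [hun]; exact ⟨hy, ball_subset_closedBall hyb⟩
        rcases this with h | h
        · exact Or.inl h
        · exact Or.inr (Or.inl h)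
      · exact Or.inr (Or.inr hyb)) ⟨z, hz, hzM⟩
      ⟨u, hu, Or.inr (by simp only [mem_compl_iff, mem_ball, not_lt]; exact hur)⟩
  obtain ⟨y, -, hy1, hy2⟩ := this
  rcases hy2 with h | h
  · exact Set.disjoint_left.mp hd hy1 h
  · exact h (mem_ball.mpr (hsub y hy1).2)

/-- a closed connected nontrivial set inside `M ∪ X` with `M` closed and `X` totally disconnected
lies in `M` -/
theorem absorb {C M X : Set ℂ} (hC : IsClosed C) (hc : IsPreconnected C) (hnt : C.Nontrivial)
    (hM : IsClosed M) (hX : IsTotallyDisconnected X) (hsub : C ⊆ M ∪ X) : C ⊆ M := by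
  intro z hz
  by_contra hzM
  obtain ⟨u, hu, huz⟩ := hnt.exists_ne z
  obtain ⟨e, he, heM⟩ := Metric.isOpen_iff.mp hM.isOpen_compl z hzM
  have hd : 0 < dist u z := dist_pos.mpr huz
  obtain ⟨K, hK, -, hKp, hzK, v, hv, hvz⟩ := bump hC hc (r := min (e / 2) (dist u z))
    (lt_min (by linarith) hd) hz hu (min_le_right _ _)
  have hKX : K ⊆ X := by
    intro y hy
    rcases hsub (hK hy).1 with h | h
    · exfalso
      have : y ∈ ball z e := by
        have := mem_closedBall.mp (hK hy).2
        have h2 := min_le_left (e / 2) (dist u z)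
        exact mem_ball.mpr (by linarith)
      exact heM this h
    · exact h
  have := hX K hKX hKp hv hzK
  rw [this, dist_self] at hvz
  exact absurd hvz (lt_min (by linarith) hd).ne

theorem td_union {X Y : Set ℂ} (hX : IsClosed X) (hY : IsClosed Y)
    (hX' : IsTotallyDisconnected X) (hY' : IsTotallyDisconnected Y) :
    IsTotallyDisconnected (X ∪ Y) := by
  intro C hC hc
  by_contra hnt
  rw [not_subsingleton_iff] at hnt
  have h1 : closure C ⊆ X ∪ Y := closure_minimal hC (hX.union hY)
  have h2 := absorb isClosed_closure hc.closure (hnt.mono subset_closure) hX hY' h1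
  exact (hnt.mono subset_closure).not_subsingleton (hX' _ h2 hc.closure)

theorem td_mono {X Y : Set ℂ} (h : X ⊆ Y) (hY : IsTotallyDisconnected Y) :
    IsTotallyDisconnected X := fun t ht hp => hY t (ht.trans h) hp

/-- small open neighbourhoods whose frontier misses a closed set in which the point is a
component -/
theorem sepOpen {Y : Set ℂ} (hY : IsClosed Y) {x : ℂ}
    (h : ∀ C ⊆ Y, IsCompact C → IsPreconnected C → x ∈ C → C.Subsingleton) {r : ℝ} (hr : 0 < r) :
    ∃ U : Set ℂ, IsOpen U ∧ x ∈ U ∧ closure U ⊆ ball x r ∧ Disjoint (frontier U) Y := by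
  have hr2 : 0 < r / 2 := by linarith
  by_cases hxY : x ∈ Y
  swap
  · obtain ⟨e, he, heY⟩ := Metric.isOpen_iff.mp hY.isOpen_compl x hxY
    have hm : 0 < min (e / 2) (r / 2) := lt_min (by linarith) hr2
    refine ⟨ball x (min (e / 2) (r / 2)), isOpen_ball, mem_ball_self hm, ?_, ?_⟩
    · refine closure_ball_subset_closedBall.trans (closedBall_subset_ball ?_)
      have := min_le_right (e / 2) (r / 2); linarith
    · rw [Set.disjoint_left]
      intro y hy hyY
      have h1 : y ∈ closedBall x (min (e / 2) (r / 2)) :=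
        closure_ball_subset_closedBall (frontier_subset_closure hy)
      have h2 := min_le_left (e / 2) (r / 2)
      exact heY (mem_ball.mpr (by have := mem_closedBall.mp h1; linarith)) hyY
  have hM : IsCompact (Y ∩ closedBall x (r / 2)) := (isCompact_closedBall x _).inter_left hY
  obtain ⟨M₁, M₂, h1, h2, hd, hun, hB, hA⟩ := sep (A := {x}) (B := sphere x (r / 2)) hM
    isClosed_singleton isClosed_sphere (by
      rintro K hK hKc hKp ⟨a, ha, ha'⟩ ⟨b, hb, hb'⟩
      rw [mem_singleton_iff] at ha'
      subst ha'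
      have := h K (hK.trans inter_subset_left) hKc hKp ha hb ha
      rw [this, mem_sphere, dist_self] at hb'
      exact hr2.ne hb')
  have hxM : x ∈ M₁ := by
    have : x ∈ M₁ ∪ M₂ := by rw [hun]; exact ⟨hxY, mem_closedBall_self hr2.le⟩
    rcases this with h | h
    · exact h
    · exact absurd rfl (Set.disjoint_left.mp hA h)
  have hcl : IsClosed (M₂ ∪ (ball x (r / 2))ᶜ) := h2.isClosed.union isOpen_ball.isClosed_compl
  have hdis : M₁ ⊆ (M₂ ∪ (ball x (r / 2))ᶜ)ᶜ := by
    intro y hy hy2
    rcases hy2 with h | h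
    · exact Set.disjoint_left.mp hd hy h
    · have : y ∈ Y ∩ closedBall x (r / 2) := by rw [← hun]; exact Or.inl hy
      apply h
      refine mem_ball.mpr (lt_of_le_of_ne (mem_closedBall.mp this.2) ?_)
      intro h
      exact Set.disjoint_left.mp hB hy (mem_sphere.mpr h)
  obtain ⟨U, hU, hMU, hUc⟩ := normal_exists_closure_subset h1.isClosed hcl.isOpen_compl hdis
  have hball : closure U ⊆ ball x (r / 2) := by
    intro y hy
    by_contra hh
    exact hUc hy (Or.inr hh)
  refine ⟨U, hU, hMU hxM, hball.trans (ball_subset_ball (by linarith)), ?_⟩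
  rw [Set.disjoint_left]
  intro y hy hyY
  have hy1 := frontier_subset_closure hy
  have : y ∈ M₁ ∪ M₂ := by rw [hun]; exact ⟨hyY, ball_subset_closedBall (hball hy1)⟩
  rcases this with h | h
  · rw [hU.frontier_eq] at hy
    exact hy.2 (hMU h)
  · exact hUc hy1 (Or.inl h)

/-- a totally disconnected subset of the plane has empty interior -/
theorem td_exists_notMem {X U : Set ℂ} (hX : IsTotallyDisconnected X) (hU : IsOpen U)
    (hne : U.Nonempty) : ∃ z ∈ U, z ∉ X := by
  by_contra hcon
  push Not at hcon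
  obtain ⟨x, hx⟩ := hne
  obtain ⟨e, he, heU⟩ := Metric.isOpen_iff.mp hU x hx
  have := hX (ball x e) (fun y hy => hcon y (heU hy)) (convex_ball x e).isPreconnected
  have h2 : x + (e / 2 : ℝ) ∈ ball x e := by
    rw [mem_ball, dist_eq_norm, add_sub_cancel_left, Complex.norm_real, Real.norm_eq_abs,
      abs_of_pos (by linarith)]
    linarith
  have h3 := this h2 (mem_ball_self he)
  have : ((e / 2 : ℝ) : ℂ) = 0 := by simpa using h3
  have : e / 2 = 0 := by exact_mod_cast this
  linarith

end Vale.Agent.P032
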